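import Vale.Agent.P266.Der

open Polynomial

noncomputable section

namespace Vale.Agent.P266

variable {K : Type} [Field K] [Algebra ℂ K]

theorem fin_aux (P : Type) [CommRing P] [IsDomain P] [IsIntegrallyClosed P] [Algebra ℂ P]
    [Algebra.FiniteType ℂ P] [Algebra P K] [IsScalarTower ℂ P K] [FaithfulSMul P K]
    [Algebra.IsAlgebraic P K] [Algebra.EssFiniteType ℂ K] :
    Algebra.FiniteType ℂ ((integralClosure P K).restrictScalars ℂ) := by
  have : IsNoetherianRing P := Algebra.FiniteType.isNoetherianRing ℂ P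
  let := FractionRing.liftAlgebra P K
  have : IsScalarTower ℂ (FractionRing P) K := .of_algebraMap_eq fun c => by
    rw [IsScalarTower.algebraMap_apply ℂ P (FractionRing P), ← IsScalarTower.algebraMap_apply,
      ← IsScalarTower.algebraMap_apply]
  have : Algebra.IsAlgebraic (FractionRing P) K :=
    Algebra.IsAlgebraic.extendScalars (IsFractionRing.injective P _)
  have := Algebra.EssFiniteType.of_comp ℂ (FractionRing P) K
  have : Module.Finite (FractionRing P) K := Algebra.finite_of_essFiniteType_of_isAlgebraic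
  have : CharZero (FractionRing P) :=
    (RingHom.charZero_iff (algebraMap ℂ _).injective).1 inferInstance
  have := IsIntegralClosure.finite P (FractionRing P) K (integralClosure P K)
  have h : Algebra.FiniteType ℂ (integralClosure P K) :=
    Algebra.FiniteType.trans (S := P) inferInstance inferInstance
  exact h

theorem icl_fg (A₀ S : Subalgebra ℂ K) (h₀ : A₀.FG) (halg : Algebra.IsAlgebraic A₀ K)
    (hS : S.FG) (hS' : FracTop S) : (icl A₀).FG := by
  have : Algebra.FiniteType ℂ A₀ := ⟨(Subalgebra.fg_top _).2 h₀⟩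
  have : Algebra.FiniteType ℂ S := ⟨(Subalgebra.fg_top _).2 hS⟩
  have := der_isFractionRing S hS'
  have := Algebra.EssFiniteType.of_isLocalization K (nonZeroDivisors S)
  have := Algebra.EssFiniteType.comp ℂ S K
  obtain ⟨s, g, hi, hg⟩ := exists_integral_inj_algHom_of_fg ℂ A₀
  let := g.toRingHom.toAlgebra
  let := (A₀.val.comp g).toRingHom.toAlgebra
  have : IsScalarTower (MvPolynomial (Fin s) ℂ) A₀ K := .of_algebraMap_eq fun _ => rfl
  have : IsScalarTower ℂ (MvPolynomial (Fin s) ℂ) K :=
    .of_algebraMap_eq fun c => ((A₀.val.comp g).commutes c).symm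
  have : FaithfulSMul (MvPolynomial (Fin s) ℂ) K :=
    (faithfulSMul_iff_algebraMap_injective _ _).2 (Subtype.val_injective.comp hi)
  have : Algebra.IsIntegral (MvPolynomial (Fin s) ℂ) A₀ := ⟨hg⟩
  have : Algebra.IsAlgebraic (MvPolynomial (Fin s) ℂ) K := Algebra.IsAlgebraic.trans _ A₀ K
  have e : icl A₀ = (integralClosure (MvPolynomial (Fin s) ℂ) K).restrictScalars ℂ :=
    Subalgebra.ext fun z => ⟨fun h => isIntegral_trans (A := A₀) z h, fun h => IsIntegral.tower_top h⟩
  rw [e]
  exact (Subalgebra.fg_top _).1 (fin_aux (MvPolynomial (Fin s) ℂ)).1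

theorem dim_le_two (x y : K) (hxy : Algebra.IsAlgebraic (Algebra.adjoin ℂ ({x, y} : Set K)) K)
    (A : Subalgebra ℂ K) (hA : A.FG) : ringKrullDim A ≤ 2 := by
  have : Algebra.FiniteType ℂ A := ⟨(Subalgebra.fg_top _).2 hA⟩
  obtain ⟨s, g, hi, hg⟩ := exists_integral_inj_algHom_of_fg ℂ A
  let := g.toRingHom.toAlgebra
  have : Algebra.IsIntegral (MvPolynomial (Fin s) ℂ) A := ⟨hg⟩
  have h1 : ringKrullDim A ≤ ringKrullDim (MvPolynomial (Fin s) ℂ) :=
    Order.krullDim_le_of_strictMono (PrimeSpectrum.comap (algebraMap (MvPolynomial (Fin s) ℂ) A))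
      fun P Q hPQ => Ideal.IsIntegral.comap_lt_comap hPQ
  have h2 := (trdeg_le_of_injective (A.val.comp g) (Subtype.val_injective.comp hi)).trans
    ((Algebra.IsAlgebraic.trdeg_le_cardinalMk ℂ ({x, y} : Set K)).trans
      (Cardinal.mk_insert_le.trans_eq (by rw [Cardinal.mk_singleton, one_add_one_eq_two])))
  have h3 : s ≤ 2 := by simpa using h2
  refine h1.trans ?_
  simpa using h3

end Vale.Agent.P266
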