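import Vale.Agent.P266.Defs

open Polynomial

noncomputable section

namespace Vale.Agent.P266

variable {K : Type} [Field K] [Algebra ℂ K]

theorem mem_icl (S : Subalgebra ℂ K) (z : K) : z ∈ icl S ↔ IsIntegral S z := Iff.rfl

theorem le_icl (S : Subalgebra ℂ K) : S ≤ icl S := fun z hz =>
  (mem_icl S z).2 (isIntegral_algebraMap (x := (⟨z, hz⟩ : S)))

theorem icl_mono {S S' : Subalgebra ℂ K} (h : S ≤ S') : icl S ≤ icl S' := fun z hz =>
  (mem_icl S' z).2 (((mem_icl S z).1 hz).map_of_comp_eq (Subalgebra.inclusion h).toRingHom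
    (RingHom.id K) rfl)

theorem icl_closed (S : Subalgebra ℂ K) (z : K) (hz : IsIntegral (icl S) z) : z ∈ icl S := by
  have h : IsIntegral (integralClosure S K) z := hz
  exact (mem_icl S z).2 (isIntegral_trans z h)

theorem icl_below {S : Subalgebra ℂ K} {V : ValuationSubring K} (h : Below S V) :
    Below (icl S) V := by
  intro z hz
  have h1 : IsIntegral V z := ((mem_icl S z).1 hz).map_of_comp_eq
    (S.val.toRingHom.codRestrict V fun s => h s s.2) (RingHom.id K) rfl
  obtain ⟨y, rfl⟩ := IsIntegrallyClosed.isIntegral_iff.1 h1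
  exact y.2

theorem icl_prod_val (V : ValuationSubring K) (z : K)
    (h : ∀ c : ℂ, 1 ≤ V.valuation (z - algebraMap ℂ K c)) (m : Multiset ℂ) :
    1 ≤ V.valuation (aeval z (m.map fun c => X - C c).prod) := by
  induction m using Multiset.induction_on with
  | empty => simp
  | cons c m ih =>
    rw [Multiset.map_cons, Multiset.prod_cons, map_mul, map_mul, map_sub, aeval_X, aeval_C]
    exact one_le_mul (h c) ih

theorem icl_small {S : Subalgebra ℂ K} {V : ValuationSubring K} (h : Below S V)
    (hs : Small S V) : Small (icl S) V := by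
  intro z hz
  have hzV : V.valuation z ≤ 1 := (V.valuation_le_one_iff z).2 (icl_below h z hz)
  obtain ⟨p, hp, hp0⟩ := (mem_icl S z).1 hz
  choose c hc using fun i => hs (p.coeff i) (p.coeff i).2
  by_contra hne
  push Not at hne
  have hq : (X ^ p.natDegree + ∑ i ∈ Finset.range p.natDegree, C (c i) * X ^ i : ℂ[X]).Monic := by
    refine monic_X_pow_add ?_
    rw [Finset.sum_range]
    exact degree_sum_fin_lt _
  have h1 := icl_prod_val V z hne
    (X ^ p.natDegree + ∑ i ∈ Finset.range p.natDegree, C (c i) * X ^ i : ℂ[X]).roots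
  rw [← (IsAlgClosed.splits _).eq_prod_roots_of_monic hq] at h1
  rw [hp.as_sum, ← aeval_def] at hp0
  have h2 : aeval z (X ^ p.natDegree + ∑ i ∈ Finset.range p.natDegree, C (c i) * X ^ i : ℂ[X])
      = -∑ i ∈ Finset.range p.natDegree, ((p.coeff i : K) - algebraMap ℂ K (c i)) * z ^ i := by
    simp only [map_add, map_sum, map_mul, map_pow, aeval_X, aeval_C] at hp0 ⊢
    simp only [sub_mul, Finset.sum_sub_distrib]
    have e : ∀ i, algebraMap S K (p.coeff i) = (p.coeff i : K) := fun _ => rfl
    simp only [e] at hp0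
    linear_combination hp0
  rw [h2, Valuation.map_neg] at h1
  refine absurd h1 (not_le.2 (Valuation.map_sum_lt _ one_ne_zero fun i _ => ?_))
  rw [map_mul, map_pow]
  exact mul_lt_one_of_lt_of_le (hc i) (pow_le_one' hzV i)

theorem icl_fracTop (S : Subalgebra ℂ K) (h : Algebra.IsAlgebraic S K) : FracTop (icl S) := by
  intro z
  obtain ⟨y, hy, h1⟩ := (h.isAlgebraic z).exists_integral_multiple
  refine ⟨y • z, (mem_icl S _).2 h1, y, le_icl S y.2, fun e => hy (Subtype.ext e), ?_⟩
  rw [Algebra.smul_def, mul_comm]; rfl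

theorem small_adjoin (T : Set K) (V : ValuationSubring K) (hc : ∀ c : ℂ, algebraMap ℂ K c ∈ V)
    (h : ∀ z ∈ T, V.valuation z < 1) : Small (Algebra.adjoin ℂ T) V := by
  have hc' : ∀ c : ℂ, V.valuation (algebraMap ℂ K c) ≤ 1 :=
    fun c => (V.valuation_le_one_iff _).2 (hc c)
  intro a ha
  induction ha using Algebra.adjoin_induction with
  | mem z hz => exact ⟨0, by simpa using h z hz⟩
  | algebraMap c => exact ⟨c, by simp⟩
  | add x y _ _ hx hy =>
    obtain ⟨c, h1⟩ := hx
    obtain ⟨d, h2⟩ := hy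
    refine ⟨c + d, ?_⟩
    rw [map_add, add_sub_add_comm]
    exact Valuation.map_add_lt _ h1 h2
  | mul x y _ _ hx hy =>
    obtain ⟨c, h1⟩ := hx
    obtain ⟨d, h2⟩ := hy
    refine ⟨c * d, ?_⟩
    have e : x * y - algebraMap ℂ K (c * d) = (x - algebraMap ℂ K c) * (y - algebraMap ℂ K d)
        + ((x - algebraMap ℂ K c) * algebraMap ℂ K d + (y - algebraMap ℂ K d) * algebraMap ℂ K c) := by
      rw [map_mul]; ring
    rw [e]
    refine Valuation.map_add_lt _ ?_ (Valuation.map_add_lt _ ?_ ?_) <;> rw [map_mul]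
    · exact mul_lt_one_of_lt_of_le h1 h2.le
    · exact mul_lt_one_of_lt_of_le h1 (hc' d)
    · exact mul_lt_one_of_lt_of_le h2 (hc' c)

theorem below_adjoin (T : Set K) (V : ValuationSubring K) (hc : ∀ c : ℂ, algebraMap ℂ K c ∈ V)
    (h : ∀ z ∈ T, z ∈ V) : Below (Algebra.adjoin ℂ T) V := by
  intro a ha
  induction ha using Algebra.adjoin_induction with
  | mem z hz => exact h z hz
  | algebraMap c => exact hc c
  | add x y _ _ hx hy => exact add_mem hx hy
  | mul x y _ _ hx hy => exact mul_mem hx hy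

theorem val_const (V : ValuationSubring K) (hc : ∀ c : ℂ, algebraMap ℂ K c ∈ V) (c : ℂ)
    (h : c ≠ 0) : V.valuation (algebraMap ℂ K c) = 1 := by
  have h1 := (V.valuation_le_one_iff _).2 (hc c)
  have h2 := (V.valuation_le_one_iff _).2 (hc c⁻¹)
  refine le_antisymm h1 (not_lt.1 fun h3 => ?_)
  have h4 := mul_lt_one_of_lt_of_le h3 h2
  rw [← map_mul, ← map_mul, mul_inv_cancel₀ h, map_one, map_one] at h4
  exact lt_irrefl _ h4

/-- the centre of `V` on `A` -/
def icl_centre (A : Subalgebra ℂ K) (V : ValuationSubring K) (hV : Below A V) : Ideal A where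
  carrier := {a | V.valuation (a : K) < 1}
  add_mem' := fun {a b} ha hb => by
    have h : V.valuation ((a : K) + b) < 1 := Valuation.map_add_lt V.valuation ha hb
    exact h
  zero_mem' := by simp
  smul_mem' := fun r a ha => by
    have h : V.valuation ((a : K) * r) < 1 := by
      rw [map_mul]
      exact mul_lt_one_of_lt_of_le ha ((V.valuation_le_one_iff _).2 (hV _ r.2))
    rw [mul_comm] at h
    exact h

theorem icl_centre_prime (A : Subalgebra ℂ K) (V : ValuationSubring K) (hV : Below A V) :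
    (icl_centre A V hV).IsPrime := by
  refine ⟨(Ideal.ne_top_iff_one _).2 fun h => ?_, fun {a b} hab => ?_⟩
  · have h1 : V.valuation ((1 : A) : K) < 1 := h
    simp at h1
  · have h1 : V.valuation ((a : K) * b) < 1 := hab
    by_contra hne
    push Not at hne
    have ha : 1 ≤ V.valuation (a : K) := not_lt.1 hne.1
    have hb : 1 ≤ V.valuation (b : K) := not_lt.1 hne.2
    rw [map_mul] at h1
    exact absurd h1 (not_lt.2 (one_le_mul ha hb))

theorem icl_pair {L : Type} [CommRing L] (I : Ideal L) (hI : I.FG) (h : I.spanFinrank ≤ 2) :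
    ∃ σ ∈ I, ∃ τ ∈ I, I ≤ Ideal.span {σ, τ} := by
  classical
  obtain ⟨s, hs, rfl⟩ := Submodule.FG.exists_span_finset_card_eq_spanFinrank hI
  rw [← hs] at h
  have h3 : s.card = 0 ∨ s.card = 1 ∨ s.card = 2 := by omega
  rcases h3 with h0 | h1 | h2
  · rw [Finset.card_eq_zero.1 h0]
    exact ⟨0, zero_mem _, 0, zero_mem _, by simp⟩
  · obtain ⟨a, rfl⟩ := Finset.card_eq_one.1 h1
    exact ⟨a, Submodule.subset_span (by simp), a, Submodule.subset_span (by simp), by simp⟩
  · obtain ⟨a, b, -, rfl⟩ := Finset.card_eq_two.1 h2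
    exact ⟨a, Submodule.subset_span (by simp), b, Submodule.subset_span (by simp), by simp⟩

/-- a regular ring of dimension at most two has two local generators at the centre of `V` -/
theorem twoGen_of_regular (A : Subalgebra ℂ K) (V : ValuationSubring K) (hV : Below A V)
    (hreg : IsRegularRing A) (hdim : ringKrullDim A ≤ 2) : ∃ s t, TwoGen A V s t := by
  set m := icl_centre A V hV with hm
  have hp : m.IsPrime := icl_centre_prime A V hV
  have hL : IsRegularLocalRing (Localization.AtPrime m) := hreg.isRegularLocalRing_localization m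
  have h1 : ((IsLocalRing.maximalIdeal (Localization.AtPrime m)).spanFinrank : WithBot ℕ∞) ≤ 2 := by
    rw [hL.spanFinrank_maximalIdeal, IsLocalization.AtPrime.ringKrullDim_eq_height m]
    exact (Ideal.height_le_ringKrullDim_of_ne_top hp.ne_top).trans hdim
  have h2 : (IsLocalRing.maximalIdeal (Localization.AtPrime m)).spanFinrank ≤ 2 := by
    exact_mod_cast h1
  obtain ⟨σ, hσ, τ, hτ, h3⟩ := icl_pair _ (IsNoetherian.noetherian _) h2
  obtain ⟨s, d, rfl⟩ := IsLocalization.exists_mk'_eq m.primeCompl σ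
  obtain ⟨t, e, rfl⟩ := IsLocalization.exists_mk'_eq m.primeCompl τ
  rw [IsLocalization.AtPrime.mk'_mem_maximal_iff _ m] at hσ hτ
  have h4 : IsLocalRing.maximalIdeal (Localization.AtPrime m)
      ≤ (Ideal.span {s, t}).map (algebraMap A (Localization.AtPrime m)) := by
    refine h3.trans (Ideal.span_le.2 ?_)
    rintro _ (rfl | rfl)
    · rw [IsLocalization.mk'_eq_mul_mk'_one]
      exact Ideal.mul_mem_right _ _ (Ideal.mem_map_of_mem _ (Ideal.subset_span (by simp)))
    · rw [IsLocalization.mk'_eq_mul_mk'_one]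
      exact Ideal.mul_mem_right _ _ (Ideal.mem_map_of_mem _ (Ideal.subset_span (by simp)))
  refine ⟨s, t, s.2, t.2, hσ, hτ, fun a ha hav => ?_⟩
  have h5 := h4 ((IsLocalization.AtPrime.to_map_mem_maximal_iff _ m ⟨a, ha⟩).2 hav)
  obtain ⟨b, hb, h6⟩ := (IsLocalization.algebraMap_mem_map_algebraMap_iff m.primeCompl _ _ _).1 h5
  obtain ⟨p, q, h7⟩ := Ideal.mem_span_pair.1 h6
  refine ⟨b, b.2, le_antisymm ((V.valuation_le_one_iff _).2 (hV _ b.2)) (not_lt.1 hb),
    p, p.2, q, q.2, ?_⟩
  exact (congrArg Subtype.val h7).symm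

end Vale.Agent.P266
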