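import Vale.Agent.P266.Seid

open Polynomial

noncomputable section

namespace Vale.Agent.P266

variable {K : Type} [Field K] [Algebra ℂ K]

/-- the denominator ideal -/
def krullDen (A : Subalgebra ℂ K) (h : K) : Ideal A where
  carrier := {a | (a : K) * h ∈ A}
  add_mem' := fun {a b} ha hb => by
    have := A.add_mem ha hb
    simpa [add_mul] using this
  zero_mem' := by simp
  smul_mem' := fun c a ha => by
    have := A.mul_mem c.2 ha
    simpa [mul_assoc] using this

lemma krull_mem (A : Subalgebra ℂ K) (h : K) (a : A) : a ∈ krullDen A h ↔ (a : K) * h ∈ A := Iff.rfl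

lemma krull_val_one (V : ValuationSubring K) (b : K) (hb : b ≠ 0) (h1 : b ∈ V) (h2 : b⁻¹ ∈ V) :
    V.valuation b = 1 := by
  have e1 := (V.valuation_le_one_iff b).mpr h1
  have e2 := (V.valuation_le_one_iff b⁻¹).mpr h2
  have h0 : 0 < V.valuation b := zero_lt_iff.mpr ((Valuation.ne_zero_iff _).mpr hb)
  rw [map_inv₀, inv_le_one₀ h0] at e2
  exact le_antisymm e1 e2

/-- an element outside a normal noetherian domain lies outside one of its DVR localisations -/
theorem krull (A : Subalgebra ℂ K) (hfg : A.FG) (hA : FracTop A)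
    (hcl : ∀ z : K, IsIntegral A z → z ∈ A) (f : K) (hf : f ∉ A) :
    ∃ V : ValuationSubring K, Below A V ∧ f ∉ V ∧ (∀ z ∈ V, z ∈ Loc A V) ∧
      ∃ s, TwoGen A V s 0 := by
  have hN := isNoetherianRing_of_fg hfg
  obtain ⟨p, ⟨y, hy, hyf, rfl⟩, hmax⟩ := set_has_maximal_iff_noetherian.mpr hN
    {I : Ideal A | ∃ y ∈ A, y * f ∉ A ∧ I = krullDen A (y * f)} ⟨_, 1, A.one_mem, by simpa, rfl⟩
  set h := y * f with hh
  have hprime : ∀ a ∈ A, ∀ b ∈ A, a * h ∉ A → b * h ∉ A → a * b * h ∉ A := by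
    intro a ha b hb ha' hb' hab
    refine hmax (krullDen A (b * y * f)) ⟨b * y, A.mul_mem hb hy, by rwa [mul_assoc], rfl⟩
      (lt_of_le_of_ne (fun c hc => ?_) fun e => ha' ?_)
    · rw [krull_mem] at hc ⊢
      rw [mul_assoc b, mul_left_comm]
      exact A.mul_mem hb hc
    · have : (⟨a, ha⟩ : A) ∈ krullDen A (b * y * f) := by
        rw [krull_mem, mul_assoc b, ← mul_assoc]; exact hab
      rw [← e] at this
      exact this
  have hpow : ∀ a ∈ A, a ≠ 0 → ∃ n : ℕ, (∀ m ≤ n, a * h ^ m ∈ A) ∧ a * h ^ n * h ∉ A := by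
    intro a ha ha0
    by_contra hc
    push Not at hc
    refine hyf (hcl h (seid_int A hfg a h ha0 fun m => ?_))
    have : ∀ n : ℕ, ∀ m ≤ n, a * h ^ m ∈ A := by
      intro n
      induction n with
      | zero => intro m hm; obtain rfl : m = 0 := by omega
                simpa using ha
      | succ n ih =>
        intro m hm
        rcases Nat.lt_or_ge m (n + 1) with h1 | h1
        · exact ih m (by omega)
        · obtain rfl : m = n + 1 := by omega
          rw [pow_succ, ← mul_assoc]; exact hc n ih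
    exact this m m le_rfl
  have hex : ∃ s ∈ A, s * h ∈ A ∧ s * h * h ∉ A := by
    obtain ⟨a, ha, b, hb, hb0, e⟩ := hA h
    obtain ⟨n, h1, h2⟩ := hpow b hb hb0
    cases n with
    | zero => exact absurd (by simpa [mul_comm b, e] using ha) h2
    | succ n =>
      refine ⟨b * h ^ n, h1 n (by omega), ?_, ?_⟩
      · rw [mul_assoc, ← pow_succ]; exact h1 _ le_rfl
      · rwa [mul_assoc b, ← pow_succ]
  obtain ⟨s, hs, hsh, hshh⟩ := hex
  let V : ValuationSubring K :=
    { carrier := {z | ∃ a ∈ A, ∃ b ∈ A, b * h ∉ A ∧ z * b = a}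
      mul_mem' := by
        rintro z z' ⟨a, ha, b, hb, hb', e⟩ ⟨a', ha', b', hb1, hb2, e'⟩
        exact ⟨a * a', A.mul_mem ha ha', b * b', A.mul_mem hb hb1, hprime b hb b' hb1 hb' hb2,
          by rw [← e, ← e']; ring⟩
      one_mem' := ⟨1, A.one_mem, 1, A.one_mem, by simpa, by simp⟩
      add_mem' := by
        rintro z z' ⟨a, ha, b, hb, hb', e⟩ ⟨a', ha', b', hb1, hb2, e'⟩
        exact ⟨a * b' + a' * b, A.add_mem (A.mul_mem ha hb1) (A.mul_mem ha' hb), b * b',
          A.mul_mem hb hb1, hprime b hb b' hb1 hb' hb2, by rw [← e, ← e']; ring⟩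
      zero_mem' := ⟨0, A.zero_mem, 1, A.one_mem, by simpa, by simp⟩
      neg_mem' := by
        rintro z ⟨a, ha, b, hb, hb', e⟩
        exact ⟨-a, A.neg_mem ha, b, hb, hb', by rw [← e]; ring⟩
      mem_or_inv_mem' := by
        intro z
        obtain ⟨a, ha, b, hb, hb0, e⟩ := hA z
        by_cases ha0 : a = 0
        · refine Or.inl ⟨0, A.zero_mem, 1, A.one_mem, by simpa, ?_⟩
          rw [ha0] at e
          simpa [hb0] using e
        have hz : z ≠ 0 := by rintro rfl; exact ha0 (by simpa using e.symm)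
        obtain ⟨n, h1, h2⟩ := hpow a ha ha0
        obtain ⟨m, h3, h4⟩ := hpow b hb hb0
        rcases le_total m n with hmn | hmn
        · exact Or.inl ⟨a * h ^ m, h1 m hmn, b * h ^ m, h3 m le_rfl, h4, by rw [← e]; ring⟩
        · exact Or.inr ⟨b * h ^ n, h3 n hmn, a * h ^ n, h1 n le_rfl, h2, by
            rw [← e]; field_simp⟩ }
  have hV : ∀ z, z ∈ V ↔ ∃ a ∈ A, ∃ b ∈ A, b * h ∉ A ∧ z * b = a := fun z => Iff.rfl
  have hB : Below A V := fun a ha => ⟨a, ha, 1, A.one_mem, by simpa, by simp⟩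
  have hone : ∀ b ∈ A, b * h ∉ A → V.valuation b = 1 := by
    intro b hb hb'
    have hb0 : b ≠ 0 := by rintro rfl; simp at hb'
    exact krull_val_one V b hb0 (hB b hb) ⟨1, A.one_mem, b, hb, hb', inv_mul_cancel₀ hb0⟩
  have hlt : V.valuation s < 1 := by
    refine lt_of_le_of_ne ((V.valuation_le_one_iff s).mpr (hB s hs)) fun e => ?_
    have hs0 : s ≠ 0 := by rintro rfl; simp at e
    obtain ⟨a, ha, b, hb, hb', e'⟩ := (hV s⁻¹).mp
      ((V.valuation_le_one_iff _).mp (by rw [map_inv₀, e, inv_one]))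
    refine hb' ?_
    have : b * h = a * (s * h) := by rw [← e']; field_simp
    rw [this]; exact A.mul_mem ha hsh
  refine ⟨V, hB, ?_, ?_, s, hs, A.zero_mem, hlt, by simp, fun a ha ha1 => ?_⟩
  · rintro ⟨a, ha, b, hb, hb', e⟩
    refine hb' ?_
    have : b * h = y * a := by rw [← e, hh]; ring
    rw [this]; exact A.mul_mem hy ha
  · rintro z ⟨a, ha, b, hb, hb', e⟩
    exact ⟨a, ha, b, hb, hone b hb hb', e⟩
  · have : a * h ∈ A := by
      by_contra hc
      exact ha1.ne (hone a ha hc)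
    exact ⟨s * h, hsh, hone _ hsh hshh, a * h, this, 0, A.zero_mem, by ring⟩

end Vale.Agent.P266
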