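import Vale.Agent.P266.Der

open Polynomial

noncomputable section

namespace Vale.Agent.P266

variable {K : Type} [Field K] [Algebra ℂ K]

/-- the localisation as a subalgebra -/
def omegaLoc (A : Subalgebra ℂ K) (V : ValuationSubring K) : Subalgebra ℂ K where
  carrier := Loc A V
  mul_mem' := by
    rintro z z' ⟨a, ha, b, hb, hb', e⟩ ⟨a', ha', b', hb1, hb2, e'⟩
    exact ⟨a * a', A.mul_mem ha ha', b * b', A.mul_mem hb hb1, by rw [map_mul, hb', hb2, mul_one],
      by rw [← e, ← e']; ring⟩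
  add_mem' := by
    rintro z z' ⟨a, ha, b, hb, hb', e⟩ ⟨a', ha', b', hb1, hb2, e'⟩
    exact ⟨a * b' + a' * b, A.add_mem (A.mul_mem ha hb1) (A.mul_mem ha' hb), b * b',
      A.mul_mem hb hb1, by rw [map_mul, hb', hb2, mul_one], by rw [← e, ← e']; ring⟩
  algebraMap_mem' c := ⟨_, A.algebraMap_mem c, 1, A.one_mem, map_one _, mul_one _⟩

lemma omega_le (A : Subalgebra ℂ K) (V : ValuationSubring K) : A ≤ omegaLoc A V :=
  fun a ha => ⟨a, ha, 1, A.one_mem, map_one _, mul_one _⟩

lemma omega_val (A : Subalgebra ℂ K) (V : ValuationSubring K) (hV : Below A V) (z : K)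
    (hz : z ∈ Loc A V) : V.valuation z ≤ 1 := by
  obtain ⟨a, ha, b, -, hb', e⟩ := hz
  have := (V.valuation_le_one_iff a).mpr (hV a ha)
  rwa [← e, map_mul, hb', mul_one] at this

lemma omega_inv (A : Subalgebra ℂ K) (V : ValuationSubring K) (z : K) (hz : z ∈ Loc A V)
    (h : V.valuation z = 1) : z⁻¹ ∈ Loc A V := by
  obtain ⟨a, ha, b, hb, hb', e⟩ := hz
  have hz0 : z ≠ 0 := by rintro rfl; simp at h
  exact ⟨b, hb, a, ha, by rw [← e, map_mul, h, hb', mul_one], by rw [← e]; field_simp⟩

/-- the maximal ideal of the localisation -/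
def omegaMax (A : Subalgebra ℂ K) (V : ValuationSubring K) (hV : Below A V) :
    Ideal (omegaLoc A V) where
  carrier := {r | V.valuation (r : K) < 1}
  add_mem' := fun {a b} ha hb => lt_of_le_of_lt (V.valuation.map_add _ _) (max_lt ha hb)
  zero_mem' := by simp
  smul_mem' := fun c a ha => by
    have h1 := omega_val A V hV c c.2
    change V.valuation ((c : K) * a) < 1
    rw [map_mul]
    exact lt_of_le_of_lt (mul_le_of_le_one_left' h1) ha

theorem omega_one (A : Subalgebra ℂ K) (hfg : A.FG) (hA : FracTop A) (V : ValuationSubring K)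
    (hV : Below A V) (hs : Small A V) (s t : K) (h : TwoGen A V s t) (D : Derivation ℂ K K)
    (hDs : D s ∈ Loc A V) (hDt : D t ∈ Loc A V) : ∀ a ∈ A, D a ∈ Loc A V := by
  classical
  obtain ⟨T, hT⟩ := hfg
  obtain ⟨hsA, htA, hs1, ht1, hgen⟩ := h
  set R := omegaLoc A V
  let N : Submodule R K := Submodule.span R ((T.image D : Finset K) : Set K)
  let O : Submodule R K := Submodule.span R {1}
  have hO : ∀ z, z ∈ O ↔ z ∈ Loc A V := fun z => by
    rw [Submodule.mem_span_singleton]
    exact ⟨fun ⟨r, hr⟩ => by rw [← hr, Subalgebra.smul_def, smul_eq_mul, mul_one]; exact r.2,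
      fun hz => ⟨⟨z, hz⟩, by simp [Subalgebra.smul_def]⟩⟩
  have hsm : ∀ (P : Submodule R K) (r : K), r ∈ A → ∀ z ∈ P, r * z ∈ P := fun P r hr z hz =>
    P.smul_mem ⟨r, omega_le A V hr⟩ hz
  have hN : ∀ a ∈ A, D a ∈ N := by
    intro a ha
    rw [← hT] at ha
    induction ha using Algebra.adjoin_induction with
    | mem x hx => exact Submodule.subset_span (by simpa using ⟨x, hx, rfl⟩)
    | algebraMap r => simp
    | add x y _ _ hx hy => rw [map_add]; exact N.add_mem hx hy
    | mul x y hx' hy' hx hy =>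
      rw [D.leibniz]
      exact N.add_mem (hsm N x (hT ▸ hx') _ hy) (hsm N y (hT ▸ hy') _ hx)
  have hjac : omegaMax A V hV ≤ Ideal.jacobson ⊥ := by
    intro x hx
    rw [Ideal.mem_jacobson_bot]
    intro y
    have h1 : V.valuation ((x * y + 1 : R) : K) = 1 := by
      have : V.valuation ((y * x : R) : K) < 1 := (omegaMax A V hV).smul_mem y hx
      rw [mul_comm x, add_comm]
      exact V.valuation.map_one_add_of_lt this
    have h0 : ((x * y + 1 : R) : K) ≠ 0 := by intro e; rw [e] at h1; simp at h1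
    exact IsUnit.of_mul_eq_one ⟨_, omega_inv A V _ (x * y + 1).2 h1⟩
      (Subtype.ext (mul_inv_cancel₀ h0))
  have key : N ≤ O := by
    refine Submodule.le_of_le_smul_of_le_jacobson_bot (Submodule.fg_span (Finset.finite_toSet _))
      hjac (Submodule.span_le.mpr ?_)
    intro z hz
    obtain ⟨a, haT, rfl⟩ : ∃ a ∈ T, D a = z := by simpa using hz
    have ha : a ∈ A := hT ▸ Algebra.subset_adjoin haT
    obtain ⟨c, hc⟩ := hs a ha
    have hac : a - algebraMap ℂ K c ∈ A := A.sub_mem ha (A.algebraMap_mem c)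
    obtain ⟨b, hb, hb1, p, hp, q, hq, e⟩ := hgen _ hac hc
    have hb0 : b ≠ 0 := by rintro rfl; simp at hb1
    have e1 := congrArg D e
    simp only [map_add, map_sub, Derivation.leibniz, Derivation.map_algebraMap, sub_zero,
      smul_eq_mul] at e1
    have e2 : D a = b⁻¹ * ((p * D s + q * D t) +
        (s * D p + t * D q - (a - algebraMap ℂ K c) * D b)) := by
      field_simp
      linear_combination e1
    have hm : ∀ r ∈ A, V.valuation r < 1 → ∀ x ∈ A, r * D x ∈ omegaMax A V hV • N :=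
      fun r hr hr1 x hx => Submodule.smul_mem_smul (r := (⟨r, omega_le A V hr⟩ : R)) hr1 (hN x hx)
    rw [e2]
    refine Submodule.smul_mem _ (⟨b⁻¹, omega_inv A V b (omega_le A V hb) hb1⟩ : R)
      (Submodule.add_mem_sup (O.add_mem (hsm O p hp _ ((hO _).mpr hDs))
        (hsm O q hq _ ((hO _).mpr hDt))) ?_)
    exact Submodule.sub_mem _ (Submodule.add_mem _ (hm s hsA hs1 p hp) (hm t htA ht1 q hq))
      (hm _ hac hc b hb)
  exact fun a ha => (hO _).mp (key (hN a ha))

theorem omega_zero (A : Subalgebra ℂ K) (hfg : A.FG) (hA : FracTop A) (V : ValuationSubring K)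
    (hV : Below A V) (hs : Small A V) (s t : K) (h : TwoGen A V s t) (D : Derivation ℂ K K)
    (hDs : D s = 0) (hDt : D t = 0) : D = 0 := by
  refine der_zero_of_fracTop A hA D fun a ha => ?_
  by_contra h0
  have hall : ∀ k : K, V.valuation k ≤ 1 := fun k => by
    have := omega_one A hfg hA V hV hs s t h ((k / D a) • D)
      (by rw [Derivation.smul_apply, hDs, smul_zero]; exact (omegaLoc A V).zero_mem)
      (by rw [Derivation.smul_apply, hDt, smul_zero]; exact (omegaLoc A V).zero_mem)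
      a ha
    rw [Derivation.smul_apply, smul_eq_mul, div_mul_cancel₀ _ h0] at this
    exact omega_val A V hV k this
  obtain ⟨c, hc⟩ := hs a ha
  by_cases e : a - algebraMap ℂ K c = 0
  · rw [sub_eq_zero] at e
    exact h0 (by rw [e]; simp)
  · have h1 := hall (a - algebraMap ℂ K c)⁻¹
    rw [map_inv₀, inv_le_one₀ (zero_lt_iff.mpr ((Valuation.ne_zero_iff _).mpr e))] at h1
    exact absurd hc (not_lt.mpr h1)

/-- clearing denominators -/
theorem exists_smul_pres (A : Subalgebra ℂ K) (hfg : A.FG) (V : ValuationSubring K)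
    (D : Derivation ℂ K K) (h : ∀ a ∈ A, D a ∈ Loc A V) :
    ∃ r ∈ A, V.valuation r = 1 ∧ Pres (r • D) A := by
  classical
  obtain ⟨T, hT⟩ := hfg
  have key : ∀ U : Finset K, (∀ z ∈ U, z ∈ A) →
      ∃ r ∈ A, V.valuation r = 1 ∧ ∀ z ∈ U, r * D z ∈ A := by
    intro U
    induction U using Finset.induction_on with
    | empty => exact fun _ => ⟨1, A.one_mem, map_one _, by simp⟩
    | insert x U _ ih =>
      intro hU
      obtain ⟨r, hr, hr1, hr2⟩ := ih fun z hz => hU z (Finset.mem_insert_of_mem hz)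
      obtain ⟨a, ha, b, hb, hb1, e⟩ := h x (hU x (Finset.mem_insert_self _ _))
      refine ⟨r * b, A.mul_mem hr hb, by rw [map_mul, hr1, hb1, mul_one], fun z hz => ?_⟩
      rcases Finset.mem_insert.mp hz with rfl | hz
      · rw [mul_assoc, mul_comm b, e]; exact A.mul_mem hr ha
      · rw [mul_comm r, mul_assoc]; exact A.mul_mem hb (hr2 z hz)
  obtain ⟨r, hr, hr1, hr2⟩ := key T fun z hz => hT ▸ Algebra.subset_adjoin hz
  refine ⟨r, hr, hr1, ?_⟩
  subst hT
  exact pres_adjoin _ _ fun z hz => hr2 z hz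

end Vale.Agent.P266
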