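import Vale.Agent.P266.Defs

open Polynomial

noncomputable section

namespace Vale.Agent.P266

variable {K : Type} [Field K] [Algebra ℂ K]

lemma seid_iter {R : Type} [CommRing R] (E : Derivation ℤ R R) (d r : R) (m : ℕ) :
    ∀ j ≤ m, ∃ s, E^[j] (r * d ^ m) =
      (m.descFactorial j : R) * r * (E d) ^ j * d ^ (m - j) + d ^ (m - j + 1) * s := by
  intro j
  induction j with
  | zero => exact fun _ => ⟨0, by simp⟩
  | succ j ih =>
    intro hj
    obtain ⟨s, hs⟩ := ih (by omega)
    obtain ⟨k, hk⟩ : ∃ k, m - j = k + 1 := ⟨m - j - 1, by omega⟩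
    have hk' : m - (j + 1) = k := by omega
    refine ⟨E ((m.descFactorial j : R) * r * (E d) ^ j) + (k + 2 : ℕ) * E d * s + d * E s, ?_⟩
    rw [Function.iterate_succ_apply', hs, hk, hk', Nat.descFactorial_succ, hk, map_add,
      E.leibniz, E.leibniz (d ^ (k + 1 + 1)), E.leibniz_pow, E.leibniz_pow]
    simp only [smul_eq_mul, nsmul_eq_mul, Nat.add_sub_cancel]
    push_cast
    ring

lemma seid_den (S : Subalgebra ℂ K) (hS : FracTop S) (N : Submodule S K) (hN : N.FG) :
    ∃ c ∈ S, c ≠ 0 ∧ ∀ z ∈ N, c * z ∈ S := by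
  induction N, hN using Submodule.fg_induction with
  | singleton x =>
    obtain ⟨a, ha, b, hb, hb0, h⟩ := hS x
    refine ⟨b, hb, hb0, fun z hz => ?_⟩
    obtain ⟨r, rfl⟩ := Submodule.mem_span_singleton.mp hz
    have : b * (r • x) = r * a := by rw [← h, Subalgebra.smul_def, smul_eq_mul]; ring
    rw [this]
    exact S.mul_mem r.2 ha
  | sup N₁ N₂ _ _ h₁ h₂ =>
    obtain ⟨c₁, hc₁, h₁0, h₁⟩ := h₁
    obtain ⟨c₂, hc₂, h₂0, h₂⟩ := h₂
    refine ⟨c₁ * c₂, S.mul_mem hc₁ hc₂, mul_ne_zero h₁0 h₂0, fun z hz => ?_⟩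
    obtain ⟨x, hx, y, hy, rfl⟩ := Submodule.mem_sup.mp hz
    have : c₁ * c₂ * (x + y) = c₂ * (c₁ * x) + c₁ * (c₂ * y) := by ring
    rw [this]
    exact S.add_mem (S.mul_mem hc₂ (h₁ x hx)) (S.mul_mem hc₁ (h₂ y hy))

lemma seid_int (S : Subalgebra ℂ K) (hfg : S.FG) (c z : K) (hc : c ≠ 0)
    (h : ∀ m : ℕ, c * z ^ m ∈ S) : IsIntegral S z := by
  have := isNoetherianRing_of_fg hfg
  have hle : (Algebra.adjoin S {z}).toSubmodule ≤ Submodule.span S {c⁻¹} := by
    rw [Algebra.adjoin_eq_span, Submodule.span_le]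
    intro y hy
    obtain ⟨m, rfl⟩ := Submonoid.mem_closure_singleton.mp hy
    refine Submodule.mem_span_singleton.mpr ⟨⟨_, h m⟩, ?_⟩
    rw [Subalgebra.smul_def, smul_eq_mul]
    field_simp
  refine IsIntegral.of_mem_of_fg (Algebra.adjoin S {z}) ?_ z (Algebra.self_mem_adjoin_singleton _ _)
  have hN : IsNoetherian S (Submodule.span S {c⁻¹} : Submodule S K) :=
    isNoetherian_of_fg_of_noetherian _ (Submodule.fg_span_singleton _)
  have := isNoetherian_of_le hle
  exact (Submodule.fg_top _).mp (IsNoetherian.noetherian _)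

/-- Seidenberg: a derivation preserving `S` preserves its integral closure -/
theorem seidenberg (S : Subalgebra ℂ K) (hfg : S.FG) (hS : FracTop S) (D : Derivation ℂ K K)
    (hD : Pres D S) : Pres D (icl S) := by
  intro a ha
  have ha' : IsIntegral S a := ha
  obtain ⟨c, hc, hc0, hca⟩ := seid_den S hS _ ha'.fg_adjoin_singleton
  have hpow : ∀ n : ℕ, c * a ^ n ∈ S := fun n =>
    hca _ (Subalgebra.pow_mem _ (Algebra.self_mem_adjoin_singleton _ _) n)
  letI : Differential K := ⟨D.restrictScalars ℤ⟩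
  have hd : ∀ x : K, Differential.deriv x = D x := fun _ => rfl
  let E : Derivation ℤ K[X] K[X] := Differential.mapCoeffs
  have h1 : ∀ m k n : ℕ, c * a ^ n * ((C a - X) ^ m : K[X]).coeff k ∈ S := by
    intro m
    induction m with
    | zero =>
      intro k n
      rw [pow_zero, coeff_one]
      split_ifs
      · simpa using hpow n
      · simp
    | succ m ih =>
      intro k n
      rw [pow_succ, mul_sub, coeff_sub, coeff_mul_C, mul_sub]
      refine S.sub_mem ?_ ?_
      · have := ih k (n + 1)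
        rw [pow_succ] at this
        have e : c * a ^ n * (((C a - X) ^ m : K[X]).coeff k * a) =
          c * (a ^ n * a) * ((C a - X) ^ m : K[X]).coeff k := by ring
        rw [e]; exact this
      · cases k with
        | zero => simp
        | succ k => rw [coeff_mul_X]; exact ih k n
  have h2 : ∀ (j : ℕ) (p : K[X]), (∀ k, p.coeff k ∈ S) → ∀ k, (E^[j] p).coeff k ∈ S := by
    intro j
    induction j with
    | zero => exact fun p h => h
    | succ j ih =>
      intro p h k
      rw [Function.iterate_succ_apply', Differential.coeff_mapCoeffs]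
      exact hD _ (ih p h k)
  have h3 : ∀ p : K[X], (∀ k, p.coeff k ∈ S) → c * p.eval a ∈ S := by
    intro p h
    rw [eval_eq_sum_range, Finset.mul_sum]
    refine S.sum_mem fun i _ => ?_
    rw [mul_left_comm]
    exact S.mul_mem (h i) (hpow i)
  refine seid_int S hfg (c * c) (D a) (mul_ne_zero hc0 hc0) fun m => ?_
  obtain ⟨s, hs⟩ := seid_iter E (C a - X) (C c) m m le_rfl
  have h4 := h3 _ (h2 m (C c * (C a - X) ^ m) fun k => by
    rw [coeff_C_mul]; simpa using h1 m k 0)
  have hE : E (C a - X) = C (D a) := by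
    rw [map_sub, Differential.mapCoeffs_C, Differential.mapCoeffs_X, sub_zero, hd]
  erw [hs, hE] at h4
  simp only [Nat.sub_self, pow_zero, mul_one, zero_add, pow_one, eval_add, eval_mul, eval_natCast,
    eval_C, eval_pow, eval_sub, eval_X, sub_self, zero_mul, add_zero,
    Nat.descFactorial_self] at h4
  have hm : (m.factorial : ℂ) ≠ 0 := Nat.cast_ne_zero.mpr m.factorial_ne_zero
  have := S.smul_mem h4 (m.factorial : ℂ)⁻¹
  have e : (m.factorial : ℂ)⁻¹ • (c * ((m.factorial : K) * c * D a ^ m)) = c * c * D a ^ m := by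
    have : (m.factorial : K) = algebraMap ℂ K (m.factorial : ℂ) := by simp
    rw [this, Algebra.smul_def, map_inv₀]
    have h0 : algebraMap ℂ K (m.factorial : ℂ) ≠ 0 := (_root_.map_ne_zero _).mpr hm
    field_simp
  rwa [e] at this

end Vale.Agent.P266
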