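import Vale.Agent.P266.Der
import Vale.Agent.P266.Seid
import Vale.Agent.P266.Icl
import Vale.Agent.P266.Fin
import Vale.Agent.P266.Krull
import Vale.Agent.P266.Omega

open Polynomial

noncomputable section

namespace Vale.Agent.P266

variable {K : Type} [Field K] [Algebra ℂ K]

theorem abstract_comb_zero {x y : K} {v₁ v₂ : Derivation ℂ K K} (hw : wedge v₁ v₂ x y ≠ 0)
    {s : K} (h : v₁ s • v₂ - v₂ s • v₁ = 0) : v₁ s = 0 := by
  have hx := congrArg (fun D : Derivation ℂ K K => D x) h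
  have hy := congrArg (fun D : Derivation ℂ K K => D y) h
  simp only [Derivation.coe_sub, Derivation.coe_smul, Pi.sub_apply, Pi.smul_apply, smul_eq_mul,
    Derivation.coe_zero, Pi.zero_apply] at hx hy
  have : v₁ s * wedge v₁ v₂ x y = 0 := by
    unfold wedge
    linear_combination v₁ x * hy - v₁ y * hx
  exact (mul_eq_zero.1 this).resolve_right hw

theorem abstract_wedge_ne {x y : K} {v₁ v₂ : Derivation ℂ K K} (hw : wedge v₁ v₂ x y ≠ 0)
    (A : Subalgebra ℂ K) (hfg : A.FG) (hA : FracTop A) (V : ValuationSubring K)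
    (hV : Below A V) (hs : Small A V) (s t : K) (h : TwoGen A V s t) : wedge v₁ v₂ s t ≠ 0 := by
  intro h0
  unfold wedge at h0
  have h1 : v₁ s = 0 := abstract_comb_zero hw (omega_zero A hfg hA V hV hs s t h _
    (by simp [mul_comm]) (by simp; linear_combination h0))
  have h2 : v₁ t = 0 := abstract_comb_zero hw (omega_zero A hfg hA V hV hs s t h _
    (by simp; linear_combination -h0) (by simp [mul_comm]))
  have h3 := omega_zero A hfg hA V hV hs s t h v₁ h1 h2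
  apply hw
  simp [wedge, h3]

theorem abstract_mem_of_loc {A : Subalgebra ℂ K} {V : ValuationSubring K} (hV : Below A V)
    {E : Derivation ℂ K K} (hE : Pres E A) {a : K} (ha : a ∈ V) (hl : a ∈ Loc A V) : E a ∈ V := by
  obtain ⟨c, hc, d, hd, hdv, had⟩ := hl
  have h1 : E a * d = E c - a * E d := by
    rw [← had, Derivation.leibniz]
    simp only [smul_eq_mul]
    ring
  have h2 : E a * d ∈ V := by
    rw [h1]
    exact V.toSubring.sub_mem (hV _ (hE c hc)) (V.mul_mem _ _ ha (hV _ (hE d hd)))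
  rw [← V.valuation_le_one_iff] at h2 ⊢
  rwa [map_mul, hdv, mul_one] at h2

theorem abstract_mem_of_mul {V : ValuationSubring K} {a d : K} (hd : V.valuation d = 1)
    (h : a * d ∈ V) : a ∈ V := by
  rw [← V.valuation_le_one_iff] at h ⊢
  rwa [map_mul, hd, mul_one] at h

theorem abstract_main (x y : K)
    (hxy : Algebra.IsAlgebraic (Algebra.adjoin ℂ ({x, y} : Set K)) K)
    (v₁ v₂ : Derivation ℂ K K) (hw : wedge v₁ v₂ x y ≠ 0) (A₀ : Subalgebra ℂ K) (hfg : A₀.FG)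
    (halg : Algebra.IsAlgebraic A₀ K)
    (hV : ∀ V : ValuationSubring K, Below A₀ V → Small A₀ V ∨ Good v₁ v₂ A₀ V)
    (V₀ : ValuationSubring K) (h₀ : Sing v₁ v₂ A₀ V₀) :
    ∃ A : Subalgebra ℂ K, A.FG ∧ Module.Free A (Derivation ℂ A A) ∧ ¬ IsRegularRing A := by
  obtain ⟨hsm₀, S₀, hS₀fg, hS₀f, hA₀S₀, hS₀V, Y₁, Y₂, p₁, p₂, hY₁, hY₂, hp₁, hp₂, hv₁, hv₂⟩ := h₀
  have hAfg : (icl A₀).FG := icl_fg A₀ S₀ hfg halg hS₀fg hS₀f
  have hAf : FracTop (icl A₀) := icl_fracTop A₀ halg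
  have key : ∀ f, f ∉ icl A₀ → ∃ V : ValuationSubring K, Below (icl A₀) V ∧ f ∉ V ∧
      (∀ z ∈ V, z ∈ Loc (icl A₀) V) ∧ Good v₁ v₂ A₀ V := by
    intro f hf
    obtain ⟨V, hb, hfV, hloc, s, hs⟩ := krull (icl A₀) hAfg hAf (icl_closed A₀) f hf
    have hb₀ : Below A₀ V := fun z hz => hb z (le_icl A₀ hz)
    refine ⟨V, hb, hfV, hloc, (hV V hb₀).resolve_left fun hsm => ?_⟩
    exact abstract_wedge_ne hw _ hAfg hAf V hb (icl_small hb₀ hsm) s 0 hs (by simp [wedge])
  have h₁ : Pres v₁ (icl A₀) := by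
    intro a ha
    by_contra hn
    obtain ⟨V, -, hfV, -, S, hS, hSf, hle, hSV, hp, -⟩ := key _ hn
    exact hfV (icl_below hSV _ (seidenberg S hS hSf v₁ hp a (icl_mono hle ha)))
  have h₂ : Pres v₂ (icl A₀) := by
    intro a ha
    by_contra hn
    obtain ⟨V, -, hfV, -, S, hS, hSf, hle, hSV, -, hp, -⟩ := key _ hn
    exact hfV (icl_below hSV _ (seidenberg S hS hSf v₂ hp a (icl_mono hle ha)))
  have hco : ∀ E : Derivation ℂ K K, Pres E (icl A₀) →
      ∃ α ∈ icl A₀, ∃ β ∈ icl A₀, E = α • v₁ + β • v₂ := by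
    intro E hE
    obtain ⟨α, β, hαβ⟩ := cramer x y hxy v₁ v₂ hw E
    refine ⟨α, ?_, β, ?_, hαβ⟩
    · by_contra hn
      obtain ⟨V, hb, hfV, hloc, S, -, -, -, hSV, -, hq₂, a, ha, b, hb', hab⟩ := key _ hn
      apply hfV
      apply abstract_mem_of_mul hab
      have e : α * wedge v₁ v₂ a b = E a * v₂ b - E b * v₂ a := by
        rw [hαβ]
        simp [wedge]
        ring
      rw [e]
      exact V.toSubring.sub_mem
        (V.mul_mem _ _ (abstract_mem_of_loc hb hE (hSV a ha) (hloc a (hSV a ha))) (hSV _ (hq₂ b hb')))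
        (V.mul_mem _ _ (abstract_mem_of_loc hb hE (hSV b hb') (hloc b (hSV b hb'))) (hSV _ (hq₂ a ha)))
    · by_contra hn
      obtain ⟨V, hb, hfV, hloc, S, -, -, -, hSV, hq₁, -, a, ha, b, hb', hab⟩ := key _ hn
      apply hfV
      apply abstract_mem_of_mul hab
      have e : β * wedge v₁ v₂ a b = E b * v₁ a - E a * v₁ b := by
        rw [hαβ]
        simp [wedge]
        ring
      rw [e]
      exact V.toSubring.sub_mem
        (V.mul_mem _ _ (abstract_mem_of_loc hb hE (hSV b hb') (hloc b (hSV b hb'))) (hSV _ (hq₁ a ha)))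
        (V.mul_mem _ _ (abstract_mem_of_loc hb hE (hSV a ha) (hloc a (hSV a ha))) (hSV _ (hq₁ b hb')))
  refine ⟨icl A₀, hAfg, free_of _ hAf v₁ v₂ h₁ h₂ x y hw hco, fun hreg => ?_⟩
  have hb₀ : Below A₀ V₀ := fun z hz => hS₀V z (hA₀S₀ hz)
  have hb : Below (icl A₀) V₀ := icl_below hb₀
  have hsm : Small (icl A₀) V₀ := icl_small hb₀ hsm₀
  obtain ⟨s, t, hst⟩ := twoGen_of_regular _ V₀ hb hreg (dim_le_two x y hxy _ hAfg)
  have hΔ := abstract_wedge_ne hw _ hAfg hAf V₀ hb hsm s t hst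
  set D : Derivation ℂ K K :=
    (v₂ t / wedge v₁ v₂ s t) • v₁ - (v₁ t / wedge v₁ v₂ s t) • v₂ with hD
  have hDs : D s = 1 := by
    simp only [hD, Derivation.coe_sub, Derivation.coe_smul, Pi.sub_apply, Pi.smul_apply,
      smul_eq_mul]
    field_simp
    simp [wedge, mul_comm]
  have hDt : D t = 0 := by
    simp only [hD, Derivation.coe_sub, Derivation.coe_smul, Pi.sub_apply, Pi.smul_apply,
      smul_eq_mul]
    ring
  have hl := omega_one _ hAfg hAf V₀ hb hsm s t hst D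
    (by rw [hDs]; exact ⟨1, one_mem _, 1, one_mem _, by simp, by simp⟩)
    (by rw [hDt]; exact ⟨0, zero_mem _, 1, one_mem _, by simp, by simp⟩)
  obtain ⟨r, -, hrv, hr⟩ := exists_smul_pres _ hAfg V₀ D hl
  obtain ⟨α, hα, β, hβ, e⟩ := hco _ hr
  have e' := congrArg (fun D : Derivation ℂ K K => D s) e
  simp only [Derivation.coe_add, Derivation.coe_smul, Pi.add_apply, Pi.smul_apply, smul_eq_mul,
    hDs, mul_one] at e'
  have hs' : s ∈ icl S₀ := icl_mono hA₀S₀ hst.1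
  have small : ∀ (Y : Derivation ℂ K K) (p γ : K), Pres Y S₀ → V₀.valuation p < 1 →
      γ ∈ icl A₀ → V₀.valuation (γ * (p • Y) s) < 1 := by
    intro Y p γ hY hp hγ
    have a1 := (V₀.valuation_le_one_iff _).2
      (icl_below hS₀V _ (seidenberg S₀ hS₀fg hS₀f Y hY s hs'))
    have a2 := (V₀.valuation_le_one_iff _).2 (hb γ hγ)
    simp only [Derivation.coe_smul, Pi.smul_apply, smul_eq_mul, map_mul]
    calc _ ≤ 1 * (V₀.valuation p * 1) := by gcongr
      _ < 1 := by simpa using hp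
  have := V₀.valuation.map_add_lt (small Y₁ p₁ α hY₁ hp₁ hα) (small Y₂ p₂ β hY₂ hp₂ hβ)
  rw [← hv₁, ← hv₂, ← e', hrv] at this
  exact lt_irrefl _ this

end Vale.Agent.P266
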