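import Vale.Agent.P266.Defs

open Polynomial

noncomputable section

namespace Vale.Agent.P266

/-- derivations extend along formally etale maps -/
theorem der_lift {R S T : Type} [CommRing R] [CommRing S] [CommRing T] [Algebra R S] [Algebra R T]
    [Algebra S T] [IsScalarTower R S T] [Algebra.FormallyEtale S T] (D : Derivation R S T) :
    ∃ E : Derivation R T T, ∀ s, E (algebraMap S T s) = D s := by
  have h := KaehlerDifferential.isBaseChange_of_formallyEtale R S T
  refine ⟨KaehlerDifferential.linearMapEquivDerivation R T (h.lift D.liftKaehlerDifferential),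
    fun s => ?_⟩
  rw [KaehlerDifferential.linearMapEquivDerivation_apply_apply, ← KaehlerDifferential.map_D R R S T,
    h.lift_eq, Derivation.liftKaehlerDifferential_comp_D]

variable {K : Type} [Field K] [Algebra ℂ K]

/-- a derivation preserving generators preserves the algebra -/
theorem pres_adjoin (D : Derivation ℂ K K) (T : Set K)
    (h : ∀ z ∈ T, D z ∈ Algebra.adjoin ℂ T) : Pres D (Algebra.adjoin ℂ T) := by
  intro s hs
  induction hs using Algebra.adjoin_induction with
  | mem z hz => exact h z hz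
  | algebraMap c => simp
  | add a b _ _ ha hb => rw [map_add]; exact add_mem ha hb
  | mul a b ha' hb' ha hb => rw [D.leibniz]; exact add_mem (mul_mem ha' hb) (mul_mem hb' ha)

theorem der_zero (x y : K) (hxy : Algebra.IsAlgebraic (Algebra.adjoin ℂ ({x, y} : Set K)) K)
    (D : Derivation ℂ K K) (hx : D x = 0) (hy : D y = 0) : D = 0 := by
  have : CharZero K := (RingHom.charZero_iff (algebraMap ℂ K).injective).1 inferInstance
  set S := Algebra.adjoin ℂ ({x, y} : Set K)
  have hS : ∀ s : S, D s = 0 := fun s =>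
    Derivation.eqOn_adjoin (D2 := 0) (by rintro _ (rfl | rfl) <;> simpa) s.2
  let E : Derivation S K K := Derivation.mk'
    { toFun := D
      map_add' := map_add D
      map_smul' := fun s z => by simp [Subalgebra.smul_def, hS] } D.leibniz
  ext z
  obtain ⟨p, hp, hz⟩ := hxy.isAlgebraic z
  by_contra hD
  induction hn : p.natDegree using Nat.strong_induction_on generalizing p with
  | _ n ih =>
    by_cases h0 : p.natDegree = 0
    · rw [eq_C_of_natDegree_eq_zero h0] at hp hz
      exact hp (by simpa using hz)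
    · refine ih _ (hn ▸ natDegree_derivative_lt h0) (derivative p)
        (fun h => h0 (derivative_eq_zero.1 h)) ?_ rfl
      have h1 := E.map_aeval p z
      rw [hz, map_zero, smul_eq_mul] at h1
      exact (mul_eq_zero.1 h1.symm).resolve_right hD

theorem der_zero_of_fracTop (A : Subalgebra ℂ K) (hA : FracTop A) (D : Derivation ℂ K K)
    (h : ∀ a ∈ A, D a = 0) : D = 0 := by
  ext z
  obtain ⟨a, ha, b, hb, h0, e⟩ := hA z
  have := h a ha
  rw [← e, D.leibniz, h b hb] at this
  simpa [h0] using this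

theorem cramer (x y : K) (hxy : Algebra.IsAlgebraic (Algebra.adjoin ℂ ({x, y} : Set K)) K)
    (v₁ v₂ : Derivation ℂ K K) (hw : wedge v₁ v₂ x y ≠ 0) (E : Derivation ℂ K K) :
    ∃ α β : K, E = α • v₁ + β • v₂ := by
  refine ⟨wedge E v₂ x y / wedge v₁ v₂ x y, wedge v₁ E x y / wedge v₁ v₂ x y,
    sub_eq_zero.1 (der_zero x y hxy _ ?_ ?_)⟩ <;>
  · simp only [Derivation.sub_apply, Derivation.add_apply, Derivation.smul_apply, smul_eq_mul]
    field_simp
    simp only [wedge]
    ring

theorem der_isFractionRing (A : Subalgebra ℂ K) (hA : FracTop A) : IsFractionRing A K :=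
  IsFractionRing.of_field A K fun z => by
    obtain ⟨a, ha, b, hb, h0, e⟩ := hA z
    exact ⟨⟨a, ha⟩, ⟨b, hb⟩, eq_div_of_mul_eq h0 e⟩

theorem der_ext (A : Subalgebra ℂ K) (hA : FracTop A) (D : Derivation ℂ A A) :
    ∃ E : Derivation ℂ K K, ∀ a : A, E (a : K) = (D a : K) := by
  have := der_isFractionRing A hA
  have := Algebra.FormallyEtale.of_isLocalization (Rₘ := K) (nonZeroDivisors A)
  exact der_lift ((Algebra.linearMap A K).compDer D)

theorem der_restrict (A : Subalgebra ℂ K) (v : Derivation ℂ K K) (h : Pres v A) :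
    ∃ D : Derivation ℂ A A, ∀ a : A, (D a : K) = v a :=
  ⟨Derivation.mk' (v.toLinearMap.restrict (p := A.toSubmodule) (q := A.toSubmodule) h)
    fun a b => Subtype.ext (v.leibniz a b), fun _ => rfl⟩

theorem free_of (A : Subalgebra ℂ K) (hA : FracTop A) (v₁ v₂ : Derivation ℂ K K)
    (h₁ : Pres v₁ A) (h₂ : Pres v₂ A) (x y : K) (hw : wedge v₁ v₂ x y ≠ 0)
    (h : ∀ E : Derivation ℂ K K, Pres E A → ∃ α ∈ A, ∃ β ∈ A, E = α • v₁ + β • v₂) :
    Module.Free A (Derivation ℂ A A) := by
  obtain ⟨D₁, e₁⟩ := der_restrict A v₁ h₁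
  obtain ⟨D₂, e₂⟩ := der_restrict A v₂ h₂
  let f := (LinearMap.toSpanSingleton A _ D₁).coprod (LinearMap.toSpanSingleton A _ D₂)
  have hf : ∀ (p : A × A) (a : A), (f p a : K) = ((p.1 : K) • v₁ + (p.2 : K) • v₂) a := by
    intro p a
    simp [f, e₁, e₂]
  refine Module.Free.of_equiv (LinearEquiv.ofBijective f ⟨?_, fun D => ?_⟩)
  · rw [injective_iff_map_eq_zero]
    intro p hp
    have h0 := der_zero_of_fracTop A hA _ fun a ha => (hf p ⟨a, ha⟩).symm.trans (by simp [hp])
    have hx : p.1 * v₁ x + p.2 * v₂ x = 0 := by simpa using Derivation.congr_fun h0 x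
    have hy : p.1 * v₁ y + p.2 * v₂ y = 0 := by simpa using Derivation.congr_fun h0 y
    refine Prod.ext (Subtype.ext (mul_right_cancel₀ hw ?_)) (Subtype.ext (mul_right_cancel₀ hw ?_))
    · simp only [wedge, Prod.fst_zero, ZeroMemClass.coe_zero]
      linear_combination v₂ y * hx - v₂ x * hy
    · simp only [wedge, Prod.snd_zero, ZeroMemClass.coe_zero]
      linear_combination v₁ x * hy - v₁ y * hx
  · obtain ⟨E, hE⟩ := der_ext A hA D
    obtain ⟨α, hα, β, hβ, e⟩ := h E fun a ha => hE ⟨a, ha⟩ ▸ (D ⟨a, ha⟩).2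
    refine ⟨(⟨α, hα⟩, ⟨β, hβ⟩), Derivation.ext fun a => Subtype.ext ?_⟩
    rw [hf, ← hE, e]

end Vale.Agent.P266
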