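import Vale.Agent.P266.Data
import Vale.Agent.P266.Der

open Polynomial

noncomputable section

namespace Vale.Agent.P266

namespace Setup

variable {K : Type} [Field K] [Algebra ℂ K] (G : Setup K)

theorem W_ne (j : Fin 4) : G.W j ≠ 0 := by
  intro h
  have := congrArg G.dw h
  simp [W, G.dw_w] at this

theorem aeval_ne {p : ℂ[X]} (hp : p ≠ 0) : aeval G.u p ≠ 0 := by
  have h : aeval G.u p - algebraMap ℂ K p.leadingCoeff * G.u ^ p.natDegree ∈
      Pol0 G.w G.u p.natDegree := by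
    rw [aeval_eq_sum_range, Finset.sum_range_succ, Algebra.smul_def, leadingCoeff,
      add_sub_cancel_right]
    exact sum_mem fun i hi => Submodule.smul_mem _ _
      (Pol_le_Pol0 (Finset.mem_range.1 hi) (u_pow_mem_Pol i))
  have := lead_val G.Vp G.Vp_c G.u_ne G.Vp_x G.Vp_y (leadingCoeff_ne_zero.mpr hp) h
  intro h0
  rw [h0] at this
  simp at this

theorem t_ne (j : Fin 4) : G.t j ≠ 0 := G.aeval_ne (qP_monic j 1).ne_zero

theorem I_ne (j : Fin 4) : G.I j ≠ 0 := G.aeval_ne (qP_monic j 2).ne_zero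

theorem Q_eq (j : Fin 4) : G.Q j = G.u ^ 6 * G.t j ^ 17 * G.I j ^ 4 := by
  simp only [Q, QP, t, I, map_mul, map_pow, aeval_X]

theorem Q_ne (j : Fin 4) : G.Q j ≠ 0 := by
  rw [Q_eq]
  exact mul_ne_zero (mul_ne_zero (pow_ne_zero _ G.u_ne) (pow_ne_zero _ (G.t_ne j)))
    (pow_ne_zero _ (G.I_ne j))

theorem O_ne (i : Fin 2) (j : Fin 4) : G.O i j ≠ 0 := by
  simp only [O, OP, map_mul, map_pow, aeval_X]
  exact mul_ne_zero (mul_ne_zero (pow_ne_zero _ G.u_ne) (pow_ne_zero _ (G.t_ne j))) (G.I_ne j)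

theorem M_ne (i : Fin 2) (j : Fin 4) : G.M i j ≠ 0 :=
  G.aeval_ne (Finset.prod_ne_zero_iff.mpr fun e _ => pow_ne_zero _ (qP_monic j e).ne_zero)

theorem W'_ne (j : Fin 4) : G.W' j ≠ 0 := div_ne_zero (G.W_ne j) (G.Q_ne j)

theorem g_ne : G.g ≠ 0 := Finset.prod_ne_zero_iff.mpr fun j _ => G.W_ne j

theorem gj_ne (j : Fin 4) : G.gj j ≠ 0 := Finset.prod_ne_zero_iff.mpr fun k _ => G.W_ne k

theorem F_lead (i : Fin 2) : G.F i - algebraMap ℂ K 1 * G.u ^ nF ∈ Pol0 G.w G.u nF := by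
  rw [map_one, one_mul]; exact (G.hF i).1

theorem F_mem (i : Fin 2) : G.F i ∈ Pol G.w G.u nF := mem_Pol_of_lead (G.F_lead i)

theorem F_ne (i : Fin 2) : G.F i ≠ 0 := by
  have := lead_val G.Vp G.Vp_c G.u_ne G.Vp_x G.Vp_y one_ne_zero (G.F_lead i)
  intro h0
  rw [h0, zero_mul, map_zero] at this
  exact zero_ne_one this

theorem Gam_ne : G.Gam ≠ 0 := by
  have := lead_val G.Vp G.Vp_c G.u_ne G.Vp_x G.Vp_y (by norm_num [kap]) G.Gam_lead
  intro h0
  rw [h0, zero_mul, map_zero] at this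
  exact zero_ne_one this

theorem Ftot_ne : G.Ftot ≠ 0 :=
  pow_ne_zero _ (mul_ne_zero (mul_ne_zero G.Gam_ne (G.F_ne 0)) (G.F_ne 1))

theorem φ_ne (i : Fin 2) : G.φ i ≠ 0 := by
  intro h
  have := G.hφ i
  rw [h, zero_pow (by decide), zero_mul] at this
  exact Finset.prod_ne_zero_iff.mpr (fun j _ => pow_ne_zero _ (G.W_ne j)) this.symm

theorem W_eq (j : Fin 4) : G.W j = G.W' j * G.Q j := (div_mul_cancel₀ _ (G.Q_ne j)).symm

theorem OO_eq (j : Fin 4) : G.O 0 j * G.O 1 j = G.u ^ 3 * G.t j ^ 4 * G.I j ^ 2 := by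
  rw [O, O, ← map_mul, OP_mul_OP]
  simp only [t, I, map_mul, map_pow, aeval_X]

lemma basic_mon (a b c x : K) (n m : ℕ) (h : m = (11 + n + n) * 34) :
    (a * b * c) ^ 34 * x ^ m = (a * x ^ 11 * (b * x ^ n) * (c * x ^ n)) ^ 34 := by
  rw [h, pow_mul, ← mul_pow, pow_add, pow_add]
  congr 1
  ring

theorem Ftot_zero : G.Ftot * G.x ^ (374 * cc) = (G.gam0 * G.f0 0 * G.f0 1) ^ 34 :=
  basic_mon _ _ _ _ _ _ (by decide)

lemma basic_mon2 (a b c o m m' : K) (n k : ℕ) (ho : o ≠ 0) (hm : m ≠ 0) (hm' : m' ≠ 0)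
    (h : m * m' = o ^ n) (hk : k = n + 1) :
    (a * b * c) ^ 34 = o ^ (34 * k) * (a / o * (b / m) * (c / m')) ^ 34 := by
  rw [mul_comm 34, pow_mul, ← mul_pow, hk, pow_succ o, ← h]
  congr 1
  field_simp

theorem Ftot_line (j : Fin 4) :
    G.Ftot = (G.O 0 j * G.O 1 j) ^ (34 * cc) * (G.gam j * G.f 0 j * G.f 1 j) ^ 34 := by
  refine basic_mon2 _ _ _ _ _ _ 6820 _ (mul_ne_zero (G.O_ne 0 j) (G.O_ne 1 j)) (G.M_ne 0 j)
    (G.M_ne 1 j) ?_ (by decide)
  rw [M, M, O, O, ← map_mul, ← map_mul, MP_mul_MP, map_pow]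

lemma basic_mon3 (a u t s b : K) (n : ℕ) :
    (a * (u ^ 6 * t ^ 17 * s ^ 4)) ^ (8 * n) * (u ^ 3 * s ^ 2) ^ (18 * n) * b =
      (u ^ 3 * t ^ 4 * s ^ 2) ^ (34 * n) * a ^ (8 * n) * b := by
  ring

theorem Psi_eq (j : Fin 4) :
    G.Psi j = (G.O 0 j * G.O 1 j) ^ (34 * cc) * G.W' j ^ (8 * cc) * G.gj j ^ (17 * cc) := by
  rw [Psi, OO_eq, G.W_eq j, Q_eq, basic_mon3]

theorem Rw_le_Rl (j : Fin 4) : G.Rw ≤ G.Rl j := by
  have hu : G.u ∈ G.Rl j := Algebra.subset_adjoin (by simp)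
  have hW : G.W' j ∈ G.Rl j := Algebra.subset_adjoin (by simp)
  refine Algebra.adjoin_le ?_
  rintro z (rfl | rfl)
  · have : G.w = G.W' j * G.Q j + algebraMap ℂ K (wc j) := by rw [← W_eq, W, sub_add_cancel]
    rw [this]
    refine add_mem (mul_mem hW ?_) (Subalgebra.algebraMap_mem _ _)
    exact Algebra.adjoin_mono (by simp) (aeval_mem_adjoin_singleton ℂ G.u)
  · exact hu

theorem aeval_mem_Rw (p : ℂ[X]) : aeval G.u p ∈ G.Rw := G.data_aeval p

theorem fracTop_of (S : Subalgebra ℂ K) (hw : ∃ a ∈ S, ∃ b ∈ S, b ≠ 0 ∧ G.w * b = a)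
    (hu : ∃ a ∈ S, ∃ b ∈ S, b ≠ 0 ∧ G.u * b = a)
    (hφ : ∀ i, ∃ a ∈ S, ∃ b ∈ S, b ≠ 0 ∧ G.φ i * b = a) : FracTop S := by
  intro z
  have hz : z ∈ Subfield.closure (Set.range (algebraMap ℂ K) ∪ {G.w, G.u, G.φ 0, G.φ 1}) := by
    rw [G.gen]; trivial
  induction hz using Subfield.closure_induction with
  | mem x hx =>
    rcases hx with ⟨c, rfl⟩ | rfl | rfl | rfl | rfl
    · exact ⟨_, S.algebraMap_mem c, 1, S.one_mem, one_ne_zero, mul_one _⟩
    · exact hw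
    · exact hu
    · exact hφ 0
    · exact hφ 1
  | one => exact ⟨1, S.one_mem, 1, S.one_mem, one_ne_zero, mul_one _⟩
  | add x y _ _ hx hy =>
    obtain ⟨a, ha, b, hb, hb0, e⟩ := hx
    obtain ⟨a', ha', b', hb', hb0', e'⟩ := hy
    exact ⟨a * b' + a' * b, add_mem (mul_mem ha hb') (mul_mem ha' hb), b * b', mul_mem hb hb',
      mul_ne_zero hb0 hb0', by rw [← e, ← e']; ring⟩
  | neg x _ hx =>
    obtain ⟨a, ha, b, hb, hb0, e⟩ := hx
    exact ⟨-a, neg_mem ha, b, hb, hb0, by rw [← e]; ring⟩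
  | inv x _ hx =>
    obtain ⟨a, ha, b, hb, hb0, e⟩ := hx
    by_cases h0 : x = 0
    · exact ⟨0, S.zero_mem, 1, S.one_mem, one_ne_zero, by simp [h0]⟩
    · exact ⟨b, hb, a, ha, by rw [← e]; exact mul_ne_zero h0 hb0, by rw [← e]; field_simp⟩
  | mul x y _ _ hx hy =>
    obtain ⟨a, ha, b, hb, hb0, e⟩ := hx
    obtain ⟨a', ha', b', hb', hb0', e'⟩ := hy
    exact ⟨a * a', mul_mem ha ha', b * b', mul_mem hb hb', mul_ne_zero hb0 hb0',
      by rw [← e, ← e']; ring⟩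

theorem Xf_w (i : Fin 2) : G.Xf i G.w = G.A i * G.g := by
  rw [Xf, Derivation.sub_apply, Derivation.smul_apply, Derivation.smul_apply, G.dw_w, G.du_w,
    smul_zero, sub_zero, smul_eq_mul, mul_one]

theorem Xf_u (i : Fin 2) : G.Xf i G.u = -G.P i := by
  rw [Xf, Derivation.sub_apply, Derivation.smul_apply, Derivation.smul_apply, G.dw_u, G.du_u,
    smul_zero, zero_sub, smul_eq_mul, mul_one]

theorem wedge_Xf : wedge (G.Xf 0) (G.Xf 1) G.w G.u = -(G.g * G.Gam) := by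
  rw [wedge, Xf_w, Xf_w, Xf_u, Xf_u, Gam, P, P]
  generalize G.A 0 = a
  generalize G.A 1 = b
  generalize G.P0 0 = c
  generalize G.P0 1 = d
  generalize G.g = e
  ring

theorem wedge_v_ne : wedge (G.v 0) (G.v 1) G.w G.u ≠ 0 := by
  have : wedge (G.v 0) (G.v 1) G.w G.u = G.φ 0 * G.φ 1 * wedge (G.Xf 0) (G.Xf 1) G.w G.u := by
    simp only [wedge, v, Derivation.smul_apply, smul_eq_mul]; ring
  rw [this, wedge_Xf]
  exact mul_ne_zero (mul_ne_zero (G.φ_ne 0) (G.φ_ne 1))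
    (neg_ne_zero.mpr (mul_ne_zero G.g_ne G.Gam_ne))

theorem A0_fg : G.A0.FG :=
  Subalgebra.fg_def.mpr ⟨_, Set.Finite.image _
    (Set.Finite.union (Set.toFinite _) (Set.finite_range _)), rfl⟩

lemma basic_alg (S : Subalgebra ℂ K) (z a : K) (n : ℕ) (hn : 0 < n) (ha : a ∈ S) (ha0 : a ≠ 0)
    (h : a * z ^ n ∈ S) : IsAlgebraic S z := by
  refine IsAlgebraic.of_pow hn (IsAlgebraic.of_mul (y := a) (mem_nonZeroDivisors_of_ne_zero ha0)
    (isAlgebraic_algebraMap (⟨a, ha⟩ : S)) (isAlgebraic_algebraMap (⟨_, h⟩ : S)))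

theorem A0_alg : Algebra.IsAlgebraic G.A0 K := by
  have hm : ∀ s ∈ G.nums, s / G.Ftot ∈ G.A0 := fun s hs => Algebra.subset_adjoin ⟨s, hs, rfl⟩
  have h0 := hm (G.g ^ (17 * cc)) (Or.inl (Or.inl rfl))
  have hne : G.g ^ (17 * cc) / G.Ftot ≠ 0 := div_ne_zero (pow_ne_zero _ G.g_ne) G.Ftot_ne
  have hw : IsAlgebraic G.A0 G.w := basic_alg _ _ _ (306 * cc) (by decide) h0 hne (by
    rw [div_mul_eq_mul_div]; exact hm _ (Or.inl (Or.inr (Or.inl rfl))))
  have hu : IsAlgebraic G.A0 G.u := basic_alg _ _ _ (306 * cc) (by decide) h0 hne (by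
    rw [div_mul_eq_mul_div]; exact hm _ (Or.inl (Or.inr (Or.inr rfl))))
  let B : Subalgebra G.A0 K := Algebra.adjoin G.A0 {G.w, G.u}
  have hB : Algebra.IsAlgebraic G.A0 B := by
    rw [← Subalgebra.isAlgebraic_iff, Algebra.isAlgebraic_adjoin_iff]
    rintro z (rfl | rfl)
    · exact hw
    · exact hu
  have hle : Algebra.adjoin ℂ ({G.w, G.u} : Set K) ≤ B.restrictScalars ℂ :=
    Algebra.adjoin_le Algebra.subset_adjoin
  have hK : Algebra.IsAlgebraic B K := ⟨fun z => by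
    obtain ⟨p, hp, e⟩ := G.alg.isAlgebraic z
    let f : Algebra.adjoin ℂ ({G.w, G.u} : Set K) →+* B :=
      (Subalgebra.inclusion hle).toRingHom
    refine ⟨p.map f, (Polynomial.map_ne_zero_iff (Subalgebra.inclusion_injective hle)).mpr hp, ?_⟩
    rw [aeval_def, eval₂_map]
    exact e⟩
  exact Algebra.IsAlgebraic.trans G.A0 B K

lemma basic_val_const (V : ValuationSubring K) (hc : ∀ c : ℂ, algebraMap ℂ K c ∈ V) (c : ℂ)
    (h : c ≠ 0) : V.valuation (algebraMap ℂ K c) = 1 := by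
  have e1 := (V.valuation_le_one_iff _).mpr (hc c)
  have e2 := (V.valuation_le_one_iff _).mpr (hc c⁻¹)
  have h0 : 0 < V.valuation (algebraMap ℂ K c) :=
    zero_lt_iff.mpr ((Valuation.ne_zero_iff _).mpr ((_root_.map_ne_zero _).mpr h))
  rw [map_inv₀, map_inv₀, inv_le_one₀ h0] at e2
  exact le_antisymm e1 e2

theorem val_W_other (V : ValuationSubring K) (hc : ∀ c : ℂ, algebraMap ℂ K c ∈ V) {j k : Fin 4}
    (hj : V.valuation (G.W j) < 1) (hk : k ≠ j) : V.valuation (G.W k) = 1 := by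
  have h1 := basic_val_const V hc (wc j - wc k) (sub_ne_zero.mpr fun e => hk (wc_injective e).symm)
  have e : G.W k = algebraMap ℂ K (wc j - wc k) + G.W j := by rw [W, W, map_sub]; ring
  rw [e, V.valuation.map_add_eq_of_lt_left (by rwa [h1]), h1]

theorem val_gj (V : ValuationSubring K) (hc : ∀ c : ℂ, algebraMap ℂ K c ∈ V) {j : Fin 4}
    (hj : V.valuation (G.W j) < 1) : V.valuation (G.gj j) = 1 := by
  rw [gj, map_prod]
  exact Finset.prod_eq_one fun k hk => G.val_W_other V hc hj (Finset.ne_of_mem_erase hk)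

end Setup

end Vale.Agent.P266
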