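import Vale.Agent.P266.Basic

open Polynomial

noncomputable section

namespace Vale.Agent.P266

attribute [local irreducible] nF cc NN

theorem chain_ineq {Γ : Type*} [LinearOrderedCommGroupWithZero Γ] {τ ω : Γ} {k : ℕ}
    (h : τ ^ k ≤ ω) (hω : ω ≤ 1) (a μ : ℕ) : (ω ^ a * τ ^ (μ - a * k)) ^ k ≤ ω ^ μ := by
  rw [mul_pow, ← pow_mul, ← pow_mul, mul_comm (μ - a * k), pow_mul τ]
  calc _ ≤ ω ^ (a * k) * ω ^ (μ - a * k) := by gcongr
    _ = ω ^ (a * k + (μ - a * k)) := by rw [pow_add]
    _ ≤ ω ^ μ := pow_le_pow_right_of_le_one' hω (by omega)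

theorem chain_unit {K : Type} [Field K] [Algebra ℂ K] (V : ValuationSubring K)
    (hc : ∀ c : ℂ, algebraMap ℂ K c ∈ V) {u : K} (hu : u ∈ V) (p : ℂ[X]) :
    V.valuation (aeval u p) ≤ 1 := by
  rw [V.valuation_le_one_iff]
  exact below_adjoin {u} V hc (by rintro z rfl; exact hu) _
    (Polynomial.aeval_mem_adjoin_singleton ℂ u)

theorem chain_cop {K : Type} [Field K] [Algebra ℂ K] (V : ValuationSubring K)
    (hc : ∀ c : ℂ, algebraMap ℂ K c ∈ V) {u : K} (hu : u ∈ V) {p q : ℂ[X]} (h : IsCoprime p q)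
    (hp : V.valuation (aeval u p) < 1) : V.valuation (aeval u q) = 1 := by
  by_contra hn
  have hq := lt_of_le_of_ne (chain_unit V hc hu q) hn
  obtain ⟨a, b, e⟩ := h
  have e' := congrArg (aeval u) e
  simp only [map_add, map_mul, map_one] at e'
  have h1 : V.valuation (aeval u a * aeval u p) < 1 := by
    rw [map_mul]
    calc _ ≤ 1 * V.valuation (aeval u p) := by gcongr; exact chain_unit V hc hu a
      _ < 1 := by simpa using hp
  have h2 : V.valuation (aeval u b * aeval u q) < 1 := by
    rw [map_mul]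
    calc _ ≤ 1 * V.valuation (aeval u q) := by gcongr; exact chain_unit V hc hu b
      _ < 1 := by simpa using hq
  have := V.valuation.map_add_lt h1 h2
  rw [e'] at this
  simp at this

theorem chain_coprime_of {p q r : ℂ[X]} {c : ℂ} (hc : c ≠ 0) (h : q = C c + p * r) :
    IsCoprime p q := by
  refine ⟨-(C c⁻¹ * r), C c⁻¹, ?_⟩
  have : C c⁻¹ * C c = (1 : ℂ[X]) := by rw [← C_mul, inv_mul_cancel₀ hc, C_1]
  rw [h]
  linear_combination this

theorem chain_X_t : IsCoprime (X : ℂ[X]) (X + C 9) :=
  chain_coprime_of (c := 9) (r := 1) (by norm_num) (by ring)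

theorem chain_X_Is : IsCoprime (X : ℂ[X]) Is :=
  chain_coprime_of (c := 3069142274244375 / 1982464)
    (r := X ^ 3 - C 250 * X ^ 2 + C (3260475 / 128) * X - C (1491888256875 / 30976))
    (by norm_num) (by unfold Is; ring)

theorem chain_X_In : IsCoprime (X : ℂ[X]) In :=
  chain_coprime_of (c := 261603 / 8) (r := X - C 268) (by norm_num) (by unfold In; ring)

theorem chain_t_In : IsCoprime (X + C 9 : ℂ[X]) In := by
  refine chain_coprime_of (c := 281547 / 8) (r := X - C 277) (by norm_num) ?_
  have h1 : (C (281547 / 8) : ℂ[X]) = C (261603 / 8) + C 9 * C 277 := by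
    rw [← C_mul, ← C_add]
    norm_num
  have h2 : (C 268 : ℂ[X]) = C 277 - C 9 := by
    rw [← C_sub]
    norm_num
  unfold In
  rw [h1, h2]
  ring

theorem chain_coprime (j : Fin 4) (e e' : Fin 3) (h : e' ≠ e) : IsCoprime (qP j e) (qP j e') := by
  have b1 : IsCoprime X (tP j) := by
    fin_cases j
    exacts [isCoprime_one_right, chain_X_t, isCoprime_one_right, chain_X_t]
  have b2 : IsCoprime X (IP j) := by
    fin_cases j
    exacts [chain_X_Is, chain_X_In, chain_X_Is, chain_X_In]
  have b3 : IsCoprime (tP j) (IP j) := by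
    fin_cases j
    exacts [isCoprime_one_left, chain_t_In, isCoprime_one_left, chain_t_In]
  fin_cases e <;> fin_cases e'
  exacts [absurd rfl h, b1, b2, b1.symm, absurd rfl h, b3, b2.symm, b3.symm, absurd rfl h]

theorem chain_jet {K : Type} [Field K] [Algebra ℂ K] (V : ValuationSubring K)
    (hc : ∀ c : ℂ, algebraMap ℂ K c ∈ V) {w u W : K} (hw : w ∈ V) (hu : u ∈ V) (T : ℕ → K)
    {k : ℕ} (hk : k ≠ 0) (B : V.ValueGroup)
    (hT : ∀ a, (V.valuation W ^ a * V.valuation (T a)) ^ k ≤ B) {z : K} (hz : z ∈ Jet w u W T) :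
    V.valuation z ^ k ≤ B := by
  have hR : Below (Algebra.adjoin ℂ {w, u}) V := below_adjoin _ V hc (by
    rintro z (rfl | rfl)
    exacts [hw, hu])
  induction hz using Submodule.span_induction with
  | mem z hz =>
    obtain ⟨c, hc', a, -, rfl⟩ := hz
    refine le_trans ?_ (hT a)
    have := (V.valuation_le_one_iff _).2 (hR c hc')
    rw [map_mul, map_mul, map_pow]
    gcongr
    calc _ ≤ 1 * V.valuation W ^ a := by gcongr
      _ = _ := one_mul _
  | zero => simp [hk]
  | add a b _ _ ha hb =>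
    rcases le_total (V.valuation a) (V.valuation b) with h | h
    · exact le_trans (pow_le_pow_left₀ zero_le (V.valuation.map_add_le h le_rfl) k) hb
    · exact le_trans (pow_le_pow_left₀ zero_le (V.valuation.map_add_le le_rfl h) k) ha
  | smul c a _ ha =>
    refine le_trans ?_ ha
    have := (V.valuation_le_one_iff _).2 (hc c)
    rw [Algebra.smul_def, map_mul]
    gcongr
    calc _ ≤ 1 * V.valuation a := by gcongr
      _ = _ := one_mul _

def chainC : Fin 3 → ℕ := ![3, 4, 2]

theorem chain_mu (j : Fin 4) (e : Fin 3) : mu 0 j e + mu 1 j e = 6820 * chainC e := by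
  fin_cases j <;> fin_cases e <;> rfl

namespace Setup

variable {K : Type} [Field K] [Algebra ℂ K] (G : Setup K)

theorem not_chain (V : ValuationSubring K) (hV : Below G.A0 V) (j : Fin 4) (hu : G.u ∈ V)
    (hW : V.valuation (G.W j) < 1) : G.W' j ∈ V := by
  by_contra hn
  have hc : ∀ c : ℂ, algebraMap ℂ K c ∈ V := fun c => hV _ (Subalgebra.algebraMap_mem _ c)
  have hw : G.w ∈ V := by
    have e2 : G.w = G.W j + algebraMap ℂ K (wc j) := by simp [W]
    rw [e2]
    exact V.add_mem _ _ ((V.valuation_le_one_iff _).1 hW.le) (hc _)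
  have h1 : 1 < V.valuation (G.W' j) := by
    rw [← V.valuation_le_one_iff] at hn
    exact not_le.1 hn
  have hω : 0 < V.valuation (G.W j) := by
    rw [Valuation.pos_iff]
    exact G.W_ne j
  have hQ : V.valuation (G.Q j) < V.valuation (G.W j) := by
    have hQ0 : 0 < V.valuation (G.Q j) := by
      rw [Valuation.pos_iff]
      exact G.Q_ne j
    rw [G.W_eq j, map_mul]
    exact lt_mul_of_one_lt_left hQ0 h1
  have hprod : ∀ n : Fin 3 → ℕ, V.valuation (aeval G.u (∏ e, qP j e ^ n e)) =
      ∏ e, V.valuation (aeval G.u (qP j e)) ^ n e := by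
    intro n
    simp only [map_prod, map_pow]
  have hQP : G.Q j = aeval G.u (∏ e, qP j e ^ kk e) := by
    rw [Fin.prod_univ_three]
    rfl
  obtain ⟨e, he⟩ : ∃ e, V.valuation (aeval G.u (qP j e)) < 1 := by
    by_contra hne
    have : ∀ e, V.valuation (aeval G.u (qP j e)) = 1 := fun e =>
      le_antisymm (chain_unit V hc hu _) (not_lt.1 fun h => hne ⟨e, h⟩)
    rw [hQP, hprod] at hQ
    simp only [this, one_pow, Finset.prod_const_one] at hQ
    exact absurd (hQ.trans hW) (lt_irrefl _)
  have hoth : ∀ e', e' ≠ e → V.valuation (aeval G.u (qP j e')) = 1 :=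
    fun e' h => chain_cop V hc hu (chain_coprime j e e' h) he
  have hsingle : ∀ n : Fin 3 → ℕ, V.valuation (aeval G.u (∏ e, qP j e ^ n e)) =
      V.valuation (aeval G.u (qP j e)) ^ n e := by
    intro n
    rw [hprod, Finset.prod_eq_single e (fun e' _ h => by rw [hoth e' h, one_pow]) (by simp)]
  rw [hQP, hsingle] at hQ
  set τ := V.valuation (aeval G.u (qP j e)) with hτ
  set ω := V.valuation (G.W j) with hωd
  have hk : kk e ≠ 0 := by fin_cases e <;> decide
  have hT : ∀ (i : Fin 2) (a : ℕ), (ω ^ a * V.valuation (aeval G.u (TP (qP j) kk (mu i j) a))) ^ kk e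
      ≤ ω ^ mu i j e := by
    intro i a
    rw [TP, hsingle]
    exact chain_ineq hQ.le hW.le a _
  have hF : ∀ i, V.valuation (G.F i) ^ kk e ≤ ω ^ mu i j e := by
    intro i
    have b1 := chain_jet V hc hw hu _ hk _ (hT i) ((G.hF i).2 j)
    have b2 := hT i 0
    rw [pow_zero, one_mul] at b2
    have e3 : G.F i = (G.F i - aeval G.u (TP (qP j) kk (mu i j) 0)) +
      aeval G.u (TP (qP j) kk (mu i j) 0) := by ring
    rw [e3]
    rcases le_total (V.valuation (G.F i - aeval G.u (TP (qP j) kk (mu i j) 0)))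
      (V.valuation (aeval G.u (TP (qP j) kk (mu i j) 0))) with h | h
    · exact le_trans (pow_le_pow_left₀ zero_le (V.valuation.map_add_le h le_rfl) _) b2
    · exact le_trans (pow_le_pow_left₀ zero_le (V.valuation.map_add_le le_rfl h) _) b1
  have hG : V.valuation G.Gam ^ kk e < ω ^ chainC e := by
    obtain ⟨r, hr, e3⟩ := G.Gam_line j
    have hR : Below G.Rw V := below_adjoin _ V hc (by
      rintro z (rfl | rfl)
      exacts [hw, hu])
    have hO : G.O 0 j * G.O 1 j = aeval G.u (∏ e, qP j e ^ chainC e) := by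
      rw [G.OO_eq, Fin.prod_univ_three]
      simp [qP, chainC, t, I]
    have c1 : chainC e ≠ 0 := by fin_cases e <;> decide
    have c2 : chainC e < kk e := by fin_cases e <;> decide
    have b1 : V.valuation (algebraMap ℂ K (2 * kap) * (G.O 0 j * G.O 1 j)) ^ kk e
        < ω ^ chainC e := by
      have := (V.valuation_le_one_iff _).2 (hc (2 * kap))
      rw [map_mul, hO, hsingle]
      calc _ ≤ (1 * τ ^ chainC e) ^ kk e := by gcongr
        _ = (τ ^ kk e) ^ chainC e := by rw [one_mul, ← pow_mul, ← pow_mul, mul_comm]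
        _ < _ := pow_lt_pow_left₀ hQ zero_le c1
    have b2 : V.valuation (G.W j * r) ^ kk e < ω ^ chainC e := by
      have := (V.valuation_le_one_iff _).2 (hR r hr)
      rw [map_mul]
      calc _ ≤ (ω * 1) ^ kk e := by gcongr
        _ = ω ^ kk e := by rw [mul_one]
        _ < _ := pow_lt_pow_right_of_lt_one₀ hω hW c2
    rw [e3]
    rcases le_total (V.valuation (algebraMap ℂ K (2 * kap) * (G.O 0 j * G.O 1 j)))
      (V.valuation (G.W j * r)) with h | h
    · exact lt_of_le_of_lt (pow_le_pow_left₀ zero_le (V.valuation.map_add_le h le_rfl) _) b2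
    · exact lt_of_le_of_lt (pow_le_pow_left₀ zero_le (V.valuation.map_add_le le_rfl h) _) b1
  have hFt : V.valuation G.Ftot ^ kk e < ω ^ (34 * chainC e * cc) := by
    have b1 : V.valuation (G.Gam * G.F 0 * G.F 1) ^ kk e < ω ^ (chainC e * cc) := by
      rw [map_mul, map_mul, mul_pow, mul_pow]
      calc _ ≤ V.valuation G.Gam ^ kk e * ω ^ mu 0 j e * ω ^ mu 1 j e := by
            exact mul_le_mul' (mul_le_mul' le_rfl (hF 0)) (hF 1)
        _ < ω ^ chainC e * ω ^ mu 0 j e * ω ^ mu 1 j e := by
            gcongr <;> exact pow_pos hω _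
        _ = _ := by
            rw [mul_assoc, ← pow_add, chain_mu, ← pow_add]
            congr 1
            unfold cc
            ring
    have e4 : 34 * chainC e * cc = chainC e * cc * 34 := by ring
    rw [Ftot, map_pow, ← pow_mul, mul_comm 34, pow_mul, e4, pow_mul ω _ 34]
    exact pow_lt_pow_left₀ b1 zero_le (by norm_num : 34 ≠ 0)
  have hF0 : 0 < V.valuation G.Ftot := by
    rw [Valuation.pos_iff]
    exact G.Ftot_ne
  have fin : ∀ s ∈ G.nums, V.valuation s ^ kk e ≠ ω ^ (34 * chainC e * cc) := by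
    intro s hs h
    have hP := (V.valuation_le_one_iff _).2 (hV _ (Algebra.subset_adjoin ⟨s, hs, rfl⟩))
    rw [map_div₀, div_le_one₀ hF0] at hP
    have := lt_of_le_of_lt (pow_le_pow_left₀ zero_le hP _) hFt
    rw [h] at this
    exact lt_irrefl _ this
  have hgj := G.val_gj V hc hW
  by_cases h1e : e = 1
  · subst h1e
    apply fin (G.Psi j) (Or.inr ⟨j, rfl⟩)
    have a0 : V.valuation G.u = 1 := by simpa [qP] using hoth 0 (by decide)
    have a2 : V.valuation (G.I j) = 1 := hoth 2 (by decide)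
    simp only [Psi, map_mul, map_pow, a0, a2, hgj, one_pow, mul_one, ← pow_mul]
    congr 1
    simp only [kk, chainC, Matrix.cons_val_one, Matrix.cons_val_zero]
    ring
  · apply fin _ (Or.inl (Or.inl rfl))
    rw [G.g_eq j, map_pow, map_mul, hgj, mul_one, ← pow_mul]
    congr 1
    fin_cases e
    · simp [kk, chainC]
      ring
    · exact absurd rfl h1e
    · simp [kk, chainC]
      ring

end Setup

end Vale.Agent.P266
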