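import Vale.Agent.P266.Der
import Vale.Agent.P266.Icl

open Polynomial

noncomputable section

namespace Vale.Agent.P266

variable {K : Type} [Field K] [Algebra ℂ K]

/-- logarithmic derivative of a root -/
theorem der_root (D : Derivation ℂ K K) (p U : K) (N : ℕ) (hN : 0 < N) (hU : U ≠ 0)
    (h : p ^ N = U) : D p = p * (algebraMap ℂ K (N : ℂ)⁻¹ * D U * U⁻¹) := by
  obtain ⟨n, rfl⟩ : ∃ n, N = n + 1 := ⟨N - 1, by omega⟩
  have h1 : algebraMap ℂ K ((n + 1 : ℕ) : ℂ)⁻¹ * ((n + 1 : ℕ) : K) = 1 := by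
    rw [← map_natCast (algebraMap ℂ K), ← map_mul, inv_mul_cancel₀ (Nat.cast_ne_zero.2 hN.ne'),
      map_one]
  have h2 : D U = ((n + 1 : ℕ) : K) * (p ^ n * D p) := by
    rw [← h, Derivation.leibniz_pow, Nat.add_sub_cancel, smul_eq_mul, nsmul_eq_mul]
  have h3 : p ^ (n + 1) * U⁻¹ = 1 := by rw [h, mul_inv_cancel₀ hU]
  rw [h2]
  linear_combination (-D p * (p ^ (n + 1) * U⁻¹)) * h1 - D p * h3

theorem chart_pres (a b f : K) (Y : Derivation ℂ K K)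
    (hf : f ∈ Algebra.adjoin ℂ ({a, b} : Set K))
    (ha : Y a ∈ Algebra.adjoin ℂ ({a, b} : Set K)) (hb : Y b ∈ Algebra.adjoin ℂ ({a, b} : Set K)) :
    Pres Y (Algebra.adjoin ℂ ({a, b, f⁻¹} : Set K)) := by
  have h1 : Pres Y (Algebra.adjoin ℂ ({a, b} : Set K)) := pres_adjoin Y _ (by
    rintro _ (rfl | rfl)
    exacts [ha, hb])
  have h2 : Algebra.adjoin ℂ ({a, b} : Set K) ≤ Algebra.adjoin ℂ ({a, b, f⁻¹} : Set K) :=
    Algebra.adjoin_mono (by rintro _ (rfl | rfl) <;> simp)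
  refine pres_adjoin Y _ ?_
  rintro _ (rfl | rfl | rfl)
  · exact h2 ha
  · exact h2 hb
  · rw [Derivation.leibniz_inv, smul_eq_mul]
    exact mul_mem (neg_mem (pow_mem (Algebra.subset_adjoin (by simp)) 2)) (h2 (h1 f hf))

omit [Algebra ℂ K] in
theorem chart_unit {V : ValuationSubring K} {p U : K} {N : ℕ} (hN : 0 < N) (h0 : U ≠ 0)
    (h1 : U ∈ V) (h2 : U⁻¹ ∈ V) (h : p ^ N = U) : V.valuation p = 1 := by
  have h3 := (V.valuation_le_one_iff _).2 h1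
  have h4 := (V.valuation_le_one_iff _).2 h2
  have h5 : V.valuation U = 1 := by
    refine le_antisymm h3 (not_lt.1 fun h5 => ?_)
    have h6 := mul_lt_one_of_lt_of_le h5 h4
    rw [← map_mul, mul_inv_cancel₀ h0, map_one] at h6
    exact lt_irrefl _ h6
  rw [← h, map_pow] at h5
  exact (pow_eq_one_iff_of_nonneg zero_le hN.ne').1 h5

theorem Good.symm {v₁ v₂ : Derivation ℂ K K} {A₀ : Subalgebra ℂ K} {V : ValuationSubring K}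
    (h : Good v₁ v₂ A₀ V) : Good v₂ v₁ A₀ V := by
  obtain ⟨S, h1, h2, h3, h4, h5, h6, a, ha, b, hb, h7⟩ := h
  refine ⟨S, h1, h2, h3, h4, h6, h5, b, hb, a, ha, ?_⟩
  rw [← h7]
  congr 1
  simp only [wedge]; ring

/-- general chart lemma; `S = ℂ[a, b, f⁻¹, ξ, ζ ^ 2 / t, ζ]` -/
theorem good_of_chart (V : ValuationSubring K) (hc : ∀ c : ℂ, algebraMap ℂ K c ∈ V)
    (a b f t r U₁ U₂ ξ ζ : K) (Y₁ Y₂ : Derivation ℂ K K) (A₀ : Subalgebra ℂ K) (N N' : ℕ)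
    (hN : 0 < N) (hN' : 0 < N') (ha : a ∈ V) (hb : b ∈ V)
    (hf : f ∈ Algebra.adjoin ℂ ({a, b} : Set K)) (hfv : V.valuation f = 1)
    (h₁a : Y₁ a ∈ Algebra.adjoin ℂ ({a, b} : Set K)) (h₁b : Y₁ b ∈ Algebra.adjoin ℂ ({a, b} : Set K))
    (h₂a : Y₂ a ∈ Algebra.adjoin ℂ ({a, b} : Set K)) (h₂b : Y₂ b ∈ Algebra.adjoin ℂ ({a, b} : Set K))
    (ht : t ∈ Algebra.adjoin ℂ ({a, b} : Set K)) (ht0 : t ≠ 0)
    (hr : r ∈ Algebra.adjoin ℂ ({a, b} : Set K)) (htr : Y₁ t = t * r)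
    (hU₁ : U₁ ∈ Algebra.adjoin ℂ ({a, b, f⁻¹} : Set K))
    (hU₁' : U₁⁻¹ ∈ Algebra.adjoin ℂ ({a, b, f⁻¹} : Set K)) (hU₁0 : U₁ ≠ 0)
    (hU₂ : U₂ ∈ Algebra.adjoin ℂ ({a, b, f⁻¹} : Set K))
    (hU₂' : U₂⁻¹ ∈ Algebra.adjoin ℂ ({a, b, f⁻¹} : Set K)) (hU₂0 : U₂ ≠ 0)
    (hξ : ξ ^ N = U₁) (hζ : (ζ ^ 2 / t) ^ N' = U₂)
    (hw : V.valuation (wedge Y₁ Y₂ a b) = 1)
    (htv : V.valuation t = 1 ∨ (Y₁ t = Y₁ a ∧ Y₂ t = Y₂ a))
    (hgen : ∀ S : Subalgebra ℂ K, a ∈ S → b ∈ S → ξ ∈ S → ζ ∈ S → FracTop S)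
    (hA₀ : A₀ ≤ Algebra.adjoin ℂ ({a, b, f⁻¹} : Set K)) :
    Good (ξ • Y₁) (ζ • Y₂) A₀ V := by
  set υ := ζ ^ 2 / t with hυ
  have hζ2 : ζ ^ 2 = υ * t := by rw [hυ, div_mul_cancel₀ _ ht0]
  clear_value υ
  set S := Algebra.adjoin ℂ ({a, b, f⁻¹, ξ, υ, ζ} : Set K) with hS
  have l1 : Algebra.adjoin ℂ ({a, b} : Set K) ≤ S :=
    Algebra.adjoin_mono (by rintro _ (rfl | rfl) <;> simp)
  have l2 : Algebra.adjoin ℂ ({a, b, f⁻¹} : Set K) ≤ S :=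
    Algebra.adjoin_mono (by rintro _ (rfl | rfl | rfl) <;> simp)
  have l3 : Algebra.adjoin ℂ ({a, b} : Set K) ≤ Algebra.adjoin ℂ ({a, b, f⁻¹} : Set K) :=
    Algebra.adjoin_mono (by rintro _ (rfl | rfl) <;> simp)
  have ma : a ∈ S := Algebra.subset_adjoin (by simp)
  have mb : b ∈ S := Algebra.subset_adjoin (by simp)
  have mξ : ξ ∈ S := Algebra.subset_adjoin (by simp)
  have mυ : υ ∈ S := Algebra.subset_adjoin (by simp)
  have mζ : ζ ∈ S := Algebra.subset_adjoin (by simp)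
  have mf : f⁻¹ ∈ Algebra.adjoin ℂ ({a, b, f⁻¹} : Set K) := Algebra.subset_adjoin (by simp)
  have p1 := chart_pres a b f Y₁ hf h₁a h₁b
  have p2 := chart_pres a b f Y₂ hf h₂a h₂b
  have hfV : f⁻¹ ∈ V := by rw [← V.valuation_le_one_iff, map_inv₀, hfv, inv_one]
  have b2 : Below (Algebra.adjoin ℂ ({a, b, f⁻¹} : Set K)) V := below_adjoin _ V hc (by
    rintro _ (rfl | rfl | rfl)
    exacts [ha, hb, hfV])
  have vξ : V.valuation ξ = 1 := chart_unit hN hU₁0 (b2 _ hU₁) (b2 _ hU₁') hξ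
  have vυ : V.valuation υ = 1 := chart_unit hN' hU₂0 (b2 _ hU₂) (b2 _ hU₂') hζ
  have vt : V.valuation t ≤ 1 := (V.valuation_le_one_iff _).2 (b2 _ (l3 ht))
  have vζ2 : V.valuation ζ ^ 2 = V.valuation t := by rw [← map_pow, hζ2, map_mul, vυ, one_mul]
  have vζ : V.valuation ζ ≤ 1 := (pow_le_one_iff_of_nonneg zero_le two_ne_zero).1 (vζ2 ▸ vt)
  have bS : Below S V := below_adjoin _ V hc (by
    rintro _ (rfl | rfl | rfl | rfl | rfl | rfl)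
    exacts [ha, hb, hfV, (V.valuation_le_one_iff _).1 vξ.le, (V.valuation_le_one_iff _).1 vυ.le,
      (V.valuation_le_one_iff _).1 vζ])
  have hυ0 : υ ≠ 0 := fun e => by rw [e, map_zero] at vυ; exact zero_ne_one vυ
  have hζ0 : ζ ≠ 0 := fun e => mul_ne_zero hυ0 ht0 (by rw [← hζ2, e]; ring)
  have root : ∀ (Y : Derivation ℂ K K), Pres Y (Algebra.adjoin ℂ ({a, b, f⁻¹} : Set K)) →
      ∀ (U : K) (c : ℂ), U ∈ Algebra.adjoin ℂ ({a, b, f⁻¹} : Set K) →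
        U⁻¹ ∈ Algebra.adjoin ℂ ({a, b, f⁻¹} : Set K) → algebraMap ℂ K c * Y U * U⁻¹ ∈ S :=
    fun Y hY U c h1 h2 => mul_mem (mul_mem (S.algebraMap_mem c) (l2 (hY U h1))) (l2 h2)
  have y1υ : Y₁ υ ∈ S := by
    rw [der_root Y₁ υ U₂ N' hN' hU₂0 hζ]; exact mul_mem mυ (root Y₁ p1 _ _ hU₂ hU₂')
  have y2υ : Y₂ υ ∈ S := by
    rw [der_root Y₂ υ U₂ N' hN' hU₂0 hζ]; exact mul_mem mυ (root Y₂ p2 _ _ hU₂ hU₂')
  have half : algebraMap ℂ K (1 / 2) * 2 = 1 := by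
    rw [← map_ofNat (algebraMap ℂ K) 2, ← map_mul]; norm_num
  have dζ : ∀ Y : Derivation ℂ K K, ζ * Y ζ = algebraMap ℂ K (1 / 2) * (υ * Y t + t * Y υ) := by
    intro Y
    have h1 := congrArg Y hζ2
    rw [pow_two, Derivation.leibniz, Derivation.leibniz, smul_eq_mul, smul_eq_mul,
      smul_eq_mul] at h1
    linear_combination (algebraMap ℂ K (1 / 2)) * h1 - (ζ * Y ζ) * half
  have y1ζ : Y₁ ζ ∈ S := by
    have h1 : Y₁ ζ = ζ * (algebraMap ℂ K (1 / 2)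
        * (r + algebraMap ℂ K (N' : ℂ)⁻¹ * Y₁ U₂ * U₂⁻¹)) := by
      apply mul_left_cancel₀ hζ0
      rw [dζ, htr, der_root Y₁ υ U₂ N' hN' hU₂0 hζ, ← mul_assoc ζ, ← pow_two, hζ2]; ring
    rw [h1]
    exact mul_mem mζ (mul_mem (S.algebraMap_mem _) (add_mem (l1 hr) (root Y₁ p1 _ _ hU₂ hU₂')))
  refine ⟨S, Subalgebra.fg_def.2 ⟨_, Set.toFinite _, rfl⟩, hgen S ma mb mξ mζ, hA₀.trans l2, bS,
    pres_adjoin _ _ ?_, pres_adjoin _ _ ?_, ?_⟩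
  · intro z hz
    rw [Derivation.smul_apply, smul_eq_mul]
    refine mul_mem mξ ?_
    rcases hz with rfl | rfl | rfl | rfl | rfl | rfl
    · exact l1 h₁a
    · exact l1 h₁b
    · exact l2 (p1 _ mf)
    · rw [der_root Y₁ _ U₁ N hN hU₁0 hξ]; exact mul_mem mξ (root Y₁ p1 _ _ hU₁ hU₁')
    · exact y1υ
    · exact y1ζ
  · intro z hz
    rw [Derivation.smul_apply, smul_eq_mul]
    rcases hz with rfl | rfl | rfl | rfl | rfl | rfl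
    · exact mul_mem mζ (l1 h₂a)
    · exact mul_mem mζ (l1 h₂b)
    · exact mul_mem mζ (l2 (p2 _ mf))
    · rw [der_root Y₂ _ U₁ N hN hU₁0 hξ]
      exact mul_mem mζ (mul_mem mξ (root Y₂ p2 _ _ hU₁ hU₁'))
    · exact mul_mem mζ y2υ
    · rw [dζ]
      exact mul_mem (S.algebraMap_mem _)
        (add_mem (mul_mem mυ (l2 (p2 _ (l3 ht)))) (mul_mem (l1 ht) y2υ))
  · by_cases h1 : V.valuation t = 1
    · refine ⟨a, ma, b, mb, ?_⟩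
      have e : wedge (ξ • Y₁) (ζ • Y₂) a b = ξ * ζ * wedge Y₁ Y₂ a b := by
        simp only [wedge, Derivation.smul_apply, smul_eq_mul]; ring
      have h2 : V.valuation ζ = 1 :=
        (pow_eq_one_iff_of_nonneg zero_le two_ne_zero).1 (vζ2.trans h1)
      rw [e, map_mul, map_mul, vξ, h2, hw, one_mul, one_mul]
    · obtain ⟨e1, e2⟩ := htv.resolve_left h1
      refine ⟨ζ, mζ, b, mb, ?_⟩
      have e : wedge (ξ • Y₁) (ζ • Y₂) ζ b = ξ * algebraMap ℂ K (1 / 2)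
          * (υ * wedge Y₁ Y₂ a b + t * wedge Y₁ Y₂ υ b) := by
        simp only [wedge, Derivation.smul_apply, smul_eq_mul]
        have d1 := dζ Y₁
        have d2 := dζ Y₂
        rw [e1] at d1
        rw [e2] at d2
        linear_combination (ξ * Y₂ b) * d1 - (ξ * Y₁ b) * d2
      have h2 : V.valuation (υ * wedge Y₁ Y₂ a b) = 1 := by rw [map_mul, vυ, hw, one_mul]
      have h3 : V.valuation (t * wedge Y₁ Y₂ υ b) < V.valuation (υ * wedge Y₁ Y₂ a b) := by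
        rw [h2, map_mul]
        refine mul_lt_one_of_lt_of_le (lt_of_le_of_ne vt h1) ((V.valuation_le_one_iff _).2 ?_)
        exact bS _ (sub_mem (mul_mem y1υ (l1 h₂b)) (mul_mem (l1 h₁b) y2υ))
      rw [e, map_mul, map_mul, vξ, val_const V hc _ (by norm_num),
        Valuation.map_add_eq_of_lt_left _ h3, h2, one_mul, one_mul]

/-- the singular point; `S = ℂ[a, b, f⁻¹, p₁, p₂]` -/
theorem sing_of_chart (V : ValuationSubring K) (hc : ∀ c : ℂ, algebraMap ℂ K c ∈ V)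
    (a b f p₁ p₂ : K) (Y₁ Y₂ : Derivation ℂ K K) (A₀ : Subalgebra ℂ K)
    (ha : a ∈ V) (hb : b ∈ V)
    (hf : f ∈ Algebra.adjoin ℂ ({a, b} : Set K)) (hfv : V.valuation f = 1)
    (h₁a : Y₁ a ∈ Algebra.adjoin ℂ ({a, b} : Set K)) (h₁b : Y₁ b ∈ Algebra.adjoin ℂ ({a, b} : Set K))
    (h₂a : Y₂ a ∈ Algebra.adjoin ℂ ({a, b} : Set K)) (h₂b : Y₂ b ∈ Algebra.adjoin ℂ ({a, b} : Set K))
    (h₁₁ : ∃ r ∈ Algebra.adjoin ℂ ({a, b, f⁻¹} : Set K), Y₁ p₁ = p₁ * r)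
    (h₁₂ : ∃ r ∈ Algebra.adjoin ℂ ({a, b, f⁻¹} : Set K), Y₁ p₂ = p₂ * r)
    (h₂₁ : ∃ r ∈ Algebra.adjoin ℂ ({a, b, f⁻¹} : Set K), Y₂ p₁ = p₁ * r)
    (h₂₂ : ∃ r ∈ Algebra.adjoin ℂ ({a, b, f⁻¹} : Set K), Y₂ p₂ = p₂ * r)
    (hp₁ : V.valuation p₁ < 1) (hp₂ : V.valuation p₂ < 1)
    (hgen : ∀ S : Subalgebra ℂ K, a ∈ S → b ∈ S → p₁ ∈ S → p₂ ∈ S → FracTop S)
    (hA₀ : A₀ ≤ Algebra.adjoin ℂ ({a, b, f⁻¹} : Set K)) (hs : Small A₀ V) :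
    Sing (p₁ • Y₁) (p₂ • Y₂) A₀ V := by
  set S := Algebra.adjoin ℂ ({a, b, f⁻¹, p₁, p₂} : Set K) with hS
  have l1 : Algebra.adjoin ℂ ({a, b} : Set K) ≤ S :=
    Algebra.adjoin_mono (by rintro _ (rfl | rfl) <;> simp)
  have l2 : Algebra.adjoin ℂ ({a, b, f⁻¹} : Set K) ≤ S :=
    Algebra.adjoin_mono (by rintro _ (rfl | rfl | rfl) <;> simp)
  have ma : a ∈ S := Algebra.subset_adjoin (by simp)
  have mb : b ∈ S := Algebra.subset_adjoin (by simp)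
  have m1 : p₁ ∈ S := Algebra.subset_adjoin (by simp)
  have m2 : p₂ ∈ S := Algebra.subset_adjoin (by simp)
  have mf : f⁻¹ ∈ Algebra.adjoin ℂ ({a, b, f⁻¹} : Set K) := Algebra.subset_adjoin (by simp)
  have hfV : f⁻¹ ∈ V := by rw [← V.valuation_le_one_iff, map_inv₀, hfv, inv_one]
  have key : ∀ Y : Derivation ℂ K K, Y a ∈ Algebra.adjoin ℂ ({a, b} : Set K) →
      Y b ∈ Algebra.adjoin ℂ ({a, b} : Set K) →
      (∃ r ∈ Algebra.adjoin ℂ ({a, b, f⁻¹} : Set K), Y p₁ = p₁ * r) →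
      (∃ r ∈ Algebra.adjoin ℂ ({a, b, f⁻¹} : Set K), Y p₂ = p₂ * r) → Pres Y S := by
    rintro Y h1 h2 ⟨r1, h3, h4⟩ ⟨r2, h5, h6⟩
    refine pres_adjoin _ _ ?_
    rintro z (rfl | rfl | rfl | rfl | rfl)
    · exact l1 h1
    · exact l1 h2
    · exact l2 (chart_pres a b f Y hf h1 h2 _ mf)
    · rw [h4]; exact mul_mem m1 (l2 h3)
    · rw [h6]; exact mul_mem m2 (l2 h5)
  refine ⟨hs, S, Subalgebra.fg_def.2 ⟨_, Set.toFinite _, rfl⟩, hgen S ma mb m1 m2, hA₀.trans l2,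
    below_adjoin _ V hc ?_, Y₁, Y₂, p₁, p₂, key Y₁ h₁a h₁b h₁₁ h₁₂, key Y₂ h₂a h₂b h₂₁ h₂₂,
    hp₁, hp₂, rfl, rfl⟩
  rintro _ (rfl | rfl | rfl | rfl | rfl)
  exacts [ha, hb, hfV, (V.valuation_le_one_iff _).1 hp₁.le, (V.valuation_le_one_iff _).1 hp₂.le]

end Vale.Agent.P266
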