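import Vale.Agent.P266.Moment

open Polynomial

noncomputable section

namespace Vale.Agent.P266

lemma data_al (i : Fin 2) (j : Fin 4) : al i j = 1 ∨ al i j = 2 := by
  unfold al; split_ifs <;> simp

lemma data_dQ (j : Fin 4) : derivative (QP j) = 6 * X ^ 5 * tP j ^ 17 * IP j ^ 4 +
    17 * X ^ 6 * tP j ^ 16 * derivative (tP j) * IP j ^ 4 +
    4 * X ^ 6 * tP j ^ 17 * IP j ^ 3 * derivative (IP j) := by
  simp only [QP, derivative_mul, derivative_pow, derivative_X, map_natCast]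
  push_cast
  ring

theorem EP_mul_QP (i : Fin 2) (j : Fin 4) : EP i j * QP j = OP i j * derivative (QP j) := by
  rw [data_dQ, EP, OP, QP]
  simp only [map_ofNat]
  rcases data_al i j with h | h <;> rw [h] <;> ring

theorem OP_dvd_derivative (i : Fin 2) (j : Fin 4) : OP i j ∣ derivative (QP j) := by
  refine ⟨6 * X ^ (5 - al i j) * tP j ^ 15 * IP j ^ 3 +
    17 * X ^ (6 - al i j) * tP j ^ 14 * derivative (tP j) * IP j ^ 3 +
    4 * X ^ (6 - al i j) * tP j ^ 15 * IP j ^ 2 * derivative (IP j), ?_⟩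
  rw [data_dQ, OP]
  rcases data_al i j with h | h <;> rw [h] <;> ring

theorem OP_mul_tP_dvd (i : Fin 2) (j : Fin 4) : OP i j * tP j ∣ QP j := by
  refine ⟨X ^ (6 - al i j) * tP j ^ 14 * IP j ^ 3, ?_⟩
  rw [QP, OP]
  rcases data_al i j with h | h <;> rw [h] <;> ring

theorem OP_mul_OP (j : Fin 4) : OP 0 j * OP 1 j = X ^ 3 * tP j ^ 4 * IP j ^ 2 := by
  have h : al 0 j + al 1 j = 3 := by revert j; decide
  rw [OP, OP, ← h]
  ring

lemma data_TP (j : Fin 4) (μ : Fin 3 → ℕ) (a : ℕ) : TP (qP j) kk μ a =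
    X ^ (μ 0 - a * 6) * tP j ^ (μ 1 - a * 17) * IP j ^ (μ 2 - a * 4) := by
  rw [TP, Fin.prod_univ_three]; rfl

lemma data_mon (x t s : ℂ[X]) (m n a : ℕ) : (x ^ 6 * t ^ 17 * s ^ 4) ^ m * (x ^ a * t ^ 2 * s) ^ n =
    x ^ (6 * m + a * n) * t ^ (17 * m + 2 * n) * s ^ (4 * m + n) := by
  ring

theorem MP_two (j : Fin 4) :
    TP (qP j) kk (mu (two j) j) 0 = QP j ^ mm (two j) j * OP (two j) j ^ NN := by
  have h : mu (two j) j 0 - 0 * 6 = 6 * mm (two j) j + al (two j) j * NN ∧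
      mu (two j) j 1 - 0 * 17 = 17 * mm (two j) j + 2 * NN ∧
      mu (two j) j 2 - 0 * 4 = 4 * mm (two j) j + NN := by revert j; decide
  rw [data_TP, QP, OP, data_mon, h.1, h.2.1, h.2.2]

theorem MP_one (j : Fin 4) :
    TP (qP j) kk (mu (one j) j) 0 * tP j ^ 3069 = QP j ^ mm (one j) j * OP (one j) j ^ NN := by
  have h : 6 * mm (one j) j + al (one j) j * NN = mu (one j) j 0 - 0 * 6 ∧
      17 * mm (one j) j + 2 * NN = (mu (one j) j 1 - 0 * 17) + 3069 ∧
      4 * mm (one j) j + NN = mu (one j) j 2 - 0 * 4 := by revert j; decide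
  rw [data_TP, QP, OP, data_mon, h.1, h.2.1, h.2.2, pow_add, mul_right_comm _ (IP j ^ _),
    mul_assoc (X ^ _)]

lemma data_mon2 (x t s : ℂ[X]) (a b c a' b' c' n : ℕ) (h1 : a + a' = 3 * n) (h2 : b + b' = 4 * n)
    (h3 : c + c' = 2 * n) :
    x ^ a * t ^ b * s ^ c * (x ^ a' * t ^ b' * s ^ c') = (x ^ 3 * t ^ 4 * s ^ 2) ^ n := by
  rw [mul_pow, mul_pow, ← pow_mul, ← pow_mul, ← pow_mul, ← h1, ← h2, ← h3]
  ring

theorem MP_mul_MP (j : Fin 4) :
    TP (qP j) kk (mu 0 j) 0 * TP (qP j) kk (mu 1 j) 0 = (OP 0 j * OP 1 j) ^ 6820 := by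
  rw [OP_mul_OP, data_TP, data_TP]
  apply data_mon2 <;> revert j <;> decide

theorem MP_dvd (i : Fin 2) (j : Fin 4) (a : ℕ) :
    TP (qP j) kk (mu i j) 0 ∣ QP j ^ a * TP (qP j) kk (mu i j) a := by
  rw [data_TP, data_TP, QP, mul_pow, mul_pow, ← pow_mul, ← pow_mul, ← pow_mul, mul_mul_mul_comm,
    mul_mul_mul_comm (X ^ _), ← pow_add, ← pow_add, ← pow_add]
  exact mul_dvd_mul (mul_dvd_mul (pow_dvd_pow _ (by omega)) (pow_dvd_pow _ (by omega)))
    (pow_dvd_pow _ (by omega))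

section

variable {K : Type} [Field K] [Algebra ℂ K]

lemma data_evA (w u : K) : ev lA w u = ev lA.dropLast w u + algebraMap ℂ K kap * u ^ 4 := by
  have h : lA = lA.dropLast ++ [((3/3459104 : ℚ), 0, 4)] := rfl
  have e : ((3/3459104 : ℚ) : ℂ) = kap := by norm_num [kap]
  conv_lhs => rw [h]
  simp only [ev, List.map_append, List.sum_append, List.map_cons, List.map_nil, List.sum_cons,
    List.sum_nil, e, pow_zero, mul_one, add_zero]

lemma data_P (u : K) (i : Fin 2) (j : Fin 4) :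
    u * Pf i (algebraMap ℂ K (wc j)) u - u * (algebraMap ℂ K (wc j)) ^ 3 *
      Af i (algebraMap ℂ K (wc j)) u = aeval u (OP i j) * aeval u (sP i j) := by
  have : CharZero K := charZero_of_injective_algebraMap (algebraMap ℂ K).injective
  fin_cases i <;> fin_cases j <;>
  · simp [Pf, Af, ev, lA, lP, OP, sP, tP, IP, Is, In, al, two, wc, sTwo, sOne, map_ofNat]
    ring

lemma data_A (u : K) (i : Fin 2) (j : Fin 4) :
    Af i (algebraMap ℂ K (wc j)) u *
      (∏ k ∈ Finset.univ.erase j, (algebraMap ℂ K (wc j) - algebraMap ℂ K (wc k))) +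
      aeval u (sP i j) * aeval u (EP i j) = aeval u (OP i j) * aeval u (BP i j) := by
  have : CharZero K := charZero_of_injective_algebraMap (algebraMap ℂ K).injective
  have e : ∀ j : Fin 4, ∀ f : Fin 4 → K, ∏ k ∈ Finset.univ.erase j, f k =
      f (j + 1) * f (j + 2) * f (j + 3) := by
    intro j f
    have : Finset.univ.erase j = {j + 1, j + 2, j + 3} := by revert j; decide
    rw [this, Finset.prod_insert (by revert j; decide), Finset.prod_pair (by revert j; decide),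
      mul_assoc]
  rw [e]
  fin_cases i <;> fin_cases j <;>
  · simp [Af, ev, lA, OP, sP, EP, BP, tP, IP, Is, In, al, two, wc, sTwo, sOne, BTwo, BOne, map_ofNat]
    ring

lemma data_G (u : K) (j : Fin 4) :
    Af 0 (algebraMap ℂ K (wc j)) u * (u * Pf 1 (algebraMap ℂ K (wc j)) u) -
      Af 1 (algebraMap ℂ K (wc j)) u * (u * Pf 0 (algebraMap ℂ K (wc j)) u) =
      algebraMap ℂ K (2 * kap) * (aeval u (OP 0 j) * aeval u (OP 1 j)) := by
  have : CharZero K := charZero_of_injective_algebraMap (algebraMap ℂ K).injective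
  fin_cases j <;>
  · simp [Pf, Af, ev, lA, lP, OP, tP, IP, Is, In, al, two, wc, kap, map_ofNat]
    ring

end

namespace Setup

variable {K : Type} [Field K] [Algebra ℂ K] (G : Setup K)

theorem A_zero_lead : G.A 0 - algebraMap ℂ K kap * G.u ^ 4 ∈ Pol0 G.w G.u 4 := by
  have : G.A 0 = ev lA G.w G.u := rfl
  rw [this, data_evA, add_sub_cancel_right]
  exact (ev_mem_Pol0 (by decide)).1

theorem A_one_lead : G.A 1 - algebraMap ℂ K (-kap) * G.u ^ 4 ∈ Pol0 G.w G.u 4 := by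
  have : G.A 1 = -ev lA (-G.w) G.u := rfl
  rw [this, data_evA, map_neg, neg_mul, sub_neg_eq_add, neg_add, neg_add_cancel_right]
  exact neg_mem (ev_mem_Pol0 (by decide)).2

theorem A_mem (i : Fin 2) : G.A i ∈ Pol G.w G.u 4 := by
  fin_cases i
  · exact mem_Pol_of_lead G.A_zero_lead
  · exact mem_Pol_of_lead G.A_one_lead

lemma data_Pf_lead (i : Fin 2) :
    Pf i G.w G.u - algebraMap ℂ K 1 * G.u ^ 6 ∈ Pol0 G.w G.u 6 := by
  rw [map_one, one_mul, Pf, add_sub_cancel_left]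
  fin_cases i
  · exact (ev_mem_Pol0 (l := lP) (by decide)).1
  · exact (ev_mem_Pol0 (l := lP) (by decide)).2

theorem Pf_mem (i : Fin 2) : Pf i G.w G.u ∈ Pol G.w G.u 6 := mem_Pol_of_lead (G.data_Pf_lead i)

lemma data_P0_lead (i : Fin 2) : G.P0 i - algebraMap ℂ K 1 * G.u ^ 7 ∈ Pol0 G.w G.u 7 := by
  have h : G.u - algebraMap ℂ K 1 * G.u ^ 1 ∈ Pol0 G.w G.u 1 := by simp
  simpa [P0] using lead_mul h (G.data_Pf_lead i)

theorem P0_mem (i : Fin 2) : G.P0 i ∈ Pol G.w G.u 7 := mem_Pol_of_lead (G.data_P0_lead i)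

theorem Gam_lead : G.Gam - algebraMap ℂ K (2 * kap) * G.u ^ 11 ∈ Pol0 G.w G.u 11 := by
  have := sub_mem (lead_mul G.A_zero_lead (G.data_P0_lead 1))
    (lead_mul G.A_one_lead (G.data_P0_lead 0))
  have e : G.Gam - algebraMap ℂ K (2 * kap) * G.u ^ 11 =
      G.A 0 * G.P0 1 - algebraMap ℂ K (kap * 1) * G.u ^ (4 + 7) -
        (G.A 1 * G.P0 0 - algebraMap ℂ K (-kap * 1) * G.u ^ (4 + 7)) := by
    simp only [Gam, map_mul, map_neg, map_one, map_ofNat]; ring
  rw [e]; exact this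

theorem Gam_u : ∃ z ∈ Pol G.w G.u 10, G.Gam = G.u * z := by
  have h1 := Pol_mul (G.A_mem 0) (G.Pf_mem 1)
  have h2 := Pol_mul (G.A_mem 1) (G.Pf_mem 0)
  refine ⟨_, sub_mem h1 h2, ?_⟩
  rw [Gam, P0, P0, mul_sub, mul_left_comm, mul_left_comm (G.A 1)]

theorem g_eq (j : Fin 4) : G.g = G.W j * G.gj j :=
  (Finset.mul_prod_erase _ _ (Finset.mem_univ j)).symm

lemma data_prod (s : Finset (Fin 4)) : ∏ k ∈ s, G.W k ∈ Pol G.w G.u s.card := by
  induction s using Finset.induction_on with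
  | empty => simpa using const_mem_Pol (w := G.w) (u := G.u) 1 0
  | insert k s hk ih =>
    rw [Finset.prod_insert hk, Finset.card_insert_of_notMem hk, add_comm]
    exact Pol_mul (Pol0_le_Pol _ (W_mem_Pol0 _)) ih

lemma data_prod_sub (s : Finset (Fin 4)) :
    ∏ k ∈ s, G.W k - G.w ^ s.card ∈ Pol G.w G.u (s.card - 1) := by
  induction s using Finset.induction_on with
  | empty => simp
  | insert k s hk ih =>
    rw [Finset.prod_insert hk, Finset.card_insert_of_notMem hk, Nat.add_sub_cancel]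
    have e : G.W k * ∏ k ∈ s, G.W k - G.w ^ (s.card + 1) =
        G.w ^ 1 * (∏ k ∈ s, G.W k - G.w ^ s.card) - algebraMap ℂ K (wc k) * ∏ k ∈ s, G.W k := by
      rw [W]; ring
    rw [e]
    refine sub_mem ?_ ?_
    · rcases s.eq_empty_or_nonempty with rfl | h
      · simp
      · have := h.card_pos
        exact Pol_mono (by omega) (Pol_mul (w_pow_mem_Pol 1) ih)
    · exact Pol_mono (by omega) (Pol_mul (const_mem_Pol _ 0) (G.data_prod s))

theorem gj_mem (j : Fin 4) : G.gj j ∈ Pol G.w G.u 3 := by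
  simpa [gj] using G.data_prod (Finset.univ.erase j)

theorem g_mem : G.g ∈ Pol0 G.w G.u 4 := by
  have h := Pol0_mul (W_mem_Pol0 (w := G.w) (u := G.u) (wc 0)) (G.gj_mem 0)
  rw [G.g_eq 0]; exact h

theorem g_sub : G.g - G.w ^ 4 ∈ Pol G.w G.u 3 := by
  simpa [g] using G.data_prod_sub Finset.univ

theorem gj_sub (j : Fin 4) : G.gj j - G.w ^ 3 ∈ Pol G.w G.u 2 := by
  simpa [gj] using G.data_prod_sub (Finset.univ.erase j)

theorem nums_mem {s : K} (hs : s ∈ G.nums) : s ∈ Pol0 G.w G.u (374 * cc) := by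
  have hc : 0 < cc := by decide
  have hg := Pol0_pow G.g_mem (17 * cc) (by omega)
  rcases hs with (rfl | rfl | rfl) | ⟨j, rfl⟩
  · exact Pol0_mono (by omega) hg
  · exact Pol0_mono (by omega) (Pol0_mul hg (w_pow_mem_Pol _))
  · exact Pol0_mono (by omega) (Pol0_mul hg (u_pow_mem_Pol _))
  · have h1 := Pol0_pow (W_mem_Pol0 (w := G.w) (u := G.u) (wc j)) (8 * cc) (by omega)
    have h2 := Pol_pow (Pol_mul (u_pow_mem_Pol (w := G.w) (u := G.u) 3)
      (Pol_pow (aeval_u_mem_Pol (natDegree_IP_le j)) 2)) (18 * cc)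
    exact Pol0_mono (by omega) (Pol0_mul (Pol0_mul h1 h2) (Pol_pow (G.gj_mem j) (17 * cc)))

/-- congruence modulo `W j` -/
def DataCg (j : Fin 4) (a b : K) : Prop := a ∈ G.Rw ∧ b ∈ G.Rw ∧ ∃ r ∈ G.Rw, a = b + G.W j * r

variable {G}

lemma DataCg.refl {j : Fin 4} {a : K} (h : a ∈ G.Rw) : G.DataCg j a a :=
  ⟨h, h, 0, zero_mem _, by simp⟩

lemma DataCg.add {j : Fin 4} {a b c d : K} (h : G.DataCg j a b) (h' : G.DataCg j c d) :
    G.DataCg j (a + c) (b + d) := by
  obtain ⟨h1, h2, r, hr, e⟩ := h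
  obtain ⟨h3, h4, r', hr', e'⟩ := h'
  exact ⟨add_mem h1 h3, add_mem h2 h4, r + r', add_mem hr hr', by rw [e, e']; ring⟩

lemma DataCg.neg {j : Fin 4} {a b : K} (h : G.DataCg j a b) : G.DataCg j (-a) (-b) := by
  obtain ⟨h1, h2, r, hr, e⟩ := h
  exact ⟨neg_mem h1, neg_mem h2, -r, neg_mem hr, by rw [e]; ring⟩

lemma DataCg.sub {j : Fin 4} {a b c d : K} (h : G.DataCg j a b) (h' : G.DataCg j c d) :
    G.DataCg j (a - c) (b - d) := by
  simpa only [sub_eq_add_neg] using h.add h'.neg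

lemma DataCg.mul {j : Fin 4} {a b c d : K} (h : G.DataCg j a b) (h' : G.DataCg j c d) :
    G.DataCg j (a * c) (b * d) := by
  obtain ⟨h1, h2, r, hr, e⟩ := h
  obtain ⟨h3, h4, r', hr', e'⟩ := h'
  refine ⟨mul_mem h1 h3, mul_mem h2 h4, r * c + b * r', add_mem (mul_mem hr h3) (mul_mem h2 hr'), ?_⟩
  rw [e, mul_add, mul_comm (G.W j) (b * r'), mul_assoc b, mul_comm r', add_mul]
  conv_lhs => rw [e']
  conv_rhs => rw [e']
  ring

variable (G)

lemma data_u : G.u ∈ G.Rw := Algebra.subset_adjoin (by simp)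

lemma data_w : G.w ∈ G.Rw := Algebra.subset_adjoin (by simp)

lemma data_cw (j : Fin 4) : G.DataCg j G.w (algebraMap ℂ K (wc j)) :=
  ⟨G.data_w, Subalgebra.algebraMap_mem _ _, 1, one_mem _, by simp [W]⟩

lemma data_ev_mem (l : List (ℚ × ℕ × ℕ)) {a : K} (ha : a ∈ G.Rw) : ev l a G.u ∈ G.Rw := by
  refine list_sum_mem fun z hz => ?_
  obtain ⟨p, -, rfl⟩ := List.mem_map.1 hz
  exact mul_mem (mul_mem (Subalgebra.algebraMap_mem _ _) (pow_mem ha _)) (pow_mem G.data_u _)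

lemma data_cev (l : List (ℚ × ℕ × ℕ)) (j : Fin 4) :
    G.DataCg j (ev l G.w G.u) (ev l (algebraMap ℂ K (wc j)) G.u) ∧
    G.DataCg j (ev l (-G.w) G.u) (ev l (-algebraMap ℂ K (wc j)) G.u) :=
  ⟨⟨G.data_ev_mem l G.data_w, G.data_ev_mem l (Subalgebra.algebraMap_mem _ _),
    (ev_restrict l (wc j)).1⟩, G.data_ev_mem l (neg_mem G.data_w),
    G.data_ev_mem l (neg_mem (Subalgebra.algebraMap_mem _ _)), (ev_restrict l (wc j)).2⟩

lemma data_cA (i : Fin 2) (j : Fin 4) :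
    G.DataCg j (G.A i) (Af i (algebraMap ℂ K (wc j)) G.u) := by
  fin_cases i
  · exact (G.data_cev lA j).1
  · exact (G.data_cev lA j).2.neg

lemma data_cP0 (i : Fin 2) (j : Fin 4) :
    G.DataCg j (G.P0 i) (G.u * Pf i (algebraMap ℂ K (wc j)) G.u) := by
  refine (DataCg.refl G.data_u).mul ((DataCg.refl (pow_mem G.data_u 6)).add ?_)
  fin_cases i
  · exact (G.data_cev lP j).1
  · exact (G.data_cev lP j).2

lemma data_aeval (p : ℂ[X]) : aeval G.u p ∈ G.Rw :=
  mem_adjoin_of_Pol (aeval_u_mem_Pol (w := G.w) le_rfl)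

theorem P_line (i : Fin 2) (j : Fin 4) :
    ∃ r ∈ G.Rw, G.P i = G.O i j * aeval G.u (sP i j) + G.W j * r := by
  have h3 := (G.data_cw j).mul ((G.data_cw j).mul (G.data_cw j))
  rw [← pow_three, ← pow_three] at h3
  have := (G.data_cP0 i j).sub (((DataCg.refl G.data_u).mul h3).mul (G.data_cA i j))
  rw [data_P] at this
  exact this.2.2

theorem A_line (i : Fin 2) (j : Fin 4) :
    ∃ r ∈ G.Rw, G.A i * G.gj j + aeval G.u (sP i j) * aeval G.u (EP i j) =
      G.O i j * aeval G.u (BP i j) + G.W j * r := by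
  have h : ∀ s : Finset (Fin 4), G.DataCg j (∏ k ∈ s, G.W k)
      (∏ k ∈ s, (algebraMap ℂ K (wc j) - algebraMap ℂ K (wc k))) := by
    intro s
    induction s using Finset.induction_on with
    | empty => exact DataCg.refl (by simp)
    | insert k s hk ih =>
      rw [Finset.prod_insert hk, Finset.prod_insert hk]
      exact ((G.data_cw j).sub (DataCg.refl (Subalgebra.algebraMap_mem _ _))).mul ih
  have := ((G.data_cA i j).mul (h (Finset.univ.erase j))).add
    (DataCg.refl (mul_mem (G.data_aeval (sP i j)) (G.data_aeval (EP i j))))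
  rw [data_A] at this
  exact this.2.2

theorem Gam_line (j : Fin 4) :
    ∃ r ∈ G.Rw, G.Gam = algebraMap ℂ K (2 * kap) * (G.O 0 j * G.O 1 j) + G.W j * r := by
  have := ((G.data_cA 0 j).mul (G.data_cP0 1 j)).sub ((G.data_cA 1 j).mul (G.data_cP0 0 j))
  rw [data_G] at this
  exact this.2.2

end Setup

end Vale.Agent.P266
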