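import Vale.Agent.P266.Moment
import Vale.Agent.P266.Der

open Polynomial

noncomputable section

namespace Vale.Agent.P266

abbrev FieldP : Type := MvPolynomial (Fin 2) ℂ

theorem field_val (K : Type) [Field K] [Algebra ℂ K] [Algebra FieldP K] [IsScalarTower ℂ FieldP K]
    (h : Function.Injective (algebraMap FieldP K)) :
    ∃ V : ValuationSubring K, (∀ c : ℂ, algebraMap ℂ K c ∈ V) ∧
      ∀ i, V.valuation (algebraMap FieldP K (MvPolynomial.X i)) < 1 := by
  let e := RingEquiv.ofBijective (algebraMap FieldP K).rangeRestrict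
    ⟨fun a b hab => h (congrArg Subtype.val hab), RingHom.rangeRestrict_surjective _⟩
  obtain ⟨V, h1, h2⟩ := Ideal.image_subset_nonunits_valuationSubring _
    (RingHom.ker_ne_top (MvPolynomial.constantCoeff.comp e.symm.toRingHom))
  refine ⟨V, fun c => h1 ⟨_, (IsScalarTower.algebraMap_apply ℂ FieldP K c).symm⟩, fun i =>
    V.mem_nonunits_iff.1 (h2 ⟨e (MvPolynomial.X i), ?_, rfl⟩)⟩
  simp

theorem field_aux (K₀ K : Type) [Field K₀] [Field K] [Algebra ℂ K₀] [Algebra ℂ K]
    [Algebra FieldP K₀] [IsScalarTower ℂ FieldP K₀] [IsFractionRing FieldP K₀] [Algebra K₀ K]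
    [IsScalarTower ℂ K₀ K] [Algebra.IsAlgebraic K₀ K] (w u : K₀)
    (hu : u⁻¹ = algebraMap FieldP K₀ (MvPolynomial.X 0))
    (hw : w * u⁻¹ = algebraMap FieldP K₀ (MvPolynomial.X 1)) (F : Fin 2 → K₀)
    (hF : ∀ i, IsF w u i (F i)) (φ : Fin 2 → K)
    (hφ : ∀ i, φ i ^ NN * algebraMap K₀ K (F i) =
      algebraMap K₀ K (∏ j, (w - algebraMap ℂ K₀ (wc j)) ^ mm i j))
    (gen : ∀ T : Subfield K, (∀ a, algebraMap K₀ K a ∈ T) → (∀ i, φ i ∈ T) → T = ⊤) :
    Nonempty (Setup K) := by
  let := ((algebraMap K₀ K).comp (algebraMap FieldP K₀)).toAlgebra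
  have : IsScalarTower FieldP K₀ K := .of_algebraMap_eq fun _ => rfl
  have : IsScalarTower ℂ FieldP K := .of_algebraMap_eq fun c => by
    rw [IsScalarTower.algebraMap_apply FieldP K₀ K, ← IsScalarTower.algebraMap_apply ℂ FieldP K₀,
      ← IsScalarTower.algebraMap_apply]
  have : CharZero K₀ := (RingHom.charZero_iff (algebraMap ℂ _).injective).1 inferInstance
  have := Algebra.FormallyEtale.of_isLocalization (Rₘ := K₀) (nonZeroDivisors FieldP)
  have := Algebra.FormallyEtale.of_isSeparable K₀ K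
  have := Algebra.FormallyEtale.comp FieldP K₀ K
  have hi : Function.Injective (algebraMap FieldP K) :=
    (algebraMap K₀ K).injective.comp (IsFractionRing.injective FieldP K₀)
  obtain ⟨V, hc, hV⟩ := field_val K hi
  choose d hd using fun i : Fin 2 =>
    der_lift ((Algebra.linearMap FieldP K).compDer (MvPolynomial.pderiv (R := ℂ) i))
  let e := IsScalarTower.toAlgHom ℂ K₀ K
  set x := algebraMap FieldP K (MvPolynomial.X 0) with hx
  set y := algebraMap FieldP K (MvPolynomial.X 1) with hy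
  have x0 : x ≠ 0 := (map_ne_zero_iff _ hi).2 (MvPolynomial.X_ne_zero 0)
  have hu' : (e u)⁻¹ = x := by rw [← map_inv₀, hu]; rfl
  have hw' : e w * (e u)⁻¹ = y := by rw [← map_inv₀, ← map_mul, hw]; rfl
  have eu : e u = x⁻¹ := by rw [← hu', inv_inv]
  have ew : e w = y * x⁻¹ := by rw [← hw', hu', mul_inv_cancel_right₀ x0]
  have d00 : d 0 x = 1 := by simp [hx, hd]
  have d01 : d 0 y = 0 := by simp [hy, hd]
  have d10 : d 1 x = 0 := by simp [hx, hd]
  have d11 : d 1 y = 1 := by simp [hy, hd]
  have sub : ∀ T : Subfield K, (∀ c, algebraMap ℂ K c ∈ T) → e w ∈ T → e u ∈ T →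
      ∀ a, algebraMap K₀ K a ∈ T := by
    intro T h1 h2 h3 a
    have h4 : ∀ p, algebraMap FieldP K p ∈ T := fun p => by
      induction p using MvPolynomial.induction_on with
      | C c => exact IsScalarTower.algebraMap_apply ℂ FieldP K c ▸ h1 c
      | add p q hp hq => rw [map_add]; exact add_mem hp hq
      | mul_X p i hp =>
        rw [map_mul]
        refine mul_mem hp ?_
        fin_cases i
        · exact (hu'.trans hx) ▸ inv_mem h3
        · exact (hw'.trans hy) ▸ mul_mem h2 (inv_mem h3)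
    obtain ⟨p, q, -, rfl⟩ := IsFractionRing.div_surjective FieldP a
    rw [map_div₀]
    exact div_mem (h4 p) (h4 q)
  refine ⟨⟨e w, e u, x • d 1, -(x • (x • d 0 + y • d 1)), fun i => e (F i), φ, V, ?_, ?_, ?_, ?_,
    eu ▸ inv_ne_zero x0, hc, hu' ▸ hV 0, hw' ▸ hV 1, fun i => (hF i).map e, fun i => ?_,
    gen _ (sub _ (fun c => ?_) ?_ ?_) fun i => ?_, ?_⟩⟩
  · simp [ew, d10, d11, Derivation.leibniz_inv, x0]
  · simp [eu, d10, Derivation.leibniz_inv]
  · simp only [ew, Derivation.neg_apply, Derivation.smul_apply, Derivation.add_apply,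
      Derivation.leibniz, Derivation.leibniz_inv, d00, d01, d10, d11, smul_eq_mul]
    field_simp
    ring
  · simp only [eu, Derivation.neg_apply, Derivation.smul_apply, Derivation.add_apply,
      Derivation.leibniz_inv, d00, d10, smul_eq_mul]
    field_simp
    ring
  · refine (hφ i).trans ?_
    simp only [map_prod, map_pow, map_sub, ← IsScalarTower.algebraMap_apply]
    rfl
  · exact Subfield.subset_closure (Or.inl ⟨c, rfl⟩)
  · exact Subfield.subset_closure (Or.inr (by simp))
  · exact Subfield.subset_closure (Or.inr (by simp))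
  · exact Subfield.subset_closure (Or.inr (by fin_cases i <;> simp))
  · rw [← IntermediateField.isAlgebraic_adjoin_iff_top]
    set E := IntermediateField.adjoin ℂ ({e w, e u} : Set K)
    have h1 := sub E.toSubfield E.algebraMap_mem (IntermediateField.subset_adjoin _ _ (by simp))
      (IntermediateField.subset_adjoin _ _ (by simp))
    exact ⟨fun z => ((Algebra.IsIntegral.isIntegral (R := K₀) z).map_of_comp_eq
      ((algebraMap K₀ K).codRestrict E h1) (RingHom.id K) rfl).isAlgebraic⟩

theorem exists_setup : ∃ (K : Type) (_ : Field K) (_ : Algebra ℂ K), Nonempty (Setup K) := by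
  let K₀ := FractionRing FieldP
  let x := algebraMap FieldP K₀ (MvPolynomial.X 0)
  let y := algebraMap FieldP K₀ (MvPolynomial.X 1)
  have x0 : x ≠ 0 := (map_ne_zero_iff _ (IsFractionRing.injective FieldP K₀)).2
    (MvPolynomial.X_ne_zero 0)
  have hw : y * x⁻¹ * x⁻¹⁻¹ = y := by rw [inv_inv, inv_mul_cancel_right₀ x0]
  obtain ⟨V, hc, hV⟩ := field_val K₀ (IsFractionRing.injective FieldP K₀)
  choose F hF using exists_F (y * x⁻¹) x⁻¹
  have F0 : ∀ i, F i ≠ 0 := fun i h => by
    have := lead_val (w := y * x⁻¹) V hc (inv_ne_zero x0) ((inv_inv x).symm ▸ hV 0) (by rw [hw]; exact hV 1)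
      one_ne_zero
      (a := F i) (n := nF) (by rw [map_one, one_mul]; exact (hF i).1)
    rw [h, zero_mul, map_zero] at this
    exact zero_ne_one this
  choose φ hφ using fun i => IsAlgClosed.exists_pow_nat_eq (algebraMap K₀ (AlgebraicClosure K₀)
    ((∏ j, (y * x⁻¹ - algebraMap ℂ K₀ (wc j)) ^ mm i j) / F i)) (n := NN) (by decide)
  let K := IntermediateField.adjoin K₀ (Set.range φ)
  refine ⟨K, inferInstance, inferInstance, field_aux K₀ K (y * x⁻¹) x⁻¹ (inv_inv x) hw F hF
    (fun i => ⟨φ i, IntermediateField.subset_adjoin _ _ ⟨i, rfl⟩⟩) (fun i => Subtype.ext ?_)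
    fun T h1 h2 => eq_top_iff.2 fun z _ => ?_⟩
  · change φ i ^ NN * algebraMap K₀ _ (F i) = algebraMap K₀ _ _
    rw [hφ, ← map_mul, div_mul_cancel₀ _ (F0 i)]
  · obtain ⟨z, hz⟩ := z
    induction hz using IntermediateField.adjoin_induction with
    | mem z hz => obtain ⟨i, rfl⟩ := hz; exact h2 i
    | algebraMap a => exact h1 a
    | add a b _ _ ha hb => exact add_mem (ha trivial) (hb trivial)
    | inv a _ ha => exact inv_mem (ha trivial)
    | mul a b _ _ ha hb => exact mul_mem (ha trivial) (hb trivial)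

end Vale.Agent.P266
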