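import Vale.Agent.P266.Pol

open Polynomial

noncomputable section

namespace Vale.Agent.P266

variable {R : Type} [CommRing R] [Algebra ℂ R]

namespace Itp

variable {w u : R}

theorem w_mem : w ∈ Algebra.adjoin ℂ ({w, u} : Set R) := Algebra.subset_adjoin (by simp)

theorem u_mem : u ∈ Algebra.adjoin ℂ ({w, u} : Set R) := Algebra.subset_adjoin (by simp)

theorem aeval_mem {S : Subalgebra ℂ R} {z : R} (hz : z ∈ S) (p : ℂ[X]) : aeval z p ∈ S := by
  rw [aeval_eq_sum_range]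
  exact S.sum_mem fun i _ => S.smul_mem (S.pow_mem hz i) _

theorem aeval_w_Pol0 {m : ℕ} (hm : 0 < m) {p : ℂ[X]} (h : p.natDegree ≤ m) :
    aeval w p ∈ Pol0 w u m := by
  rw [aeval_eq_sum_range]
  refine Submodule.sum_mem _ fun i hi => Submodule.smul_mem _ _ (Submodule.subset_span ?_)
  rw [Finset.mem_range] at hi
  exact ⟨i, 0, by omega, hm, by simp⟩

theorem aeval_w_eq (p : ℂ[X]) (c : ℂ) : ∃ r ∈ Algebra.adjoin ℂ ({w, u} : Set R),
    aeval w p = algebraMap ℂ R (p.eval c) + (w - algebraMap ℂ R c) * r := by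
  obtain ⟨q, hq⟩ := X_sub_C_dvd_sub_C_eval (p := p) (a := c)
  refine ⟨aeval w q, aeval_mem w_mem q, ?_⟩
  have := congrArg (aeval w) hq
  simp only [map_sub, map_mul, aeval_C, aeval_X] at this
  linear_combination this

/-- Lagrange interpolation in `w` of polynomials in `u` -/
def psi (w u : R) (c : Fin 4 → ℂ) (r : Fin 4 → ℂ[X]) : R :=
  ∑ j, aeval w (Lagrange.basis Finset.univ c j) * aeval u (r j)

theorem natDegree_basis {c : Fin 4 → ℂ} (hc : Function.Injective c) (j : Fin 4) :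
    (Lagrange.basis Finset.univ c j).natDegree = 3 := by
  rw [Lagrange.natDegree_basis hc.injOn (Finset.mem_univ j)]; simp

theorem psi_eq {c : Fin 4 → ℂ} (hc : Function.Injective c) (r : Fin 4 → ℂ[X]) (j : Fin 4) :
    ∃ s ∈ Algebra.adjoin ℂ ({w, u} : Set R),
      psi w u c r = aeval u (r j) + (w - algebraMap ℂ R (c j)) * s := by
  choose s hs hs' using fun k => aeval_w_eq (w := w) (u := u) (Lagrange.basis Finset.univ c k) (c j)
  refine ⟨∑ k, s k * aeval u (r k), Subalgebra.sum_mem _ fun k _ =>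
    Subalgebra.mul_mem _ (hs k) (aeval_mem u_mem _), ?_⟩
  simp only [psi, hs', add_mul, Finset.sum_add_distrib, Finset.mul_sum, mul_assoc]
  congr 1
  rw [Finset.sum_eq_single j]
  · rw [Lagrange.eval_basis_self hc.injOn (Finset.mem_univ j)]; simp
  · intro k _ hk
    rw [Lagrange.eval_basis_of_ne hk (Finset.mem_univ j)]; simp
  · simp

theorem TP_monic {q : Fin 3 → ℂ[X]} (hq : ∀ e, (q e).Monic) (k μ : Fin 3 → ℕ) (a : ℕ) :
    (TP q k μ a).Monic := monic_prod_of_monic _ _ fun e _ => (hq e).pow _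

theorem TP_natDegree {q : Fin 3 → ℂ[X]} (hq : ∀ e, (q e).Monic) (k μ : Fin 3 → ℕ) (a : ℕ) :
    (TP q k μ a).natDegree = ∑ e, (μ e - a * k e) * (q e).natDegree := by
  rw [TP, natDegree_prod_of_monic _ _ fun e _ => (hq e).pow _]
  exact Finset.sum_congr rfl fun e _ => (hq e).natDegree_pow _

theorem TP_deg_le {q : Fin 3 → ℂ[X]} (hq : ∀ e, (q e).Monic) {k μ : Fin 3 → ℕ} {n : ℕ}
    (hdeg : ∑ e, μ e * (q e).natDegree = n)
    (h6 : ∀ e, (q e).natDegree ≠ 0 → 6 ≤ k e * (q e).natDegree) (a : ℕ) (h : TP q k μ a ≠ 1) :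
    (TP q k μ a).natDegree + 6 * a ≤ n := by
  have h0 : (TP q k μ a).natDegree ≠ 0 := fun h0 => h ((TP_monic hq k μ a).natDegree_eq_zero.1 h0)
  rw [TP_natDegree hq] at h0 ⊢
  obtain ⟨e, -, he⟩ := Finset.exists_ne_zero_of_sum_ne_zero h0
  have h1 := h6 e (right_ne_zero_of_mul he)
  have h2 : a * k e ≤ μ e := by have := left_ne_zero_of_mul he; omega
  rw [← hdeg, ← Finset.add_sum_erase _ _ (Finset.mem_univ e),
    ← Finset.add_sum_erase _ _ (Finset.mem_univ e)]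
  have h3 : ∑ x ∈ Finset.univ.erase e, (μ x - a * k x) * (q x).natDegree
      ≤ ∑ x ∈ Finset.univ.erase e, μ x * (q x).natDegree :=
    Finset.sum_le_sum fun x _ => Nat.mul_le_mul_right _ (Nat.sub_le _ _)
  have h4 : (μ e - a * k e) * (q e).natDegree + a * (k e * (q e).natDegree)
      = μ e * (q e).natDegree := by
    rw [← mul_assoc, ← add_mul, Nat.sub_add_cancel h2]
  have h5 := Nat.mul_le_mul_left a h1
  omega

theorem top_split {M : ℂ[X]} (hM : M.Monic) {m : ℕ} (hd : M.natDegree = m + 3) :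
    ∃ r : ℂ[X], r.natDegree ≤ m ∧ M = X ^ (m + 3) + C (M.coeff (m + 2)) * X ^ (m + 2)
      + C (M.coeff (m + 1)) * X ^ (m + 1) + r := by
  refine ⟨∑ i ∈ Finset.range (m + 1), C (M.coeff i) * X ^ i, ?_, ?_⟩
  · refine natDegree_sum_le_of_forall_le _ _ fun i hi => (natDegree_C_mul_X_pow_le _ _).trans ?_
    rw [Finset.mem_range] at hi; omega
  · conv_lhs => rw [hM.as_sum, hd, Finset.sum_range_succ, Finset.sum_range_succ]
    ring

theorem start {c : Fin 4 → ℂ} (hc : Function.Injective c) (M : Fin 4 → ℂ[X])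
    (hM : ∀ j, (M j).Monic) {m : ℕ} (hd : ∀ j, (M j).natDegree = m + 3) (a0 a1 b0 b1 b2 : ℂ)
    (h1 : ∀ j, (M j).coeff (m + 2) = a0 + a1 * c j)
    (h2 : ∀ j, (M j).coeff (m + 1) = b0 + b1 * c j + b2 * c j ^ 2) :
    ∃ F : R, F - u ^ (m + 3) ∈ Pol0 w u (m + 3) ∧ ∀ j, ∃ r ∈ Algebra.adjoin ℂ ({w, u} : Set R),
      F - aeval u (M j) = (w - algebraMap ℂ R (c j)) * r := by
  choose r hr hr' using fun j => top_split (hM j) (hd j)
  refine ⟨u ^ (m + 3) + (aeval w (C a0 + C a1 * X) * u ^ (m + 2)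
    + aeval w (C b0 + C b1 * X + C b2 * X ^ 2) * u ^ (m + 1) + psi w u c r), ?_, fun j => ?_⟩
  · rw [add_sub_cancel_left]
    refine Submodule.add_mem _ (Submodule.add_mem _ ?_ ?_) (Submodule.sum_mem _ fun j _ => ?_)
    · exact Pol0_mono (by omega) (Pol0_mul (aeval_w_Pol0 one_pos (by compute_degree))
        (u_pow_mem_Pol _))
    · exact Pol0_mono (by omega) (Pol0_mul (aeval_w_Pol0 two_pos (by compute_degree))
        (u_pow_mem_Pol _))
    · exact Pol0_mono (by omega) (Pol0_mul (aeval_w_Pol0 three_pos (natDegree_basis hc j).le)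
        (aeval_u_mem_Pol (hr j)))
  · obtain ⟨s1, hs1, e1⟩ := aeval_w_eq (w := w) (u := u) (C a0 + C a1 * X) (c j)
    obtain ⟨s2, hs2, e2⟩ := aeval_w_eq (w := w) (u := u) (C b0 + C b1 * X + C b2 * X ^ 2) (c j)
    obtain ⟨s3, hs3, e3⟩ := psi_eq (w := w) (u := u) hc r j
    refine ⟨s1 * u ^ (m + 2) + s2 * u ^ (m + 1) + s3, Subalgebra.add_mem _ (Subalgebra.add_mem _
      (Subalgebra.mul_mem _ hs1 (Subalgebra.pow_mem _ u_mem _))
      (Subalgebra.mul_mem _ hs2 (Subalgebra.pow_mem _ u_mem _))) hs3, ?_⟩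
    have e4 := congrArg (aeval u) (hr' j)
    rw [h1, h2] at e4
    simp only [map_add (aeval u), map_mul (aeval u), map_pow (aeval u), aeval_C, aeval_X] at e4
    simp only [eval_add, eval_mul, eval_pow, eval_C, eval_X] at e1 e2
    rw [e1, e2, e3, e4]
    ring

theorem step {c : Fin 4 → ℂ} (hc : Function.Injective c) (M T : Fin 4 → ℂ[X])
    (hT : ∀ j, (T j).Monic) {n l : ℕ} (hd : ∀ j, T j ≠ 1 → (T j).natDegree + 6 * (l + 1) ≤ n)
    (J : Fin 4 → Submodule ℂ R) (hJ : ∀ j, ∀ z ∈ Algebra.adjoin ℂ ({w, u} : Set R),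
      z * (w - algebraMap ℂ R (c j)) ^ (l + 1) * aeval u (T j) ∈ J j) (F : R)
    (h0 : F - u ^ n ∈ Pol0 w u n) (h1 : ∀ j, ∃ r ∈ Algebra.adjoin ℂ ({w, u} : Set R),
      F - aeval u (M j) - (w - algebraMap ℂ R (c j)) ^ (l + 1) * r ∈ J j) :
    ∃ F' : R, F' - u ^ n ∈ Pol0 w u n ∧ ∀ j, ∃ r ∈ Algebra.adjoin ℂ ({w, u} : Set R),
      F' - aeval u (M j) - (w - algebraMap ℂ R (c j)) ^ (l + 1 + 1) * r ∈ J j := by
  choose r hr hr' using h1
  choose p s hs hs' using fun j => exists_restrict (c j) (hr j)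
  obtain ⟨g, hg⟩ : ∃ g : Fin 4 → ℂ[X], g = fun j =>
    (∏ k ∈ Finset.univ.erase j, (X - C (c k))) ^ (l + 1) := ⟨_, rfl⟩
  have hg0 : ∀ j, (g j).eval (c j) ≠ 0 := fun j => by
    simp only [hg, eval_pow, eval_prod, eval_sub, eval_X, eval_C]
    refine pow_ne_zero _ (Finset.prod_ne_zero_iff.2 fun k hk => sub_ne_zero.2 fun h => ?_)
    exact Finset.ne_of_mem_erase hk (hc h).symm
  obtain ⟨G, hG⟩ : ∃ G : ℂ[X], G = (∏ k, (X - C (c k))) ^ (l + 1) := ⟨_, rfl⟩
  have hG1 : ∀ j, aeval w G = (w - algebraMap ℂ R (c j)) ^ (l + 1) * aeval w (g j) := fun j => by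
    rw [hG, hg, ← Finset.mul_prod_erase _ _ (Finset.mem_univ j), mul_pow, map_mul, map_pow]
    simp only [map_sub, aeval_X, aeval_C]
  have hG2 : G.natDegree ≤ 4 * (l + 1) := by
    rw [hG, (monic_prod_of_monic _ _ fun k _ => monic_X_sub_C (c k)).natDegree_pow,
      natDegree_prod_of_monic _ _ fun k _ => monic_X_sub_C (c k)]
    simp [mul_comm]
  refine ⟨F - aeval w G * psi w u c fun j => C ((g j).eval (c j))⁻¹ * (p j %ₘ T j), ?_, fun j => ?_⟩
  · rw [sub_right_comm]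
    refine Submodule.sub_mem _ h0 ?_
    rw [psi, Finset.mul_sum]
    refine Submodule.sum_mem _ fun j _ => ?_
    by_cases h : T j = 1
    · simp [h]
    · have d1 := natDegree_modByMonic_lt (p j) (hT j) h
      have d2 := hd j h
      exact Pol0_mono (by omega) (Pol0_mul (aeval_w_Pol0 (by omega) hG2) (Pol_mul
        (aeval_w_mem_Pol (natDegree_basis hc j).le) (aeval_u_mem_Pol (natDegree_C_mul_le _ _))))
  · obtain ⟨s1, hs1, e1⟩ := aeval_w_eq (w := w) (u := u) (g j) (c j)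
    obtain ⟨s2, hs2, e2⟩ := psi_eq (w := w) (u := u) hc
      (fun j => C ((g j).eval (c j))⁻¹ * (p j %ₘ T j)) j
    have e3 := congrArg (aeval u) (modByMonic_add_div (p j) (T j))
    have e4 : algebraMap ℂ R ((g j).eval (c j)) * algebraMap ℂ R ((g j).eval (c j))⁻¹ = 1 := by
      rw [← map_mul, mul_inv_cancel₀ (hg0 j), map_one]
    refine ⟨s j - aeval w (g j) * s2 - s1 * aeval u (C ((g j).eval (c j))⁻¹ * (p j %ₘ T j)),
      Subalgebra.sub_mem _ (Subalgebra.sub_mem _ (hs j)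
        (Subalgebra.mul_mem _ (aeval_mem w_mem _) hs2))
        (Subalgebra.mul_mem _ hs1 (aeval_mem u_mem _)), ?_⟩
    have h2 := Submodule.add_mem _ (hr' j) (hJ j _ (aeval_mem u_mem (p j /ₘ T j)))
    rw [hG1 j, e2]
    rw [hs' j] at h2
    simp only [map_add, map_mul, aeval_C] at e3 ⊢
    refine (congrArg (· ∈ J j) ?_).mp h2
    rw [pow_succ _ (l + 1), e1]
    generalize (w - algebraMap ℂ R (c j)) ^ (l + 1) = Z
    linear_combination Z * e3 + Z * aeval u (p j %ₘ T j) * e4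

end Itp

theorem interp (w u : R) (c : Fin 4 → ℂ) (hc : Function.Injective c) (q : Fin 4 → Fin 3 → ℂ[X])
    (hq : ∀ j e, (q j e).Monic) (k : Fin 3 → ℕ) (hk : ∀ e, 1 ≤ k e) (μ : Fin 4 → Fin 3 → ℕ) (n : ℕ)
    (hn : 3 ≤ n) (hdeg : ∀ j, ∑ e, μ j e * (q j e).natDegree = n)
    (h6 : ∀ j e, (q j e).natDegree ≠ 0 → 6 ≤ k e * (q j e).natDegree) (a0 a1 b0 b1 b2 : ℂ)
    (h1 : ∀ j, (TP (q j) k (μ j) 0).coeff (n - 1) = a0 + a1 * c j)
    (h2 : ∀ j, (TP (q j) k (μ j) 0).coeff (n - 2) = b0 + b1 * c j + b2 * c j ^ 2) :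
    ∃ F : R, F - u ^ n ∈ Pol0 w u n ∧ ∀ j, F - aeval u (TP (q j) k (μ j) 0) ∈
      Jet w u (w - algebraMap ℂ R (c j)) (fun a => aeval u (TP (q j) k (μ j) a)) := by
  have key : ∀ l : ℕ, ∃ F : R, F - u ^ n ∈ Pol0 w u n ∧
      ∀ j, ∃ r ∈ Algebra.adjoin ℂ ({w, u} : Set R),
        F - aeval u (TP (q j) k (μ j) 0) - (w - algebraMap ℂ R (c j)) ^ (l + 1) * r ∈
          Jet w u (w - algebraMap ℂ R (c j)) (fun a => aeval u (TP (q j) k (μ j) a)) := by
    intro l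
    induction l with
    | zero =>
      obtain ⟨m, rfl⟩ := Nat.exists_eq_add_of_le' hn
      obtain ⟨F, a, b⟩ := Itp.start (w := w) (u := u) hc (fun j => TP (q j) k (μ j) 0)
        (fun j => Itp.TP_monic (hq j) _ _ _)
        (fun j => by rw [Itp.TP_natDegree (hq j), ← hdeg j]; simp) a0 a1 b0 b1 b2 h1 h2
      refine ⟨F, a, fun j => ?_⟩
      obtain ⟨r, hr, e⟩ := b j
      exact ⟨r, hr, by rw [e]; simp⟩
    | succ l ih =>
      obtain ⟨F, a, b⟩ := ih
      exact Itp.step hc (fun j => TP (q j) k (μ j) 0) (fun j => TP (q j) k (μ j) (l + 1))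
        (fun j => Itp.TP_monic (hq j) _ _ _) (fun j => Itp.TP_deg_le (hq j) (hdeg j) (h6 j) _) _
        (fun j z hz => Submodule.subset_span ⟨z, hz, l + 1, by omega, rfl⟩) F a b
  obtain ⟨F, a, b⟩ := key (∑ j, ∑ e, μ j e)
  refine ⟨F, a, fun j => ?_⟩
  obtain ⟨r, hr, e⟩ := b j
  have hT : TP (q j) k (μ j) (∑ j, ∑ e, μ j e + 1) = 1 := by
    refine Finset.prod_eq_one fun e _ => ?_
    have a1 : μ j e ≤ ∑ e, μ j e := Finset.single_le_sum (fun _ _ => Nat.zero_le _) (Finset.mem_univ e)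
    have a2 : ∑ e, μ j e ≤ ∑ j, ∑ e, μ j e :=
      Finset.single_le_sum (f := fun j => ∑ e, μ j e) (fun _ _ => Nat.zero_le _) (Finset.mem_univ j)
    have a3 := Nat.mul_le_mul_left (∑ j, ∑ e, μ j e + 1) (hk e)
    rw [Nat.sub_eq_zero_of_le (by omega), pow_zero]
  have h3 : r * (w - algebraMap ℂ R (c j)) ^ (∑ j, ∑ e, μ j e + 1)
      * aeval u (TP (q j) k (μ j) (∑ j, ∑ e, μ j e + 1)) ∈
      Jet w u (w - algebraMap ℂ R (c j)) (fun a => aeval u (TP (q j) k (μ j) a)) :=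
    Submodule.subset_span ⟨r, hr, _, by omega, rfl⟩
  have h4 := Submodule.add_mem _ e h3
  rwa [hT, map_one, mul_one, mul_comm r, sub_add_cancel] at h4

end Vale.Agent.P266
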