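import Vale.Agent.P266.Basic

open Polynomial

noncomputable section

namespace Vale.Agent.P266

attribute [local irreducible] nF cc NN

namespace Setup

variable {K : Type} [Field K] [Algebra ℂ K] (G : Setup K)

theorem lineA_u (j : Fin 4) : G.u ∈ G.Rl j := Algebra.subset_adjoin (Or.inl rfl)

theorem lineA_W' (j : Fin 4) : G.W' j ∈ G.Rl j := Algebra.subset_adjoin (Or.inr rfl)

theorem lineA_aeval (j : Fin 4) (p : ℂ[X]) : aeval G.u p ∈ G.Rl j :=
  G.Rw_le_Rl j (G.aeval_mem_Rw p)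

theorem lineA_Pol (j : Fin 4) {n : ℕ} {a : K} (ha : a ∈ Pol G.w G.u n) : a ∈ G.Rl j :=
  G.Rw_le_Rl j (mem_adjoin_of_Pol ha)

theorem lineA_gj (j k : Fin 4) : G.gj k ∈ G.Rl j := G.lineA_Pol j (G.gj_mem k)

theorem lineA_w (j : Fin 4) : G.w ∈ G.Rl j := G.Rw_le_Rl j (Algebra.subset_adjoin (Or.inl rfl))

theorem lineA_W (j k : Fin 4) : G.W k ∈ G.Rl j :=
  sub_mem (G.lineA_w j) (Subalgebra.algebraMap_mem _ _)

theorem lineA_Q (j : Fin 4) : G.Q j = (G.O 0 j * G.O 1 j) ^ 2 * G.t j ^ 9 := by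
  rw [G.Q_eq, G.OO_eq]
  ring

theorem lineA_Wpow (j : Fin 4) : ∃ r ∈ G.Rl j,
    G.W j ^ (17 * cc) = (G.O 0 j * G.O 1 j) ^ (34 * cc) * G.W' j * r := by
  obtain ⟨n, hn⟩ : ∃ n, 17 * cc = n + 1 := ⟨17 * cc - 1, by unfold cc; norm_num⟩
  refine ⟨G.W' j ^ n * G.t j ^ (9 * (17 * cc)),
    mul_mem (pow_mem (G.lineA_W' j) _) (pow_mem (G.lineA_aeval j _) _), ?_⟩
  have e : 34 * cc = 2 * (17 * cc) := by ring
  rw [G.W_eq j, G.lineA_Q j, mul_pow, mul_pow, ← pow_mul, ← pow_mul, e, hn]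
  ring

theorem lineA_XQ (D : Derivation ℂ K K) (p : ℂ[X]) :
    D (aeval G.u p) = aeval G.u (derivative p) * D G.u := by
  rw [Derivation.comp_aeval_eq, smul_eq_mul]

theorem lineA_XW' (D : Derivation ℂ K K) (j : Fin 4) :
    D (G.W' j) * G.Q j = D G.w - G.W' j * (aeval G.u (derivative (QP j)) * D G.u) := by
  have h : D (G.W j) = D G.w := by simp [W]
  rw [← h, G.W_eq j, Derivation.leibniz, ← G.lineA_XQ D]
  simp only [smul_eq_mul, Q]
  ring

theorem gam_eq (j : Fin 4) : ∃ r ∈ G.Rl j, G.gam j = algebraMap ℂ K (2 * kap) + G.W' j * r := by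
  obtain ⟨r, hr, e⟩ := G.Gam_line j
  refine ⟨G.O 0 j * G.O 1 j * G.t j ^ 9 * r, ?_, ?_⟩
  · exact mul_mem (mul_mem (mul_mem (G.lineA_aeval j _) (G.lineA_aeval j _))
      (pow_mem (G.lineA_aeval j _) _)) (G.Rw_le_Rl j hr)
  · have hO : G.O 0 j * G.O 1 j ≠ 0 := mul_ne_zero (G.O_ne 0 j) (G.O_ne 1 j)
    rw [gam, div_eq_iff hO, e, G.W_eq j, G.lineA_Q j]
    ring

theorem f_eq (i : Fin 2) (j : Fin 4) : ∃ r ∈ G.Rl j, G.f i j = 1 + G.W' j * r := by
  have key : ∀ z ∈ Jet G.w G.u (G.W j) (fun a => aeval G.u (TP (qP j) kk (mu i j) a)),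
      ∃ r ∈ G.Rl j, z = G.M i j * (G.W' j * r) := by
    intro z hz
    induction hz using Submodule.span_induction with
    | mem z hz =>
      obtain ⟨c, hc, a, ha, rfl⟩ := hz
      obtain ⟨d, hd⟩ := MP_dvd i j a
      have hd' := congrArg (aeval G.u) hd
      simp only [map_mul, map_pow] at hd'
      obtain ⟨n, rfl⟩ : ∃ n, a = n + 1 := ⟨a - 1, by omega⟩
      refine ⟨c * G.W' j ^ n * aeval G.u d, mul_mem (mul_mem (G.Rw_le_Rl j hc)
        (pow_mem (G.lineA_W' j) _)) (G.lineA_aeval j _), ?_⟩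
      rw [G.W_eq j, mul_pow, M, Q]
      linear_combination c * G.W' j ^ (n + 1) * hd'
    | zero => exact ⟨0, zero_mem _, by simp⟩
    | add a b _ _ ha hb =>
      obtain ⟨r, hr, rfl⟩ := ha
      obtain ⟨r', hr', rfl⟩ := hb
      exact ⟨r + r', add_mem hr hr', by ring⟩
    | smul c a _ ha =>
      obtain ⟨r, hr, rfl⟩ := ha
      exact ⟨c • r, Subalgebra.smul_mem _ hr c, by simp only [Algebra.smul_def]; ring⟩
  obtain ⟨r, hr, e⟩ := key _ ((G.hF i).2 j)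
  refine ⟨r, hr, ?_⟩
  rw [f, div_eq_iff (G.M_ne i j)]
  have e' : G.F i - G.M i j = G.M i j * (G.W' j * r) := e
  linear_combination e'

theorem nums_line (j : Fin 4) {s : K} (hs : s ∈ G.nums) :
    ∃ r ∈ G.Rl j, s = (G.O 0 j * G.O 1 j) ^ (34 * cc) * G.W' j * r := by
  obtain ⟨r, hr, e⟩ := G.lineA_Wpow j
  have hg : G.g ^ (17 * cc) = (G.O 0 j * G.O 1 j) ^ (34 * cc) * G.W' j *
      (r * G.gj j ^ (17 * cc)) := by
    rw [G.g_eq j, mul_pow, e]
    ring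
  have hr' : r * G.gj j ^ (17 * cc) ∈ G.Rl j := mul_mem hr (pow_mem (G.lineA_gj j j) _)
  rcases hs with (rfl | rfl | rfl) | ⟨k, rfl⟩
  · exact ⟨_, hr', hg⟩
  · exact ⟨_, mul_mem hr' (pow_mem (G.lineA_w j) (306 * cc)), by rw [hg]; ring⟩
  · exact ⟨_, mul_mem hr' (pow_mem (G.lineA_u j) (306 * cc)), by rw [hg]; ring⟩
  by_cases hk : k = j
  · subst hk
    obtain ⟨n, hn⟩ : ∃ n, 8 * cc = n + 1 := ⟨8 * cc - 1, by unfold cc; norm_num⟩
    refine ⟨G.W' k ^ n * G.gj k ^ (17 * cc),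
      mul_mem (pow_mem (G.lineA_W' k) _) (pow_mem (G.lineA_gj k k) _), ?_⟩
    rw [G.Psi_eq, hn]
    ring
  · have hj : j ∈ Finset.univ.erase k := Finset.mem_erase.2 ⟨Ne.symm hk, Finset.mem_univ _⟩
    have hp : (∏ l ∈ (Finset.univ.erase k).erase j, G.W l) ∈ G.Rl j :=
      prod_mem fun l _ => G.lineA_W j l
    refine ⟨G.W k ^ (8 * cc) * (G.u ^ 3 * G.I k ^ 2) ^ (18 * cc) * r *
      (∏ l ∈ (Finset.univ.erase k).erase j, G.W l) ^ (17 * cc), ?_, ?_⟩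
    · exact mul_mem (mul_mem (mul_mem (pow_mem (G.lineA_W j k) _) (pow_mem (mul_mem
        (pow_mem (G.lineA_u j) _) (pow_mem (G.lineA_aeval j _) _)) _)) hr) (pow_mem hp _)
    · rw [Psi, gj, ← Finset.mul_prod_erase _ _ hj, mul_pow (G.W j), e]
      ring

theorem Xf_u_line (i : Fin 2) (j : Fin 4) : ∃ r ∈ G.Rl j, G.Xf i G.u = G.O i j * r := by
  obtain ⟨r, hr, e⟩ := G.P_line i j
  obtain ⟨d, hd⟩ := OP_mul_tP_dvd i j
  have hd' : G.Q j = G.O i j * G.t j * aeval G.u d := by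
    rw [Q, hd, map_mul, map_mul]
    rfl
  refine ⟨-(aeval G.u (sP i j) + G.W' j * G.t j * aeval G.u d * r), neg_mem (add_mem
    (G.lineA_aeval j _) (mul_mem (mul_mem (mul_mem (G.lineA_W' j) (G.lineA_aeval j _))
      (G.lineA_aeval j _)) (G.Rw_le_Rl j hr))), ?_⟩
  rw [G.Xf_u, e, G.W_eq j, hd']
  ring

theorem Xf_u_two (j : Fin 4) :
    ∃ r ∈ G.Rl j, G.Xf (two j) G.u = G.O (two j) j * (G.t j * r) := by
  obtain ⟨r, hr, e⟩ := G.P_line (two j) j
  obtain ⟨d, hd⟩ := OP_mul_tP_dvd (two j) j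
  have hd' : G.Q j = G.O (two j) j * G.t j * aeval G.u d := by
    rw [Q, hd, map_mul, map_mul]
    rfl
  have hs : aeval G.u (sP (two j) j) = G.t j * aeval G.u (sTwo j) := by
    rw [sP, if_pos rfl, map_mul]
    rfl
  refine ⟨-(aeval G.u (sTwo j) + G.W' j * aeval G.u d * r), neg_mem (add_mem
    (G.lineA_aeval j _) (mul_mem (mul_mem (G.lineA_W' j)
      (G.lineA_aeval j _)) (G.Rw_le_Rl j hr))), ?_⟩
  rw [G.Xf_u, e, G.W_eq j, hd', hs]
  ring

theorem Xf_W'_line (i : Fin 2) (j : Fin 4) :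
    ∃ r ∈ G.Rl j, G.Xf i (G.W' j) = G.O i j * (G.W' j * r) := by
  obtain ⟨r, hr, e⟩ := G.P_line i j
  obtain ⟨r', hr', e'⟩ := G.A_line i j
  obtain ⟨d, hd⟩ := OP_mul_tP_dvd i j
  have hd' : G.Q j = G.O i j * G.t j * aeval G.u d := by
    rw [Q, hd, map_mul, map_mul]
    rfl
  obtain ⟨d₂, hd₂⟩ := OP_dvd_derivative i j
  have hd₂' : aeval G.u (derivative (QP j)) = G.O i j * aeval G.u d₂ := by
    rw [hd₂, map_mul]
    rfl
  have hE : aeval G.u (EP i j) * G.Q j = G.O i j * aeval G.u (derivative (QP j)) := by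
    rw [Q, ← map_mul, EP_mul_QP, map_mul]
    rfl
  refine ⟨aeval G.u (BP i j) + G.W' j * (G.t j * aeval G.u d * r' + aeval G.u d₂ * r),
    add_mem (G.lineA_aeval j _) (mul_mem (G.lineA_W' j) (add_mem (mul_mem (mul_mem
      (G.lineA_aeval j _) (G.lineA_aeval j _)) (G.Rw_le_Rl j hr'))
      (mul_mem (G.lineA_aeval j _) (G.Rw_le_Rl j hr)))), ?_⟩
  apply mul_right_cancel₀ (G.Q_ne j)
  rw [G.lineA_XW', G.Xf_w, G.Xf_u, G.g_eq j, e]
  have hW := G.W_eq j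
  generalize G.W j = W at *
  subst hW
  linear_combination G.W' j * G.Q j * e' - G.W' j * aeval G.u (sP i j) * hE +
    G.W' j ^ 2 * G.Q j * r * hd₂' + G.W' j ^ 2 * G.Q j * r' * hd'

theorem wedge_line (j : Fin 4) :
    wedge (G.Xf 0) (G.Xf 1) G.u (G.W' j) = G.W' j * G.gj j * G.Gam := by
  apply mul_right_cancel₀ (G.Q_ne j)
  have h0 := G.lineA_XW' (G.Xf 0) j
  have h1 := G.lineA_XW' (G.Xf 1) j
  have h := G.wedge_Xf
  rw [G.g_eq j, G.W_eq j] at h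
  unfold wedge at *
  linear_combination G.Xf 0 G.u * h1 - G.Xf 1 G.u * h0 - h

theorem small_line (V : ValuationSubring K) (hc : ∀ c : ℂ, algebraMap ℂ K c ∈ V) (j : Fin 4)
    (hu : G.u ∈ V) (hW : V.valuation (G.W' j) < 1) : Small G.A0 V := by
  have hW' : G.W' j ∈ V := (V.valuation_le_one_iff _).1 hW.le
  have hR : Below (G.Rl j) V := below_adjoin _ V hc (by
    rintro z (rfl | rfl)
    exacts [hu, hW'])
  have unit : ∀ (c : ℂ) (r : K), c ≠ 0 → r ∈ G.Rl j →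
      V.valuation (algebraMap ℂ K c + G.W' j * r) = 1 := by
    intro c r h0 hr
    have h1 := val_const V hc c h0
    have h2 : V.valuation (G.W' j * r) < 1 := by
      have := (V.valuation_le_one_iff _).2 (hR r hr)
      rw [map_mul]
      calc _ ≤ V.valuation (G.W' j) * 1 := by gcongr
        _ < 1 := by simpa using hW
    rw [V.valuation.map_add_eq_of_lt_left (by rwa [h1]), h1]
  have hg : V.valuation (G.gam j) = 1 := by
    obtain ⟨r, hr, e⟩ := G.gam_eq j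
    rw [e]
    exact unit _ r (by unfold kap; norm_num) hr
  have hf : ∀ i, V.valuation (G.f i j) = 1 := by
    intro i
    obtain ⟨r, hr, e⟩ := G.f_eq i j
    rw [e]
    simpa using unit 1 r one_ne_zero hr
  apply small_adjoin _ V hc
  rintro z ⟨s, hs, rfl⟩
  obtain ⟨r, hr, e⟩ := G.nums_line j hs
  have hO : G.O 0 j * G.O 1 j ≠ 0 := mul_ne_zero (G.O_ne 0 j) (G.O_ne 1 j)
  have := (V.valuation_le_one_iff _).2 (hR r hr)
  simp only
  rw [e, G.Ftot_line j, mul_assoc, mul_div_mul_left _ _ (pow_ne_zero _ hO)]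
  simp only [map_div₀, map_mul, map_pow, hg, hf, mul_one, one_pow, div_one]
  calc _ ≤ V.valuation (G.W' j) * 1 := by gcongr
    _ < 1 := by simpa using hW

end Setup

end Vale.Agent.P266
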