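import Vale.Agent.P266.LineA
import Vale.Agent.P266.Chart

open Polynomial

noncomputable section

namespace Vale.Agent.P266

attribute [local irreducible] nF cc NN

theorem lineB_inv {K : Type} [Field K] [Algebra ℂ K] {S : Subalgebra ℂ K} {f z c : K} (hf : f⁻¹ ∈ S)
    (hf0 : f ≠ 0) (hc : c ∈ S) (h : f = z * c) : z⁻¹ ∈ S := by
  have hz : z ≠ 0 := by
    rintro rfl
    simp at h
    exact hf0 h
  have : z⁻¹ = f⁻¹ * c := by
    field_simp
    exact h
  rw [this]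
  exact mul_mem hf hc

namespace Setup

variable {K : Type} [Field K] [Algebra ℂ K] (G : Setup K)

def lineB_U (i : Fin 2) (j : Fin 4) : K :=
  G.W' j ^ mm i j * (∏ k ∈ Finset.univ.erase j, G.W k ^ mm i k) / G.f i j

def lineB_f (j : Fin 4) : K := G.W' j * G.gj j * G.gam j * G.f 0 j * G.f 1 j

theorem lineB_f_ne (i : Fin 2) (j : Fin 4) : G.f i j ≠ 0 := div_ne_zero (G.F_ne i) (G.M_ne i j)

theorem lineB_root (i : Fin 2) (j : Fin 4) :
    (G.φ i * G.O i j) ^ NN * G.M i j = G.lineB_U i j * (G.Q j ^ mm i j * G.O i j ^ NN) := by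
  have h := G.hφ i
  rw [← Finset.mul_prod_erase _ _ (Finset.mem_univ j)] at h
  have h' : G.φ i ^ NN * G.F i =
      G.W j ^ mm i j * ∏ k ∈ Finset.univ.erase j, G.W k ^ mm i k := h
  rw [G.W_eq j, mul_pow] at h'
  have hF : G.F i = G.f i j * G.M i j := by rw [f, div_mul_cancel₀ _ (G.M_ne i j)]
  rw [hF] at h'
  rw [lineB_U, mul_pow, div_mul_eq_mul_div, eq_div_iff (G.lineB_f_ne i j)]
  linear_combination G.O i j ^ NN * h'

theorem lineB_xi (j : Fin 4) : (G.φ (two j) * G.O (two j) j) ^ NN = G.lineB_U (two j) j := by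
  have h := G.lineB_root (two j) j
  have h2 : G.M (two j) j = G.Q j ^ mm (two j) j * G.O (two j) j ^ NN := by
    rw [M, MP_two, map_mul, map_pow, map_pow]
    rfl
  rw [← h2] at h
  exact mul_right_cancel₀ (G.M_ne _ j) h

theorem lineB_zeta (j : Fin 4) :
    ((G.φ (one j) * G.O (one j) j) ^ 2 / G.t j) ^ 3069 = G.lineB_U (one j) j := by
  have h := G.lineB_root (one j) j
  have h2 : G.M (one j) j * G.t j ^ 3069 = G.Q j ^ mm (one j) j * G.O (one j) j ^ NN := by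
    rw [M, t, ← map_pow, ← map_mul, MP_one, map_mul, map_pow, map_pow]
    rfl
  rw [← h2, mul_comm (G.M _ _), ← mul_assoc] at h
  have h3 := mul_right_cancel₀ (G.M_ne _ j) h
  have e : 2 * 3069 = NN := by
    unfold NN
    rfl
  rw [div_pow, ← pow_mul, e, h3, mul_div_assoc, div_self (pow_ne_zero _ (G.t_ne j)), mul_one]

theorem lineB_gam (j : Fin 4) : G.gam j ∈ G.Rl j := by
  obtain ⟨r, hr, e⟩ := G.gam_eq j
  rw [e]
  exact add_mem (Subalgebra.algebraMap_mem _ _) (mul_mem (G.lineA_W' j) hr)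

theorem lineB_fm (i : Fin 2) (j : Fin 4) : G.f i j ∈ G.Rl j := by
  obtain ⟨r, hr, e⟩ := G.f_eq i j
  rw [e]
  exact add_mem (one_mem _) (mul_mem (G.lineA_W' j) hr)

theorem lineB_f0 (j : Fin 4) : G.lineB_f j ≠ 0 :=
  mul_ne_zero (mul_ne_zero (mul_ne_zero (mul_ne_zero (G.W'_ne j) (G.gj_ne j))
    (div_ne_zero G.Gam_ne (mul_ne_zero (G.O_ne 0 j) (G.O_ne 1 j)))) (G.lineB_f_ne 0 j))
    (G.lineB_f_ne 1 j)

def lineB_R (j : Fin 4) : Subalgebra ℂ K := Algebra.adjoin ℂ {G.u, G.W' j, (G.lineB_f j)⁻¹}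

theorem lineB_le (j : Fin 4) : G.Rl j ≤ G.lineB_R j :=
  Algebra.adjoin_mono (by
    rintro z (rfl | rfl)
    exacts [Or.inl rfl, Or.inr (Or.inl rfl)])

theorem lineB_inv' (j : Fin 4) {z c : K} (hc : c ∈ G.Rl j) (h : G.lineB_f j = z * c) :
    z⁻¹ ∈ G.lineB_R j :=
  lineB_inv (Algebra.subset_adjoin (Or.inr (Or.inr rfl))) (G.lineB_f0 j) (G.lineB_le j hc) h

theorem lineB_finv (i : Fin 2) (j : Fin 4) : (G.f i j)⁻¹ ∈ G.lineB_R j := by
  have h : G.W' j * G.gj j * G.gam j ∈ G.Rl j :=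
    mul_mem (mul_mem (G.lineA_W' j) (G.lineA_gj j j)) (G.lineB_gam j)
  fin_cases i
  · exact G.lineB_inv' j (mul_mem h (G.lineB_fm 1 j)) (by simp only [lineB_f, Fin.zero_eta]; ring)
  · exact G.lineB_inv' j (mul_mem h (G.lineB_fm 0 j)) (by simp only [lineB_f, Fin.mk_one]; ring)

theorem lineB_U_mem (i : Fin 2) (j : Fin 4) : G.lineB_U i j ∈ G.lineB_R j := by
  rw [lineB_U, div_eq_mul_inv]
  exact mul_mem (G.lineB_le j (mul_mem (pow_mem (G.lineA_W' j) _)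
    (prod_mem fun k _ => pow_mem (G.lineA_W j k) _))) (G.lineB_finv i j)

theorem lineB_U_inv (i : Fin 2) (j : Fin 4) : (G.lineB_U i j)⁻¹ ∈ G.lineB_R j := by
  have h : G.gam j * G.f 0 j * G.f 1 j ∈ G.Rl j :=
    mul_mem (mul_mem (G.lineB_gam j) (G.lineB_fm 0 j)) (G.lineB_fm 1 j)
  rw [lineB_U, inv_div, div_eq_mul_inv, mul_inv, ← inv_pow, ← Finset.prod_inv_distrib]
  refine mul_mem (G.lineB_le j (G.lineB_fm i j)) (mul_mem (pow_mem ?_ _) (prod_mem fun k hk => ?_))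
  · exact G.lineB_inv' j (mul_mem (G.lineA_gj j j) h) (by rw [lineB_f]; ring)
  · rw [← inv_pow]
    refine pow_mem (G.lineB_inv' j (mul_mem (mul_mem (G.lineA_W' j)
      (prod_mem (t := (Finset.univ.erase j).erase k) fun l _ => G.lineA_W j l)) h) ?_) _
    rw [lineB_f, gj, ← Finset.mul_prod_erase _ _ hk]
    ring

theorem lineB_U_ne (i : Fin 2) (j : Fin 4) : G.lineB_U i j ≠ 0 :=
  div_ne_zero (mul_ne_zero (pow_ne_zero _ (G.W'_ne j))
    (Finset.prod_ne_zero_iff.2 fun k _ => pow_ne_zero _ (G.W_ne k))) (G.lineB_f_ne i j)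

theorem lineB_A0 (j : Fin 4) : G.A0 ≤ G.lineB_R j := by
  apply Algebra.adjoin_le
  rintro z ⟨s, hs, rfl⟩
  obtain ⟨r, hr, e⟩ := G.nums_line j hs
  have hO : G.O 0 j * G.O 1 j ≠ 0 := mul_ne_zero (G.O_ne 0 j) (G.O_ne 1 j)
  simp only [SetLike.mem_coe]
  rw [e, G.Ftot_line j, mul_assoc, mul_div_mul_left _ _ (pow_ne_zero _ hO), div_eq_mul_inv,
    ← inv_pow]
  refine mul_mem (G.lineB_le j (mul_mem (G.lineA_W' j) hr)) (pow_mem ?_ _)
  exact G.lineB_inv' j (mul_mem (G.lineA_W' j) (G.lineA_gj j j)) (by rw [lineB_f]; ring)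

theorem lineB_v (i : Fin 2) (j : Fin 4) :
    G.v i = (G.φ i * G.O i j) • ((G.O i j)⁻¹ • G.Xf i) := by
  rw [smul_smul, mul_assoc, mul_inv_cancel₀ (G.O_ne i j), mul_one, v]

theorem lineB_Yu (i : Fin 2) (j : Fin 4) : ((G.O i j)⁻¹ • G.Xf i) G.u ∈ G.Rl j := by
  obtain ⟨r, hr, e⟩ := G.Xf_u_line i j
  rw [Derivation.smul_apply, smul_eq_mul, e, inv_mul_cancel_left₀ (G.O_ne i j)]
  exact hr

theorem lineB_YW (i : Fin 2) (j : Fin 4) : ((G.O i j)⁻¹ • G.Xf i) (G.W' j) ∈ G.Rl j := by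
  obtain ⟨r, hr, e⟩ := G.Xf_W'_line i j
  rw [Derivation.smul_apply, smul_eq_mul, e, inv_mul_cancel_left₀ (G.O_ne i j)]
  exact mul_mem (G.lineA_W' j) hr

theorem lineB_wedge (j : Fin 4) :
    wedge ((G.O 0 j)⁻¹ • G.Xf 0) ((G.O 1 j)⁻¹ • G.Xf 1) G.u (G.W' j) =
      G.W' j * G.gj j * G.gam j := by
  have h := G.wedge_line j
  have h0 := G.O_ne 0 j
  have h1 := G.O_ne 1 j
  unfold wedge at *
  simp only [Derivation.smul_apply, smul_eq_mul, gam]
  field_simp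
  linear_combination h

theorem lineB_t (D : Derivation ℂ K K) (V : ValuationSubring K) (j : Fin 4) :
    V.valuation (G.t j) = 1 ∨ ∀ D : Derivation ℂ K K, D (G.t j) = D G.u := by
  fin_cases j
  · left
    simp [t, tP]
  · right
    simp [t, tP]
  · left
    simp [t, tP]
  · right
    simp [t, tP]

theorem lineB_good (V : ValuationSubring K) (hc : ∀ c : ℂ, algebraMap ℂ K c ∈ V) (j : Fin 4)
    (hu : G.u ∈ V) (hW : V.valuation (G.W j) < 1) (hW' : V.valuation (G.W' j) = 1)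
    (hg : V.valuation (G.gam j) = 1) (hf : ∀ i, V.valuation (G.f i j) = 1) :
    Good (G.v (two j)) (G.v (one j)) G.A0 V := by
  obtain ⟨r, hr, e⟩ := G.Xf_u_two j
  have hgj := G.val_gj V hc hW
  rw [G.lineB_v (two j) j, G.lineB_v (one j) j]
  refine good_of_chart V hc G.u (G.W' j) (G.lineB_f j) (G.t j)
    (aeval G.u (derivative (tP j)) * r) (G.lineB_U (two j) j) (G.lineB_U (one j) j) _ _ _ _ G.A0
    NN 3069 (by unfold NN; norm_num) (by norm_num) hu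
    ((V.valuation_le_one_iff _).1 hW'.le)
    (mul_mem (mul_mem (mul_mem (mul_mem (G.lineA_W' j) (G.lineA_gj j j)) (G.lineB_gam j))
      (G.lineB_fm 0 j)) (G.lineB_fm 1 j))
    (by simp [lineB_f, hW', hgj, hg, hf]) (G.lineB_Yu _ j) (G.lineB_YW _ j) (G.lineB_Yu _ j)
    (G.lineB_YW _ j) (G.lineA_aeval j _) (G.t_ne j) (mul_mem (G.lineA_aeval j _) hr) ?_
    (G.lineB_U_mem _ j) (G.lineB_U_inv _ j) (G.lineB_U_ne _ j)
    (G.lineB_U_mem _ j) (G.lineB_U_inv _ j) (G.lineB_U_ne _ j) (G.lineB_xi j) (G.lineB_zeta j)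
    ?_ ?_ ?_ (G.lineB_A0 j)
  · rw [t, G.lineA_XQ, Derivation.smul_apply, smul_eq_mul, e,
      inv_mul_cancel_left₀ (G.O_ne (two j) j), t]
    ring
  · have h := G.lineB_wedge j
    have h' : V.valuation (wedge ((G.O 0 j)⁻¹ • G.Xf 0) ((G.O 1 j)⁻¹ • G.Xf 1) G.u (G.W' j)) = 1 := by
      rw [h]
      simp [hW', hgj, hg]
    have h'' : V.valuation (wedge ((G.O 1 j)⁻¹ • G.Xf 1) ((G.O 0 j)⁻¹ • G.Xf 0) G.u (G.W' j)) = 1 := by
      rw [← h', ← Valuation.map_neg]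
      congr 1
      unfold wedge
      ring
    fin_cases j
    exacts [h', h', h'', h'']
  · rcases G.lineB_t 0 V j with h | h
    exacts [Or.inl h, Or.inr ⟨h _, h _⟩]
  · intro S ha hb h1 h2
    have hle : G.Rl j ≤ S := Algebra.adjoin_le (by
      rintro z (rfl | rfl)
      exacts [ha, hb])
    refine G.fracTop_of S ⟨_, hle (G.lineA_w j), 1, one_mem _, one_ne_zero, mul_one _⟩
      ⟨_, ha, 1, one_mem _, one_ne_zero, mul_one _⟩ fun i => ?_
    refine ⟨G.φ i * G.O i j, ?_, G.O i j, hle (G.lineA_aeval j _), G.O_ne i j, rfl⟩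
    have : i = two j ∨ i = one j := by
      fin_cases i <;> fin_cases j <;> decide
    rcases this with rfl | rfl
    exacts [h1, h2]

theorem good_line (V : ValuationSubring K) (hc : ∀ c : ℂ, algebraMap ℂ K c ∈ V) (j : Fin 4)
    (hu : G.u ∈ V) (hW : V.valuation (G.W j) < 1) (hW' : V.valuation (G.W' j) = 1)
    (hg : V.valuation (G.gam j) = 1) (hf : ∀ i, V.valuation (G.f i j) = 1) :
    Good (G.v 0) (G.v 1) G.A0 V := by
  have h := G.lineB_good V hc j hu hW hW' hg hf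
  fin_cases j
  exacts [h, h, h.symm, h.symm]

end Setup

end Vale.Agent.P266
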