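import Vale.Agent.P266.Interp

open Polynomial

noncomputable section

namespace Vale.Agent.P266

namespace Mom

/-- the three top coefficients -/
def Top (f : ℂ[X]) (a b : ℂ) : Prop :=
  f.reverse.coeff 0 = 1 ∧ f.reverse.coeff 1 = a ∧ f.reverse.coeff 2 = b

theorem Top.mul {f g : ℂ[X]} {a b a' b' : ℂ} (h : Top f a b) (h' : Top g a' b') :
    Top (f * g) (a + a') (b + b' + a * a') := by
  obtain ⟨h0, h1, h2⟩ := h
  obtain ⟨k0, k1, k2⟩ := h'
  refine ⟨?_, ?_, ?_⟩ <;> rw [reverse_mul_of_domain, coeff_mul]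
  · simp only [Finset.Nat.antidiagonal_zero, Finset.sum_singleton, h0, k0, mul_one]
  · simp only [Finset.Nat.sum_antidiagonal_succ, Finset.Nat.antidiagonal_zero, Finset.sum_singleton,
      zero_add, h0, h1, k0, k1]
    ring
  · rw [Finset.Nat.sum_antidiagonal_succ, Finset.Nat.sum_antidiagonal_succ]
    simp only [Finset.Nat.antidiagonal_zero, Finset.sum_singleton, zero_add, Nat.reduceAdd, h0, h1, h2,
      k0, k1, k2]
    ring

theorem top_of {f : ℂ[X]} (hf : f.Monic) {d : ℕ} (hd : f.natDegree = d) {a b : ℂ} (i j : ℕ)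
    (hi : revAt d 1 = i) (hj : revAt d 2 = j) (h1 : f.coeff i = a) (h2 : f.coeff j = b) :
    Top f a b :=
  ⟨by rw [coeff_zero_reverse, hf.leadingCoeff], by rw [coeff_reverse, hd, hi, h1],
    by rw [coeff_reverse, hd, hj, h2]⟩

theorem top_one : Top 1 0 0 :=
  top_of monic_one natDegree_one 1 2 rfl rfl (by simp [coeff_one]) (by simp [coeff_one])

theorem Top.pow {f : ℂ[X]} {a b : ℂ} (h : Top f a b) (k : ℕ) :
    Top (f ^ k) (k * a) (k * b + k * (k - 1) / 2 * a ^ 2) := by
  induction k with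
  | zero => simpa using top_one
  | succ k ih =>
    have := ih.mul h
    rw [← pow_succ] at this
    obtain ⟨h0, h1, h2⟩ := this
    exact ⟨h0, by rw [h1]; push_cast; ring, by rw [h2]; push_cast; ring⟩

theorem top_X : Top X 0 0 := top_of monic_X natDegree_X 0 2 rfl rfl (by simp) (by simp [coeff_X])

theorem top_t : Top (X + C 9) 9 0 :=
  top_of (monic_X_add_C 9) (natDegree_X_add_C 9) 0 2 rfl rfl (by simp) (by simp [coeff_X])

theorem Is_monic : Is.Monic := by unfold Is; monicity!

theorem Is_deg : Is.natDegree = 4 := by unfold Is; compute_degree!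

theorem In_monic : In.Monic := by unfold In; monicity!

theorem In_deg : In.natDegree = 2 := by unfold In; compute_degree!

theorem top_Is : Top Is (-250) (3260475 / 128) :=
  top_of Is_monic Is_deg 3 2 rfl rfl (by simp [Is, coeff_X, coeff_X_pow])
    (by simp [Is, coeff_X, coeff_X_pow])

theorem top_In : Top In (-268) (261603 / 8) :=
  top_of In_monic In_deg 1 0 rfl rfl (by simp [In, coeff_X, coeff_X_pow])
    (by simp [In, coeff_X, coeff_X_pow])

end Mom

theorem wc_injective : Function.Injective wc := by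
  intro i j h
  fin_cases i <;> fin_cases j <;> first | rfl | (exfalso; simp [wc] at h; try norm_num at h)

theorem qP_monic (j : Fin 4) (e : Fin 3) : (qP j e).Monic := by
  fin_cases e
  · exact monic_X
  · fin_cases j
    exacts [monic_one, monic_X_add_C 9, monic_one, monic_X_add_C 9]
  · fin_cases j
    exacts [Mom.Is_monic, Mom.In_monic, Mom.Is_monic, Mom.In_monic]

theorem natDegree_tP_le (j : Fin 4) : (tP j).natDegree ≤ 1 := by
  fin_cases j
  exacts [natDegree_one.le.trans zero_le_one, (natDegree_X_add_C 9).le,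
    natDegree_one.le.trans zero_le_one, (natDegree_X_add_C 9).le]

theorem natDegree_IP_le (j : Fin 4) : (IP j).natDegree ≤ 4 := by
  fin_cases j
  exacts [Mom.Is_deg.le, Mom.In_deg.le.trans (by norm_num), Mom.Is_deg.le,
    Mom.In_deg.le.trans (by norm_num)]

namespace Mom

def dt : Fin 4 → ℕ := ![0, 1, 0, 1]

def dI : Fin 4 → ℕ := ![4, 2, 4, 2]

def aT : Fin 4 → ℂ := ![0, 9, 0, 9]

def aI : Fin 4 → ℂ := ![-250, -268, -250, -268]

def bI : Fin 4 → ℂ := ![3260475 / 128, 261603 / 8, 3260475 / 128, 261603 / 8]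

theorem deg_t (j : Fin 4) : (tP j).natDegree = dt j := by
  fin_cases j
  exacts [natDegree_one, natDegree_X_add_C 9, natDegree_one, natDegree_X_add_C 9]

theorem deg_I (j : Fin 4) : (IP j).natDegree = dI j := by
  fin_cases j
  exacts [Is_deg, In_deg, Is_deg, In_deg]

theorem top_tP (j : Fin 4) : Top (tP j) (aT j) 0 := by
  fin_cases j
  exacts [top_one, top_t, top_one, top_t]

theorem top_IP (j : Fin 4) : Top (IP j) (aI j) (bI j) := by
  fin_cases j
  exacts [top_Is, top_In, top_Is, top_In]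

theorem deg_q (j : Fin 4) (e : Fin 3) : (qP j e).natDegree = ![1, dt j, dI j] e := by
  fin_cases e
  exacts [natDegree_X, deg_t j, deg_I j]

theorem deg_sum (i : Fin 2) (j : Fin 4) : ∑ e, mu i j e * (qP j e).natDegree = nF := by
  simp only [deg_q]
  revert i j
  decide

theorem coeffs (j : Fin 4) (μ : Fin 3 → ℕ) (h : ∑ e, μ e * (qP j e).natDegree = nF) :
    (TP (qP j) kk μ 0).coeff (nF - 1) = μ 1 * aT j + μ 2 * aI j ∧
    (TP (qP j) kk μ 0).coeff (nF - 2) = μ 1 * (μ 1 - 1) / 2 * aT j ^ 2 + (μ 2 * bI j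
      + μ 2 * (μ 2 - 1) / 2 * aI j ^ 2) + μ 1 * aT j * (μ 2 * aI j) := by
  have hd : (TP (qP j) kk μ 0).natDegree = nF := by
    rw [Itp.TP_natDegree (qP_monic j), ← h]; simp
  have e : TP (qP j) kk μ 0 = X ^ μ 0 * tP j ^ μ 1 * IP j ^ μ 2 := by
    simp only [TP, Fin.prod_univ_three, zero_mul, Nat.sub_zero]; rfl
  obtain ⟨-, h1, h2⟩ := ((top_X.pow (μ 0)).mul ((top_tP j).pow (μ 1))).mul ((top_IP j).pow (μ 2))
  rw [← e, coeff_reverse, hd, revAt_le (by decide)] at h1 h2
  exact ⟨by rw [h1]; ring, by rw [h2]; ring⟩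

end Mom

theorem exists_F {R : Type} [CommRing R] [Algebra ℂ R] (w u : R) (i : Fin 2) :
    ∃ F : R, IsF w u i F := by
  refine interp w u wc wc_injective qP qP_monic kk (by decide) (mu i) nF (by decide)
    (Mom.deg_sum i) (by simp only [Mom.deg_q]; decide) (-1705000) (![-180, 180] i)
    (921513272340375 / 634) (![19641333771 / 64, -19641333771 / 64] i) (164031015 / 10144)
    (fun j => ?_) fun j => ?_
  · rw [(Mom.coeffs j _ (Mom.deg_sum i j)).1]
    fin_cases i <;> fin_cases j <;>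
      simp [mu, two, muTwo, muOne, Mom.aT, Mom.aI, wc] <;> norm_num
  · rw [(Mom.coeffs j _ (Mom.deg_sum i j)).2]
    fin_cases i <;> fin_cases j <;>
      simp [mu, two, muTwo, muOne, Mom.aT, Mom.aI, Mom.bI, wc] <;> norm_num

end Vale.Agent.P266
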