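import Vale.Agent.P266.Icl

open Polynomial

noncomputable section

namespace Vale.Agent.P266

section Ring

variable {R : Type} [CommRing R] [Algebra ℂ R] {w u : R}

theorem Pol0_le_Pol (n : ℕ) : Pol0 w u n ≤ Pol w u n := by
  exact Submodule.span_mono fun _ ⟨a, b, h, _, e⟩ => ⟨a, b, h, e⟩

theorem Pol_mono {m n : ℕ} (h : m ≤ n) : Pol w u m ≤ Pol w u n := by
  exact Submodule.span_mono fun _ ⟨a, b, h', e⟩ => ⟨a, b, h'.trans h, e⟩

theorem Pol0_mono {m n : ℕ} (h : m ≤ n) : Pol0 w u m ≤ Pol0 w u n := by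
  exact Submodule.span_mono fun _ ⟨a, b, h', h2, e⟩ => ⟨a, b, h'.trans h, h2.trans_le h, e⟩

theorem Pol_le_Pol0 {m n : ℕ} (h : m < n) : Pol w u m ≤ Pol0 w u n := by
  exact Submodule.span_mono fun _ ⟨a, b, h', e⟩ => ⟨a, b, by omega, by omega, e⟩

theorem Pol_mul {m n : ℕ} {a b : R} (ha : a ∈ Pol w u m) (hb : b ∈ Pol w u n) :
    a * b ∈ Pol w u (m + n) := by
  have := Submodule.mul_mem_mul ha hb
  rw [Pol, Pol, Submodule.span_mul_span] at this
  refine Submodule.span_mono ?_ this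
  rintro _ ⟨_, ⟨a, b, h, rfl⟩, _, ⟨c, d, h', rfl⟩, rfl⟩
  exact ⟨a + c, b + d, by omega, by ring⟩

theorem Pol0_mul {m n : ℕ} {a b : R} (ha : a ∈ Pol0 w u m) (hb : b ∈ Pol w u n) :
    a * b ∈ Pol0 w u (m + n) := by
  have := Submodule.mul_mem_mul ha hb
  rw [Pol0, Pol, Submodule.span_mul_span] at this
  refine Submodule.span_mono ?_ this
  rintro _ ⟨_, ⟨a, b, h, h2, rfl⟩, _, ⟨c, d, h', rfl⟩, rfl⟩
  exact ⟨a + c, b + d, by omega, by omega, by ring⟩

theorem Pol_pow {m : ℕ} {a : R} (ha : a ∈ Pol w u m) (k : ℕ) : a ^ k ∈ Pol w u (k * m) := by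
  induction k with
  | zero => exact Submodule.subset_span ⟨0, 0, by simp, by simp⟩
  | succ k ih => rw [pow_succ, Nat.succ_mul]; exact Pol_mul ih ha

theorem Pol0_pow {m : ℕ} {a : R} (ha : a ∈ Pol0 w u m) (k : ℕ) (hk : 0 < k) :
    a ^ k ∈ Pol0 w u (k * m) := by
  obtain ⟨k, rfl⟩ := Nat.exists_eq_succ_of_ne_zero hk.ne'
  rw [pow_succ', Nat.succ_mul, add_comm]
  exact Pol0_mul ha (Pol_pow (Pol0_le_Pol m ha) k)

theorem u_pow_mem_Pol (n : ℕ) : u ^ n ∈ Pol w u n := by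
  exact Submodule.subset_span ⟨0, n, by simp, by simp⟩

theorem w_pow_mem_Pol (n : ℕ) : w ^ n ∈ Pol w u n := by
  exact Submodule.subset_span ⟨n, 0, by simp, by simp⟩

theorem const_mem_Pol (c : ℂ) (n : ℕ) : algebraMap ℂ R c ∈ Pol w u n := by
  rw [Algebra.algebraMap_eq_smul_one]
  exact Submodule.smul_mem _ _ (Submodule.subset_span ⟨0, 0, by simp, by simp⟩)

theorem W_mem_Pol0 (c : ℂ) : w - algebraMap ℂ R c ∈ Pol0 w u 1 := by
  exact sub_mem (Submodule.subset_span ⟨1, 0, by simp, by simp, by simp⟩)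
    (Pol_le_Pol0 zero_lt_one (const_mem_Pol c 0))

theorem mem_Pol_of_lead {n : ℕ} {a : R} {c : ℂ}
    (ha : a - algebraMap ℂ R c * u ^ n ∈ Pol0 w u n) : a ∈ Pol w u n := by
  have := add_mem (Pol0_le_Pol n ha) (Submodule.smul_mem _ c (u_pow_mem_Pol (w := w) (u := u) n))
  rwa [Algebra.smul_def, sub_add_cancel] at this

theorem lead_mul {m n : ℕ} {a b : R} {c d : ℂ} (ha : a - algebraMap ℂ R c * u ^ m ∈ Pol0 w u m)
    (hb : b - algebraMap ℂ R d * u ^ n ∈ Pol0 w u n) :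
    a * b - algebraMap ℂ R (c * d) * u ^ (m + n) ∈ Pol0 w u (m + n) := by
  have h1 := Pol0_mul ha (mem_Pol_of_lead hb)
  have h2 := Submodule.smul_mem _ c (Pol0_mul hb (u_pow_mem_Pol (w := w) (u := u) m))
  rw [add_comm n m, Algebra.smul_def] at h2
  have := add_mem h1 h2
  have e : a * b - algebraMap ℂ R (c * d) * u ^ (m + n) = (a - algebraMap ℂ R c * u ^ m) * b +
      algebraMap ℂ R c * ((b - algebraMap ℂ R d * u ^ n) * u ^ m) := by
    rw [map_mul, pow_add]; ring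
  rwa [e]

theorem lead_pow {m : ℕ} {a : R} {c : ℂ} (ha : a - algebraMap ℂ R c * u ^ m ∈ Pol0 w u m)
    (k : ℕ) : a ^ k - algebraMap ℂ R (c ^ k) * u ^ (k * m) ∈ Pol0 w u (k * m) := by
  induction k with
  | zero => simp
  | succ k ih => rw [pow_succ, pow_succ c, Nat.succ_mul]; exact lead_mul ih ha

theorem aeval_u_mem_Pol {n : ℕ} {p : ℂ[X]} (h : p.natDegree ≤ n) : aeval u p ∈ Pol w u n := by
  rw [aeval_eq_sum_range]
  exact sum_mem fun i hi => Submodule.smul_mem _ _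
    (Pol_mono ((Nat.lt_succ_iff.1 (Finset.mem_range.1 hi)).trans h) (u_pow_mem_Pol i))

theorem aeval_w_mem_Pol {n : ℕ} {p : ℂ[X]} (h : p.natDegree ≤ n) : aeval w p ∈ Pol w u n := by
  rw [aeval_eq_sum_range]
  exact sum_mem fun i hi => Submodule.smul_mem _ _
    (Pol_mono ((Nat.lt_succ_iff.1 (Finset.mem_range.1 hi)).trans h) (w_pow_mem_Pol i))

theorem mem_adjoin_of_Pol {n : ℕ} {a : R} (ha : a ∈ Pol w u n) :
    a ∈ Algebra.adjoin ℂ ({w, u} : Set R) := by
  refine (Submodule.span_le (p := Subalgebra.toSubmodule (Algebra.adjoin ℂ ({w, u} : Set R)))).2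
    ?_ ha
  rintro _ ⟨a, b, -, rfl⟩
  exact Subalgebra.mul_mem _ (pow_mem (Algebra.subset_adjoin (by simp)) _)
    (pow_mem (Algebra.subset_adjoin (by simp)) _)

theorem pol_ev (N : Submodule ℂ R) {l : List (ℚ × ℕ × ℕ)}
    (h : ∀ p ∈ l, w ^ p.2.1 * u ^ p.2.2 ∈ N) : ev l w u ∈ N ∧ ev l (-w) u ∈ N := by
  refine ⟨list_sum_mem fun z hz => ?_, list_sum_mem fun z hz => ?_⟩
  · obtain ⟨p, hp, rfl⟩ := List.mem_map.1 hz
    rw [mul_assoc, ← Algebra.smul_def]
    exact N.smul_mem _ (h p hp)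
  · obtain ⟨p, hp, rfl⟩ := List.mem_map.1 hz
    rw [mul_assoc, ← Algebra.smul_def, neg_pow, mul_assoc]
    refine N.smul_mem _ ?_
    rcases neg_one_pow_eq_or R p.2.1 with e | e <;> rw [e]
    · simpa using h p hp
    · simpa using h p hp

theorem ev_mem_Pol {n : ℕ} {l : List (ℚ × ℕ × ℕ)} (h : ∀ p ∈ l, p.2.1 + p.2.2 ≤ n) :
    ev l w u ∈ Pol w u n ∧ ev l (-w) u ∈ Pol w u n := by
  exact pol_ev _ fun p hp => Submodule.subset_span ⟨_, _, h p hp, rfl⟩

theorem ev_mem_Pol0 {n : ℕ} {l : List (ℚ × ℕ × ℕ)} (h : ∀ p ∈ l, p.2.1 + p.2.2 ≤ n ∧ p.2.2 < n) :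
    ev l w u ∈ Pol0 w u n ∧ ev l (-w) u ∈ Pol0 w u n := by
  exact pol_ev _ fun p hp => Submodule.subset_span ⟨_, _, (h p hp).1, (h p hp).2, rfl⟩

/-- restriction to the line `w = c` -/
theorem exists_restrict (c : ℂ) {z : R} (hz : z ∈ Algebra.adjoin ℂ ({w, u} : Set R)) :
    ∃ p : ℂ[X], ∃ r ∈ Algebra.adjoin ℂ ({w, u} : Set R),
      z = aeval u p + (w - algebraMap ℂ R c) * r := by
  have hw : w ∈ Algebra.adjoin ℂ ({w, u} : Set R) := Algebra.subset_adjoin (by simp)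
  have hu : u ∈ Algebra.adjoin ℂ ({w, u} : Set R) := Algebra.subset_adjoin (by simp)
  have hp : ∀ p : ℂ[X], aeval u p ∈ Algebra.adjoin ℂ ({w, u} : Set R) := fun p =>
    mem_adjoin_of_Pol (aeval_u_mem_Pol le_rfl)
  induction hz using Algebra.adjoin_induction with
  | mem x hx =>
    rcases hx with rfl | rfl
    · exact ⟨C c, 1, one_mem _, by simp⟩
    · exact ⟨X, 0, zero_mem _, by simp⟩
  | algebraMap r => exact ⟨C r, 0, zero_mem _, by simp⟩
  | add x y _ _ h1 h2 =>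
    obtain ⟨p, r, hr, rfl⟩ := h1
    obtain ⟨p', r', hr', rfl⟩ := h2
    exact ⟨p + p', r + r', add_mem hr hr', by rw [map_add]; ring⟩
  | mul x y _ hy h1 h2 =>
    obtain ⟨p, r, hr, rfl⟩ := h1
    obtain ⟨p', r', hr', e⟩ := h2
    refine ⟨p * p', r * y + aeval u p * r', add_mem (mul_mem hr hy) (mul_mem (hp p) hr'), ?_⟩
    rw [map_mul]
    linear_combination (aeval u p) * e

theorem pol_ev_sub (l : List (ℚ × ℕ × ℕ)) {a b s W : R}
    (ha : a ∈ Algebra.adjoin ℂ ({w, u} : Set R)) (hb : b ∈ Algebra.adjoin ℂ ({w, u} : Set R))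
    (hs : s ∈ Algebra.adjoin ℂ ({w, u} : Set R)) (h : a - b = W * s) :
    ∃ r ∈ Algebra.adjoin ℂ ({w, u} : Set R), ev l a u = ev l b u + W * r := by
  have hu : u ∈ Algebra.adjoin ℂ ({w, u} : Set R) := Algebra.subset_adjoin (by simp)
  induction l with
  | nil => exact ⟨0, zero_mem _, by simp [ev]⟩
  | cons p l ih =>
    obtain ⟨r, hr, e⟩ := ih
    refine ⟨r + algebraMap ℂ R (p.1 : ℂ) * s * (∑ i ∈ Finset.range p.2.1,
      a ^ i * b ^ (p.2.1 - 1 - i)) * u ^ p.2.2, add_mem hr (mul_mem (mul_mem (mul_mem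
        (Subalgebra.algebraMap_mem _ _) hs) (sum_mem fun i _ => mul_mem (pow_mem ha _)
          (pow_mem hb _))) (pow_mem hu _)), ?_⟩
    have h2 := (Commute.all a b).geom_sum₂_mul p.2.1
    rw [h] at h2
    simp only [ev, List.map_cons, List.sum_cons] at e ⊢
    linear_combination e - algebraMap ℂ R (p.1 : ℂ) * u ^ p.2.2 * h2

theorem ev_restrict (l : List (ℚ × ℕ × ℕ)) (c : ℂ) :
    (∃ r ∈ Algebra.adjoin ℂ ({w, u} : Set R),
      ev l w u = ev l (algebraMap ℂ R c) u + (w - algebraMap ℂ R c) * r) ∧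
    (∃ r ∈ Algebra.adjoin ℂ ({w, u} : Set R),
      ev l (-w) u = ev l (-algebraMap ℂ R c) u + (w - algebraMap ℂ R c) * r) := by
  have hw : w ∈ Algebra.adjoin ℂ ({w, u} : Set R) := Algebra.subset_adjoin (by simp)
  refine ⟨pol_ev_sub l hw (Subalgebra.algebraMap_mem _ c) (one_mem _) (mul_one _).symm,
    pol_ev_sub l (neg_mem hw) (neg_mem (Subalgebra.algebraMap_mem _ c)) (neg_mem (one_mem _))
      (by ring)⟩

theorem IsF.map {R' : Type} [CommRing R'] [Algebra ℂ R'] (e : R →ₐ[ℂ] R') {i : Fin 2} {F : R}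
    (h : IsF w u i F) : IsF (e w) (e u) i (e F) := by
  refine ⟨?_, fun j => ?_⟩
  · have := Submodule.mem_map_of_mem (f := e.toLinearMap) h.1
    rw [Pol0, Submodule.map_span] at this
    simp only [AlgHom.toLinearMap_apply, map_sub, map_pow] at this
    refine Submodule.span_mono ?_ this
    rintro _ ⟨_, ⟨a, b, h1, h2, rfl⟩, rfl⟩
    exact ⟨a, b, h1, h2, by simp⟩
  · have := Submodule.mem_map_of_mem (f := e.toLinearMap) (h.2 j)
    rw [Jet, Submodule.map_span] at this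
    simp only [AlgHom.toLinearMap_apply, map_sub, ← aeval_algHom_apply] at this
    refine Submodule.span_mono ?_ this
    rintro _ ⟨_, ⟨c, hc, a, h1, rfl⟩, rfl⟩
    refine ⟨e c, ?_, a, h1, ?_⟩
    · have h2 := Subalgebra.mem_map.2 ⟨c, hc, (rfl : e c = e c)⟩
      rwa [AlgHom.map_adjoin, Set.image_pair] at h2
    · simp only [AlgHom.toLinearMap_apply, map_mul, map_pow, map_sub, AlgHom.commutes,
        ← aeval_algHom_apply]

end Ring

section Field

variable {K : Type} [Field K] [Algebra ℂ K] {w u : K}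

theorem pol_mono_dehom (hu : u ≠ 0) {a b n : ℕ} (h : a + b ≤ n) :
    w ^ a * u ^ b * u⁻¹ ^ n = (w * u⁻¹) ^ a * u⁻¹ ^ (n - (a + b)) := by
  obtain ⟨k, rfl⟩ := Nat.exists_eq_add_of_le h
  rw [Nat.add_sub_cancel_left, pow_add, pow_add, mul_pow]
  have : u ^ b * u⁻¹ ^ b = 1 := by rw [← mul_pow, mul_inv_cancel₀ hu, one_pow]
  linear_combination (w ^ a * u⁻¹ ^ a * u⁻¹ ^ k) * this

theorem Pol_dehom (hu : u ≠ 0) {n : ℕ} {a : K} (ha : a ∈ Pol w u n) :
    a * u⁻¹ ^ n ∈ Algebra.adjoin ℂ ({u⁻¹, w * u⁻¹} : Set K) := by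
  induction ha using Submodule.span_induction with
  | mem x hx =>
    obtain ⟨a, b, h, rfl⟩ := hx
    rw [pol_mono_dehom hu h]
    exact mul_mem (pow_mem (Algebra.subset_adjoin (by simp)) _)
      (pow_mem (Algebra.subset_adjoin (by simp)) _)
  | zero => simp
  | add x y _ _ h1 h2 => rw [add_mul]; exact add_mem h1 h2
  | smul c x _ h1 => rw [smul_mul_assoc]; exact Subalgebra.smul_mem _ h1 c

theorem Pol_val (V : ValuationSubring K) (hc : ∀ c : ℂ, algebraMap ℂ K c ∈ V) (l : K)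
    (h1 : 1 ≤ V.valuation l) (hw : V.valuation w ≤ V.valuation l)
    (hu : V.valuation u ≤ V.valuation l) {n : ℕ} {a : K} (ha : a ∈ Pol w u n) :
    V.valuation a ≤ V.valuation l ^ n := by
  induction ha using Submodule.span_induction with
  | mem x hx =>
    obtain ⟨a, b, h, rfl⟩ := hx
    rw [map_mul, map_pow, map_pow]
    calc _ ≤ V.valuation l ^ a * V.valuation l ^ b :=
          mul_le_mul' (pow_le_pow_left' hw a) (pow_le_pow_left' hu b)
      _ = V.valuation l ^ (a + b) := (pow_add _ _ _).symm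
      _ ≤ _ := pow_le_pow_right' h1 h
  | zero => simp
  | add x y _ _ h1 h2 => exact Valuation.map_add_le _ h1 h2
  | smul c x _ h1 =>
    rw [Algebra.smul_def, map_mul]
    exact (mul_le_of_le_one_left' ((V.valuation_le_one_iff _).2 (hc c))).trans h1

theorem Pol0_val (V : ValuationSubring K) (hc : ∀ c : ℂ, algebraMap ℂ K c ∈ V) (hu : u ≠ 0)
    (hx : V.valuation u⁻¹ < 1) (hy : V.valuation (w * u⁻¹) < 1) {n : ℕ} {a : K}
    (ha : a ∈ Pol0 w u n) : V.valuation (a * u⁻¹ ^ n) < 1 := by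
  induction ha using Submodule.span_induction with
  | mem x hx =>
    obtain ⟨a, b, h, h2, rfl⟩ := hx
    rw [pol_mono_dehom hu h, map_mul, map_pow, map_pow]
    by_cases ha : a = 0
    · subst ha
      rw [pow_zero, one_mul]
      exact pow_lt_one₀ zero_le hx (by omega)
    · exact (mul_le_of_le_one_right' (pow_le_one' hx.le _)).trans_lt
        (pow_lt_one₀ zero_le hy ha)
  | zero => simp
  | add x y _ _ h1 h2 => rw [add_mul]; exact Valuation.map_add_lt _ h1 h2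
  | smul c x _ h1 =>
    rw [Algebra.smul_def, mul_assoc, map_mul]
    exact (mul_le_of_le_one_left' ((V.valuation_le_one_iff _).2 (hc c))).trans_lt h1

theorem lead_val (V : ValuationSubring K) (hc : ∀ c : ℂ, algebraMap ℂ K c ∈ V) (hu : u ≠ 0)
    (hx : V.valuation u⁻¹ < 1) (hy : V.valuation (w * u⁻¹) < 1) {n : ℕ} {a : K} {c : ℂ}
    (h0 : c ≠ 0) (ha : a - algebraMap ℂ K c * u ^ n ∈ Pol0 w u n) :
    V.valuation (a * u⁻¹ ^ n) = 1 := by
  have h1 := Pol0_val V hc hu hx hy ha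
  have h2 : V.valuation (algebraMap ℂ K c) = 1 := by
    refine le_antisymm ((V.valuation_le_one_iff _).2 (hc c)) ?_
    have h3 := (V.valuation_le_one_iff _).2 (hc c⁻¹)
    have h4 : V.valuation (algebraMap ℂ K c) * V.valuation (algebraMap ℂ K c⁻¹) = 1 := by
      rw [← map_mul, ← map_mul, mul_inv_cancel₀ h0, map_one, map_one]
    exact h4.ge.trans (mul_le_of_le_one_right' h3)
  have h3 : a * u⁻¹ ^ n = algebraMap ℂ K c + (a - algebraMap ℂ K c * u ^ n) * u⁻¹ ^ n := by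
    rw [sub_mul, mul_assoc, ← mul_pow, mul_inv_cancel₀ hu, one_pow]; ring
  rw [h3, Valuation.map_add_eq_of_lt_left _ (h2 ▸ h1), h2]

end Field

end Vale.Agent.P266
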