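import Vale.Agent.P266.Zero
import Vale.Agent.P266.LineB
import Vale.Agent.P266.Chain

open Polynomial

noncomputable section

namespace Vale.Agent.P266

attribute [local irreducible] nF cc NN

namespace Setup

variable {K : Type} [Field K] [Algebra ℂ K] (G : Setup K)

theorem val_mem_A0 {s : K} (hs : s ∈ G.nums) : s / G.Ftot ∈ G.A0 :=
  Algebra.subset_adjoin ⟨s, hs, rfl⟩

theorem val_three {Γ : Type*} [LinearOrderedCommGroupWithZero Γ] {a b c : Γ} (ha : a ≤ 1)
    (hb : b ≤ 1) (hc : c ≤ 1) (h : 1 ≤ (a * b * c) ^ 34) : a = 1 ∧ b = 1 ∧ c = 1 := by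
  have h1 : 1 ≤ a * b * c := by
    by_contra hn
    exact absurd (pow_lt_one₀ zero_le (not_le.1 hn) (by norm_num : 34 ≠ 0)) (not_lt.2 h)
  refine ⟨le_antisymm ha ?_, le_antisymm hb ?_, le_antisymm hc ?_⟩
  · calc 1 ≤ a * b * c := h1
      _ ≤ a * 1 * 1 := by gcongr
      _ = a := by simp
  · calc 1 ≤ a * b * c := h1
      _ ≤ 1 * b * 1 := by gcongr
      _ = b := by simp
  · calc 1 ≤ a * b * c := h1
      _ ≤ 1 * 1 * c := by gcongr
      _ = c := by simp

theorem val_line (V : ValuationSubring K) (hV : Below G.A0 V) (j : Fin 4) (hu : G.u ∈ V)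
    (hW : V.valuation (G.W j) < 1) : Small G.A0 V ∨ Good (G.v 0) (G.v 1) G.A0 V := by
  have hc : ∀ c : ℂ, algebraMap ℂ K c ∈ V := fun c => hV _ (Subalgebra.algebraMap_mem _ c)
  have hW' := G.not_chain V hV j hu hW
  rcases ((V.valuation_le_one_iff _).2 hW').lt_or_eq with h | h
  · exact Or.inl (G.small_line V hc j hu h)
  right
  have hR : Below (G.Rl j) V := below_adjoin _ V hc (by
    rintro z (rfl | rfl)
    exacts [hu, hW'])
  have hg : V.valuation (G.gam j) ≤ 1 := by
    obtain ⟨r, hr, e⟩ := G.gam_eq j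
    rw [V.valuation_le_one_iff, e]
    exact V.add_mem _ _ (hc _) (V.mul_mem _ _ hW' (hR r hr))
  have hf : ∀ i, V.valuation (G.f i j) ≤ 1 := by
    intro i
    obtain ⟨r, hr, e⟩ := G.f_eq i j
    rw [V.valuation_le_one_iff, e]
    exact V.add_mem _ _ V.one_mem (V.mul_mem _ _ hW' (hR r hr))
  have hP := (V.valuation_le_one_iff _).2
    (hV _ (G.val_mem_A0 (s := G.Psi j) (Or.inr ⟨j, rfl⟩)))
  have hO : G.O 0 j * G.O 1 j ≠ 0 := mul_ne_zero (G.O_ne 0 j) (G.O_ne 1 j)
  have hF := G.Ftot_ne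
  rw [G.Ftot_line j] at hF
  rw [G.Psi_eq, G.Ftot_line j, mul_assoc, mul_div_mul_left _ _ (pow_ne_zero _ hO), map_div₀,
    div_le_one₀ (by
      rw [Valuation.pos_iff]
      exact right_ne_zero_of_mul hF)] at hP
  simp only [map_mul, map_pow, h, G.val_gj V hc hW, one_pow, mul_one] at hP
  obtain ⟨a1, a2, a3⟩ := val_three hg (hf 0) (hf 1) hP
  exact G.good_line V hc j hu hW h a1 (by
    intro i
    fin_cases i
    exacts [a2, a3])

theorem val_generic (V : ValuationSubring K) (hV : Below G.A0 V) (l : K)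
    (hl : G.g ^ (17 * cc) * l ^ (306 * cc) ∈ G.nums)
    (h1 : 1 ≤ V.valuation l) (hw : V.valuation G.w ≤ V.valuation l)
    (hu : V.valuation G.u ≤ V.valuation l) (hW : ∀ j, V.valuation (G.W j) = V.valuation l) :
    Good (G.v 0) (G.v 1) G.A0 V := by
  have hc : ∀ c : ℂ, algebraMap ℂ K c ∈ V := fun c => hV _ (Subalgebra.algebraMap_mem _ c)
  have hl0 : 0 < V.valuation l := lt_of_lt_of_le zero_lt_one h1
  have hg : V.valuation G.g = V.valuation l ^ 4 := by
    simp [g, map_prod, hW]
  have hP := (V.valuation_le_one_iff _).2 (hV _ (G.val_mem_A0 hl))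
  have hF0 : 0 < V.valuation G.Ftot := by
    rw [Valuation.pos_iff]
    exact G.Ftot_ne
  rw [map_div₀, div_le_one₀ hF0, map_mul, map_pow, map_pow, hg, ← pow_mul, ← pow_add] at hP
  have e1 : 4 * (17 * cc) + 306 * cc = 374 * cc := by ring
  rw [e1] at hP
  have hul : V.valuation l ≤ V.valuation G.u := by
    by_contra hn
    have hn := not_le.1 hn
    obtain ⟨z, hz, e⟩ := G.Gam_u
    have b1 := Pol_val V hc l h1 hw hu hz
    have b2 := Pol_val V hc l h1 hw hu (G.F_mem 0)
    have b3 := Pol_val V hc l h1 hw hu (G.F_mem 1)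
    have b4 : V.valuation (G.Gam * G.F 0 * G.F 1) < V.valuation l ^ (11 * cc) := by
      rw [e]
      simp only [map_mul]
      calc _ ≤ V.valuation G.u * V.valuation l ^ 10 * V.valuation l ^ nF * V.valuation l ^ nF := by
            gcongr
        _ < V.valuation l * V.valuation l ^ 10 * V.valuation l ^ nF * V.valuation l ^ nF := by
            gcongr <;> exact pow_pos hl0 _
        _ = _ := by
            rw [← pow_succ', ← pow_add, ← pow_add]
            congr 1
            unfold nF cc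
            rfl
    have b5 : V.valuation G.Ftot < V.valuation l ^ (374 * cc) := by
      have e2 : 374 * cc = 11 * cc * 34 := by ring
      rw [Ftot, map_pow, e2, pow_mul]
      exact pow_lt_pow_left₀ b4 zero_le (by norm_num)
    exact absurd hP (not_le.2 b5)
  have hue : V.valuation G.u = V.valuation l := le_antisymm hu hul
  have hx : V.valuation G.x = (V.valuation l)⁻¹ := by rw [x, map_inv₀, hue]
  have hxV : G.x ∈ V := by
    rw [← V.valuation_le_one_iff, hx]
    exact inv_le_one_of_one_le₀ h1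
  have hyV : G.y ∈ V := by
    rw [← V.valuation_le_one_iff, y, map_mul, map_inv₀, hue, ← div_eq_mul_inv]
    exact (div_le_one₀ hl0).2 hw
  have hR : Below G.R0 V := below_adjoin _ V hc (by
    rintro z (rfl | rfl)
    exacts [hxV, hyV])
  have hP' : 1 ≤ (V.valuation G.gam0 * V.valuation (G.f0 0) * V.valuation (G.f0 1)) ^ 34 := by
    rw [← map_mul, ← map_mul, ← map_pow, ← G.Ftot_zero, map_mul, map_pow, hx, inv_pow,
      ← div_eq_mul_inv]
    exact (one_le_div₀ (pow_pos hl0 _)).2 hP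
  obtain ⟨a1, a2, a3⟩ := val_three ((V.valuation_le_one_iff _).2 (hR _ G.gam0_mem))
    ((V.valuation_le_one_iff _).2 (hR _ (G.f0_mem 0)))
    ((V.valuation_le_one_iff _).2 (hR _ (G.f0_mem 1))) hP'
  refine G.good_zero V hc hxV hyV (fun j => ?_) a1 (by
    intro i
    fin_cases i
    exacts [a2, a3])
  rw [L, map_mul, map_inv₀, hW, hue, mul_inv_cancel₀ hl0.ne']

theorem val_main (V : ValuationSubring K) (hV : Below G.A0 V) (l : K)
    (hl : G.g ^ (17 * cc) * l ^ (306 * cc) ∈ G.nums) (hl' : l = 1 ∨ l = G.w ∨ l = G.u)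
    (h1 : 1 ≤ V.valuation l) (hw : V.valuation G.w ≤ V.valuation l)
    (hu : V.valuation G.u ≤ V.valuation l) :
    Small G.A0 V ∨ Good (G.v 0) (G.v 1) G.A0 V := by
  have hc : ∀ c : ℂ, algebraMap ℂ K c ∈ V := fun c => hV _ (Subalgebra.algebraMap_mem _ c)
  have hc' : ∀ c : ℂ, V.valuation (algebraMap ℂ K c) ≤ 1 :=
    fun c => (V.valuation_le_one_iff _).2 (hc c)
  by_cases h : ∀ j, V.valuation (G.W j) = V.valuation l
  · exact Or.inr (G.val_generic V hV l hl h1 hw hu h)
  obtain ⟨j, hj⟩ := not_forall.1 h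
  have hle : V.valuation (G.W j) ≤ V.valuation l :=
    V.valuation.map_sub_le hw ((hc' _).trans h1)
  have hlt := lt_of_le_of_ne hle hj
  rcases h1.eq_or_lt with e | e
  · rw [← e] at hlt hu
    exact G.val_line V hV j ((V.valuation_le_one_iff _).1 hu) hlt
  have hw' : V.valuation G.w < V.valuation l := by
    have e2 : G.w = G.W j + algebraMap ℂ K (wc j) := by simp [W]
    rw [e2]
    exact V.valuation.map_add_lt hlt ((hc' _).trans_lt e)
  rcases hl' with rfl | rfl | rfl
  · simp at e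
  · exact absurd hw' (lt_irrefl _)
  left
  apply G.small_p V hc
  · rw [x, map_inv₀]
    exact inv_lt_one_of_one_lt₀ e
  · rw [y, map_mul, map_inv₀, ← div_eq_mul_inv]
    exact (div_lt_one₀ (zero_lt_one.trans e)).2 hw'

theorem cases (V : ValuationSubring K) (hV : Below G.A0 V) :
    Small G.A0 V ∨ Good (G.v 0) (G.v 1) G.A0 V := by
  have n1 : G.g ^ (17 * cc) * (1 : K) ^ (306 * cc) ∈ G.nums := by
    rw [one_pow, mul_one]
    exact Or.inl (Or.inl rfl)
  have n2 : G.g ^ (17 * cc) * G.w ^ (306 * cc) ∈ G.nums := Or.inl (Or.inr (Or.inl rfl))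
  have n3 : G.g ^ (17 * cc) * G.u ^ (306 * cc) ∈ G.nums := Or.inl (Or.inr (Or.inr rfl))
  rcases le_total (V.valuation G.w) (V.valuation G.u) with a | a
  · rcases le_total (V.valuation G.u) 1 with b | b
    · exact G.val_main V hV 1 n1 (Or.inl rfl) (by simp) (by simpa using a.trans b) (by simpa using b)
    · exact G.val_main V hV G.u n3 (Or.inr (Or.inr rfl)) b a le_rfl
  · rcases le_total (V.valuation G.w) 1 with b | b
    · exact G.val_main V hV 1 n1 (Or.inl rfl) (by simp) (by simpa using b) (by simpa using a.trans b)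
    · exact G.val_main V hV G.w n2 (Or.inr (Or.inl rfl)) b le_rfl a

end Setup

end Vale.Agent.P266
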