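import Vale.Agent.P266.Basic
import Vale.Agent.P266.Chart

open Polynomial

noncomputable section

namespace Vale.Agent.P266

attribute [local irreducible] nF cc NN

theorem zero_inv {K : Type} [Field K] [Algebra ℂ K] {S : Subalgebra ℂ K} {f z c : K} (hf : f⁻¹ ∈ S)
    (hf0 : f ≠ 0) (hc : c ∈ S) (h : f = z * c) : z⁻¹ ∈ S := by
  have hz : z ≠ 0 := by
    rintro rfl
    simp at h
    exact hf0 h
  have : z⁻¹ = f⁻¹ * c := by
    field_simp
    exact h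
  rw [this]
  exact mul_mem hf hc

theorem zero_log_prod {K : Type} [Field K] [Algebra ℂ K] {S : Subalgebra ℂ K}
    (D : Derivation ℂ K K) (L : Fin 4 → K) (m : Fin 4 → ℕ) (h : ∀ j, ∃ r ∈ S, D (L j) = L j * r) :
    ∃ r ∈ S, D (∏ j, L j ^ m j) = (∏ j, L j ^ m j) * r := by
  refine Finset.prod_induction _ (fun z => ∃ r ∈ S, D z = z * r) ?_ ⟨0, zero_mem _, by simp⟩ ?_
  · rintro a b ⟨r, hr, e⟩ ⟨r', hr', e'⟩
    refine ⟨r + r', add_mem hr hr', ?_⟩
    rw [Derivation.leibniz, e, e']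
    simp only [smul_eq_mul]
    ring
  · intro j _
    obtain ⟨r, hr, e⟩ := h j
    induction m j with
    | zero => exact ⟨0, zero_mem _, by simp⟩
    | succ n ih =>
      obtain ⟨r', hr', e'⟩ := ih
      refine ⟨r + r', add_mem hr hr', ?_⟩
      rw [pow_succ, Derivation.leibniz, e, e']
      simp only [smul_eq_mul]
      ring

namespace Setup

variable {K : Type} [Field K] [Algebra ℂ K] (G : Setup K)

theorem zero_dehom {n : ℕ} {a : K} (ha : a ∈ Pol G.w G.u n) : a * G.x ^ n ∈ G.R0 :=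
  Pol_dehom G.u_ne ha

theorem zero_x : G.x ∈ G.R0 := Algebra.subset_adjoin (Or.inl rfl)

theorem zero_y : G.y ∈ G.R0 := Algebra.subset_adjoin (Or.inr rfl)

theorem zero_L_eq (j : Fin 4) : G.L j = G.y - algebraMap ℂ K (wc j) * G.x := by
  simp only [L, W, x, y]
  ring

theorem zero_L (j : Fin 4) : G.L j ∈ G.R0 := by
  rw [G.zero_L_eq]
  exact sub_mem G.zero_y (mul_mem (Subalgebra.algebraMap_mem _ _) G.zero_x)

theorem zero_L_ne (j : Fin 4) : G.L j ≠ 0 := mul_ne_zero (G.W_ne j) (inv_ne_zero G.u_ne)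

def zeroY (i : Fin 2) : Derivation ℂ K K := (G.x ^ 6) • G.Xf i

def zeroP (i : Fin 2) : K := G.φ i * G.u ^ 6

theorem zero_v (i : Fin 2) : G.v i = G.zeroP i • G.zeroY i := by
  have h := G.u_ne
  have e : G.φ i * G.u ^ 6 * G.x ^ 6 = G.φ i := by
    rw [x]
    field_simp
  rw [zeroP, zeroY, smul_smul, e, v]

theorem zero_Dx (D : Derivation ℂ K K) : D G.x = -(G.x ^ 2 * D G.u) := by
  rw [x, Derivation.leibniz_inv]
  simp

theorem zero_Dy (D : Derivation ℂ K K) : D G.y = G.x * D G.w - G.w * G.x ^ 2 * D G.u := by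
  have : G.y = G.w * G.x := rfl
  rw [this, Derivation.leibniz, G.zero_Dx]
  simp only [smul_eq_mul]
  ring

theorem zero_Yx (i : Fin 2) : G.zeroY i G.x ∈ G.R0 := by
  have h := G.u_ne
  have e : G.zeroY i G.x = G.x * (G.P0 i * G.x ^ 7) - G.y ^ 3 * (G.A i * G.x ^ 4) := by
    rw [zeroY, Derivation.smul_apply, smul_eq_mul, G.zero_Dx, G.Xf_u]
    simp only [P, x, y]
    field_simp
  rw [e]
  exact sub_mem (mul_mem G.zero_x (G.zero_dehom (G.P0_mem i)))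
    (mul_mem (pow_mem G.zero_y _) (G.zero_dehom (G.A_mem i)))

theorem zero_Yy (i : Fin 2) : G.zeroY i G.y ∈ G.R0 := by
  have h := G.u_ne
  have e : G.zeroY i G.y = G.y * (G.P0 i * G.x ^ 7) +
      (G.A i * G.x ^ 4) * ((G.g - G.w ^ 4) * G.x ^ 3) := by
    rw [zeroY, Derivation.smul_apply, smul_eq_mul, G.zero_Dy, G.Xf_u, G.Xf_w]
    simp only [P, x, y]
    field_simp
    ring
  rw [e]
  exact add_mem (mul_mem G.zero_y (G.zero_dehom (G.P0_mem i)))
    (mul_mem (G.zero_dehom (G.A_mem i)) (G.zero_dehom G.g_sub))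

theorem zero_YL (i : Fin 2) (j : Fin 4) : ∃ r ∈ G.R0, G.zeroY i (G.L j) = G.L j * r := by
  have h := G.u_ne
  refine ⟨G.P0 i * G.x ^ 7 + (G.A i * G.x ^ 4) * ((G.gj j - G.w ^ 3) * G.x ^ 2),
    add_mem (G.zero_dehom (G.P0_mem i))
      (mul_mem (G.zero_dehom (G.A_mem i)) (G.zero_dehom (G.gj_sub j))), ?_⟩
  have e1 : G.L j = G.W j * G.x := rfl
  have e2 : G.Xf i (G.W j) = G.Xf i G.w := by simp [W]
  rw [zeroY, Derivation.smul_apply, smul_eq_mul, e1, Derivation.leibniz, G.zero_Dx, e2, G.Xf_u,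
    G.Xf_w, G.g_eq j]
  simp only [P, x, smul_eq_mul]
  field_simp
  ring

theorem zero_pres (i : Fin 2) : Pres (G.zeroY i) G.R0 :=
  pres_adjoin _ _ (by
    rintro z (rfl | rfl)
    exacts [G.zero_Yx i, G.zero_Yy i])

theorem zero_wedge : wedge (G.zeroY 0) (G.zeroY 1) G.x G.y = -((∏ j, G.L j) * G.gam0) := by
  have h := G.wedge_Xf
  have e : ∏ j, G.L j = G.g * G.x ^ 4 := by
    simp only [L, g, x, Finset.prod_mul_distrib, Finset.prod_const, Finset.card_univ,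
      Fintype.card_fin]
  unfold wedge at *
  simp only [zeroY, Derivation.smul_apply, smul_eq_mul, G.zero_Dx, G.zero_Dy, e, gam0]
  linear_combination G.x ^ 15 * h

theorem zero_f0_ne (i : Fin 2) : G.f0 i ≠ 0 :=
  mul_ne_zero (G.F_ne i) (pow_ne_zero _ (inv_ne_zero G.u_ne))

theorem zero_gam0_ne : G.gam0 ≠ 0 :=
  mul_ne_zero G.Gam_ne (pow_ne_zero _ (inv_ne_zero G.u_ne))

theorem zero_root (i : Fin 2) : G.zeroP i ^ NN = (∏ j, G.L j ^ mm i j) / G.f0 i := by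
  have h := G.hφ i
  have hs : ∑ j, mm i j = 682 := by fin_cases i <;> decide
  have e : ∏ j, G.L j ^ mm i j = (∏ j, G.W j ^ mm i j) * G.x ^ 682 := by
    simp only [L, mul_pow, Finset.prod_mul_distrib, Finset.prod_pow_eq_pow_sum, hs, x]
  have h' : G.φ i ^ NN * G.F i = ∏ j, G.W j ^ mm i j := h
  have e2 : nF = 6 * NN + 682 := by
    unfold nF NN
    rfl
  have e3 : (G.u ^ 6) ^ NN * G.x ^ (6 * NN) = 1 := by
    rw [← pow_mul, ← mul_pow, x, mul_inv_cancel₀ G.u_ne, one_pow]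
  rw [eq_div_iff (G.zero_f0_ne i), e, ← h', zeroP, f0, e2, pow_add, mul_pow]
  linear_combination G.φ i ^ NN * G.F i * G.x ^ 682 * e3

theorem zero_gen {s : K} :
    s / G.Ftot = s * G.x ^ (374 * cc) * ((G.gam0 * G.f0 0 * G.f0 1)⁻¹) ^ 34 := by
  have hx : G.x ^ (374 * cc) ≠ 0 := pow_ne_zero _ (inv_ne_zero G.u_ne)
  rw [inv_pow, ← G.Ftot_zero, ← div_eq_mul_inv, mul_div_mul_right _ _ hx]

theorem zero_A0 (S : Subalgebra ℂ K) (h : G.R0 ≤ S) (h' : (G.gam0 * G.f0 0 * G.f0 1)⁻¹ ∈ S) :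
    G.A0 ≤ S := by
  apply Algebra.adjoin_le
  rintro z ⟨s, hs, rfl⟩
  simp only [SetLike.mem_coe]
  rw [G.zero_gen]
  exact mul_mem (h (G.zero_dehom (Pol0_le_Pol _ (G.nums_mem hs)))) (pow_mem h' _)

theorem zero_le' (f : K) : G.R0 ≤ Algebra.adjoin ℂ {G.x, G.y, f} :=
  Algebra.adjoin_mono (by
    rintro z (rfl | rfl)
    exacts [Or.inl rfl, Or.inr (Or.inl rfl)])

theorem zero_frac (S : Subalgebra ℂ K) (ha : G.x ∈ S) (hb : G.y ∈ S) (h0 : G.zeroP 0 ∈ S)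
    (h1 : G.zeroP 1 ∈ S) : FracTop S := by
  have h := G.u_ne
  have hx : G.x ≠ 0 := inv_ne_zero h
  refine G.fracTop_of S ⟨_, hb, _, ha, hx, rfl⟩ ⟨1, one_mem _, _, ha, hx, mul_inv_cancel₀ h⟩
    fun i => ⟨G.zeroP i * G.x ^ 6, mul_mem ?_ (pow_mem ha _), 1, one_mem _, one_ne_zero, ?_⟩
  · fin_cases i
    exacts [h0, h1]
  · rw [zeroP, x]
    field_simp

theorem zero_val_gam (V : ValuationSubring K) (hc : ∀ c : ℂ, algebraMap ℂ K c ∈ V)
    (hx : V.valuation G.x < 1) (hy : V.valuation G.y < 1) : V.valuation G.gam0 = 1 :=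
  lead_val V hc G.u_ne hx hy (by unfold kap; norm_num) G.Gam_lead

theorem zero_val_f (V : ValuationSubring K) (hc : ∀ c : ℂ, algebraMap ℂ K c ∈ V)
    (hx : V.valuation G.x < 1) (hy : V.valuation G.y < 1) (i : Fin 2) : V.valuation (G.f0 i) = 1 :=
  lead_val V hc G.u_ne hx hy one_ne_zero (G.F_lead i)

theorem gam0_mem : G.gam0 ∈ G.R0 := by
  exact G.zero_dehom (mem_Pol_of_lead G.Gam_lead)

theorem f0_mem (i : Fin 2) : G.f0 i ∈ G.R0 := by
  exact G.zero_dehom (G.F_mem i)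

theorem small_p (V : ValuationSubring K) (hc : ∀ c : ℂ, algebraMap ℂ K c ∈ V)
    (hx : V.valuation G.x < 1) (hy : V.valuation G.y < 1) : Small G.A0 V := by
  apply small_adjoin _ V hc
  rintro z ⟨s, hs, rfl⟩
  simp only
  rw [G.zero_gen, map_mul, map_pow, map_inv₀, map_mul _ _ (G.f0 1), map_mul _ G.gam0,
    G.zero_val_gam V hc hx hy, G.zero_val_f V hc hx hy, G.zero_val_f V hc hx hy]
  simp only [mul_one, inv_one, one_pow]
  exact Pol0_val V hc G.u_ne hx hy (G.nums_mem hs)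

theorem good_zero (V : ValuationSubring K) (hc : ∀ c : ℂ, algebraMap ℂ K c ∈ V)
    (hx : G.x ∈ V) (hy : G.y ∈ V) (hL : ∀ j, V.valuation (G.L j) = 1)
    (hg : V.valuation G.gam0 = 1) (hf : ∀ i, V.valuation (G.f0 i) = 1) :
    Good (G.v 0) (G.v 1) G.A0 V := by
  set f : K := (∏ j, G.L j) * G.gam0 * G.f0 0 * G.f0 1 with hfd
  have hLm : (∏ j, G.L j) ∈ G.R0 := prod_mem fun j _ => G.zero_L j
  have hf0 : f ≠ 0 := mul_ne_zero (mul_ne_zero (mul_ne_zero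
    (Finset.prod_ne_zero_iff.2 fun j _ => G.zero_L_ne j) G.zero_gam0_ne) (G.zero_f0_ne 0))
    (G.zero_f0_ne 1)
  have inv : ∀ {z c : K}, c ∈ G.R0 → f = z * c → z⁻¹ ∈ Algebra.adjoin ℂ {G.x, G.y, f⁻¹} :=
    fun hc' h => zero_inv (Algebra.subset_adjoin (Or.inr (Or.inr rfl))) hf0 (G.zero_le' _ hc') h
  have finv : ∀ i, (G.f0 i)⁻¹ ∈ Algebra.adjoin ℂ {G.x, G.y, f⁻¹} := by
    intro i
    fin_cases i
    · exact inv (mul_mem (mul_mem hLm G.gam0_mem) (G.f0_mem 1))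
        (by simp only [hfd, Fin.zero_eta]; ring)
    · exact inv (mul_mem (mul_mem hLm G.gam0_mem) (G.f0_mem 0))
        (by simp only [hfd, Fin.mk_one]; ring)
  have hU : ∀ i, (∏ j, G.L j ^ mm i j) / G.f0 i ∈ Algebra.adjoin ℂ {G.x, G.y, f⁻¹} := by
    intro i
    rw [div_eq_mul_inv]
    exact mul_mem (G.zero_le' _ (prod_mem fun j _ => pow_mem (G.zero_L j) _)) (finv i)
  have hU' : ∀ i, ((∏ j, G.L j ^ mm i j) / G.f0 i)⁻¹ ∈ Algebra.adjoin ℂ {G.x, G.y, f⁻¹} := by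
    intro i
    rw [inv_div, div_eq_mul_inv, ← Finset.prod_inv_distrib]
    refine mul_mem (G.zero_le' _ (G.f0_mem i)) (prod_mem fun k _ => ?_)
    rw [← inv_pow]
    refine pow_mem (inv (mul_mem (prod_mem (t := Finset.univ.erase k) fun l _ => G.zero_L l)
      (mul_mem (mul_mem G.gam0_mem (G.f0_mem 0)) (G.f0_mem 1))) ?_) _
    rw [hfd, ← Finset.mul_prod_erase _ _ (Finset.mem_univ k)]
    ring
  have hU0 : ∀ i, (∏ j, G.L j ^ mm i j) / G.f0 i ≠ 0 := fun i =>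
    div_ne_zero (Finset.prod_ne_zero_iff.2 fun j _ => pow_ne_zero _ (G.zero_L_ne j))
      (G.zero_f0_ne i)
  have e : 2 * 3069 = NN := by
    unfold NN
    rfl
  rw [G.zero_v 0, G.zero_v 1]
  refine good_of_chart V hc G.x G.y f 1 0 _ _ _ _ _ _ G.A0 NN 3069 (by unfold NN; norm_num)
    (by norm_num) hx hy (mul_mem (mul_mem (mul_mem hLm G.gam0_mem) (G.f0_mem 0)) (G.f0_mem 1))
    (by simp [hfd, hL, hg, hf]) (G.zero_Yx 0) (G.zero_Yy 0) (G.zero_Yx 1) (G.zero_Yy 1)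
    (one_mem _) one_ne_zero (zero_mem _) (by simp) (hU 0) (hU' 0) (hU0 0) (hU 1) (hU' 1) (hU0 1)
    (G.zero_root 0) (by rw [div_one, ← pow_mul, e, G.zero_root 1])
    (by rw [G.zero_wedge]; simp [hL, hg]) (Or.inl (by simp)) G.zero_frac
    (G.zero_A0 _ (G.zero_le' _) (inv hLm (by rw [hfd]; ring)))

theorem sing_p : Sing (G.v 0) (G.v 1) G.A0 G.Vp := by
  have hc := G.Vp_c
  have hx : G.Vp.valuation G.x < 1 := G.Vp_x
  have hy : G.Vp.valuation G.y < 1 := G.Vp_y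
  have hg := G.zero_val_gam _ hc hx hy
  have hf := G.zero_val_f _ hc hx hy
  set f : K := G.gam0 * G.f0 0 * G.f0 1 with hfd
  have hf0 : f ≠ 0 := mul_ne_zero (mul_ne_zero G.zero_gam0_ne (G.zero_f0_ne 0)) (G.zero_f0_ne 1)
  have inv : ∀ {z c : K}, c ∈ G.R0 → f = z * c → z⁻¹ ∈ Algebra.adjoin ℂ {G.x, G.y, f⁻¹} :=
    fun hc' h => zero_inv (Algebra.subset_adjoin (Or.inr (Or.inr rfl))) hf0 (G.zero_le' _ hc') h
  have finv : ∀ i, (G.f0 i)⁻¹ ∈ Algebra.adjoin ℂ {G.x, G.y, f⁻¹} := by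
    intro i
    fin_cases i
    · exact inv (mul_mem G.gam0_mem (G.f0_mem 1)) (by simp only [hfd, Fin.zero_eta]; ring)
    · exact inv (mul_mem G.gam0_mem (G.f0_mem 0)) (by simp only [hfd, Fin.mk_one]; ring)
  have hlog : ∀ i k, ∃ r ∈ Algebra.adjoin ℂ {G.x, G.y, f⁻¹},
      G.zeroY i (G.zeroP k) = G.zeroP k * r := by
    intro i k
    obtain ⟨r, hr, e⟩ := zero_log_prod (G.zeroY i) G.L (mm k) (G.zero_YL i)
    have hP : (∏ j, G.L j ^ mm k j) ≠ 0 :=
      Finset.prod_ne_zero_iff.2 fun j _ => pow_ne_zero _ (G.zero_L_ne j)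
    have h0 := G.zero_f0_ne k
    refine ⟨algebraMap ℂ K (NN : ℂ)⁻¹ * (r - G.zeroY i (G.f0 k) * (G.f0 k)⁻¹),
      mul_mem (Subalgebra.algebraMap_mem _ _) (sub_mem (G.zero_le' _ hr)
        (mul_mem (G.zero_le' _ (G.zero_pres i _ (G.f0_mem k))) (finv k))), ?_⟩
    rw [der_root (G.zeroY i) _ _ NN (by unfold NN; norm_num) (div_ne_zero hP h0) (G.zero_root k),
      Derivation.leibniz_div, e]
    simp only [smul_eq_mul]
    generalize (∏ j, G.L j ^ mm k j) = U at *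
    field_simp
  have hp : ∀ i, G.Vp.valuation (G.zeroP i) < 1 := by
    intro i
    have hL : ∀ j, G.Vp.valuation (G.L j) < 1 := by
      intro j
      rw [G.zero_L_eq]
      refine G.Vp.valuation.map_sub_lt hy ?_
      have := (G.Vp.valuation_le_one_iff _).2 (hc (wc j))
      rw [map_mul]
      calc _ ≤ 1 * G.Vp.valuation G.x := by gcongr
        _ < 1 := by simpa using hx
    have h1 : G.Vp.valuation (G.zeroP i) ^ NN < 1 := by
      rw [← map_pow, G.zero_root, map_div₀, hf, div_one, map_prod,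
        ← Finset.mul_prod_erase _ _ (Finset.mem_univ 0), map_pow]
      have b1 : ∏ j ∈ Finset.univ.erase 0, G.Vp.valuation (G.L j ^ mm i j) ≤ 1 :=
        Finset.prod_le_one' fun j _ => by
          rw [map_pow]
          exact pow_le_one₀ zero_le (hL j).le
      have b2 : mm i 0 ≠ 0 := by fin_cases i <;> decide
      calc _ ≤ G.Vp.valuation (G.L 0) ^ mm i 0 * 1 := by gcongr
        _ < 1 := by simpa using pow_lt_one₀ zero_le (hL 0) b2
    by_contra hn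
    exact absurd (one_le_pow₀ (not_lt.1 hn)) (not_le.2 h1)
  rw [G.zero_v 0, G.zero_v 1]
  exact sing_of_chart G.Vp hc G.x G.y f _ _ _ _ G.A0 ((G.Vp.valuation_le_one_iff _).1 hx.le)
    ((G.Vp.valuation_le_one_iff _).1 hy.le)
    (mul_mem (mul_mem G.gam0_mem (G.f0_mem 0)) (G.f0_mem 1)) (by simp [hfd, hg, hf])
    (G.zero_Yx 0) (G.zero_Yy 0) (G.zero_Yx 1) (G.zero_Yy 1) (hlog 0 0) (hlog 0 1) (hlog 1 0)
    (hlog 1 1) (hp 0) (hp 1) G.zero_frac
    (G.zero_A0 _ (G.zero_le' _) (Algebra.subset_adjoin (Or.inr (Or.inr rfl))))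
    (G.small_p _ hc hx hy)

end Setup

end Vale.Agent.P266
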